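import Crest.Agent.R248.Defs

/-!
# Row 248: basic API for the lifting classes
-/

set_option autoImplicit false
set_option linter.unusedSectionVars false
open CategoryTheory CategoryTheory.Limits Opposite Crest.GeometryTopology.Coherator

namespace Crest.Agent.R248

universe u v

variable {𝒟 : Type v} [Category.{u} 𝒟]

/-! ## Faces of shapes -/

theorem faceMap_comp {a b c : ℕ} (h : a < b) (h' : b < c) (ε ε' : Bool) :
    Shape.faceMap h ε ≫ Shape.faceMap h' ε' = Shape.faceMap (h.trans h') ε :=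
  ((GlobTheory.globeShapes.map_comp (GlobeObj.faceArrow h ε) (GlobeObj.faceArrow h' ε')).symm :)

/-- The last globe of a shape, as a map of shapes. -/
noncomputable def apx (S : Shape) : Shape.globe S.last ⟶ S := S.apex

theorem hinge_eq (S : Shape) {b : ℕ} (hb : b < S.last) :
    S.hinge hb = Shape.faceMap hb true ≫ apx S := rfl

theorem apx_glue (S : Shape) (b h : ℕ) (hb : b < S.last) (hh : b < h) :
    apx (S.glue b h hb hh) = S.inRight b h hb hh := rfl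

theorem apx_globe (n : ℕ) : apx (Shape.globe n) = 𝟙 (Shape.globe n) := rfl

theorem dim_globe (n : ℕ) : (Shape.globe n).dim = n := rfl

theorem dim_glue (S : Shape) (b h : ℕ) (hb : b < S.last) (hh : b < h) :
    (S.glue b h hb hh).dim = max S.dim h := rfl

/-- Induction on shapes. -/
theorem shape_induction {p : Shape → Prop} (h0 : ∀ n, p (Shape.globe n))
    (h1 : ∀ (S : Shape) (b h : ℕ) (hb : b < S.last) (hh : b < h), p S → p (S.glue b h hb hh))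
    (S : Shape) : p S := by
  obtain ⟨n, P⟩ := S
  induction P with
  | single h => exact h0 h
  | glue P b h hb hh ih => exact h1 ⟨_, P⟩ b h hb hh ih

theorem last_le_dim (S : Shape) : S.last ≤ S.dim := by
  induction S using shape_induction with
  | h0 n => exact le_rfl
  | h1 S b h hb hh _ => exact le_max_right _ _

/-! ## Lifting, elementwise -/

/-- Left lifting property, elementwise. -/
def Lifts {A B E X : 𝒟} (i : A ⟶ B) (q : E ⟶ X) : Prop :=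
  ∀ (f : A ⟶ E) (g : B ⟶ X), f ≫ q = i ≫ g → ∃ l : B ⟶ E, i ≫ l = f ∧ l ≫ q = g

theorem lifts_iff {A B E X : 𝒟} (i : A ⟶ B) (q : E ⟶ X) :
    Lifts i q ↔ HasLiftingProperty i q := by
  constructor
  · intro h
    refine ⟨fun {f g} sq => ?_⟩
    obtain ⟨l, h1, h2⟩ := h f g sq.w
    exact CommSq.HasLift.mk' ⟨l, h1, h2⟩
  · intro h f g w
    have sq : CommSq f i q g := ⟨w⟩
    exact ⟨sq.lift, sq.fac_left, sq.fac_right⟩

theorem llp_iff (T : MorphismProperty 𝒟) {A B : 𝒟} (i : A ⟶ B) :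
    T.llp i ↔ ∀ (E X : 𝒟) (q : E ⟶ X), T q → Lifts i q :=
  ⟨fun h _ _ q hq => (lifts_iff i q).2 (h q hq), fun h _ _ q hq => (lifts_iff i q).1 (h _ _ q hq)⟩

/-- Elementwise constructor for pushout squares. -/
theorem isPushout_of {A B C D : 𝒟} {f : A ⟶ B} {g : A ⟶ C} {i : B ⟶ D} {j : C ⟶ D}
    (w : f ≫ i = g ≫ j)
    (ex : ∀ (Z : 𝒟) (a : B ⟶ Z) (b : C ⟶ Z), f ≫ a = g ≫ b → ∃ l : D ⟶ Z, i ≫ l = a ∧ j ≫ l = b)
    (un : ∀ (Z : 𝒟) (l l' : D ⟶ Z), i ≫ l = i ≫ l' → j ≫ l = j ≫ l' → l = l') :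
    IsPushout f g i j :=
  ⟨⟨w⟩, ⟨PushoutCocone.IsColimit.mk w (fun s => (ex _ s.inl s.inr s.condition).choose)
    (fun s => (ex _ s.inl s.inr s.condition).choose_spec.1)
    (fun s => (ex _ s.inl s.inr s.condition).choose_spec.2)
    (fun s _ h1 h2 => un _ _ _ (h1.trans (ex _ s.inl s.inr s.condition).choose_spec.1.symm)
      (h2.trans (ex _ s.inl s.inr s.condition).choose_spec.2.symm))⟩⟩

theorem IsPushout.ex {A B C D : 𝒟} {f : A ⟶ B} {g : A ⟶ C} {i : B ⟶ D} {j : C ⟶ D}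
    (h : IsPushout f g i j) {Z : 𝒟} (a : B ⟶ Z) (b : C ⟶ Z) (w : f ≫ a = g ≫ b) :
    ∃ l : D ⟶ Z, i ≫ l = a ∧ j ≫ l = b := ⟨h.desc a b w, h.inl_desc _ _ _, h.inr_desc _ _ _⟩

namespace Seq

variable (P : Seq 𝒟)

@[simp] theorem face_false (k : ℕ) : P.face false k = P.σ k := rfl
@[simp] theorem face_true (k : ℕ) : P.face true k = P.τ k := rfl

variable {P}

theorem par_zero {Z : 𝒟} (a b : P.ob 0 ⟶ Z) : P.Par 0 a b := trivial

theorem par_succ {Z : 𝒟} {k : ℕ} (a b : P.ob (k + 1) ⟶ Z) :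
    P.Par (k + 1) a b ↔ P.σ k ≫ a = P.σ k ≫ b ∧ P.τ k ≫ a = P.τ k ≫ b := Iff.rfl

theorem Par.refl {Z : 𝒟} : ∀ {k : ℕ} (a : P.ob k ⟶ Z), P.Par k a a
  | 0, _ => trivial
  | _ + 1, _ => ⟨rfl, rfl⟩

theorem Par.symm {Z : 𝒟} : ∀ {k : ℕ} {a b : P.ob k ⟶ Z}, P.Par k a b → P.Par k b a
  | 0, _, _, _ => trivial
  | _ + 1, _, _, h => ⟨h.1.symm, h.2.symm⟩

theorem Par.trans {Z : 𝒟} : ∀ {k : ℕ} {a b c : P.ob k ⟶ Z}, P.Par k a b → P.Par k b c →
    P.Par k a c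
  | 0, _, _, _, _, _ => trivial
  | _ + 1, _, _, _, h, h' => ⟨h.1.trans h'.1, h.2.trans h'.2⟩

theorem Par.comp {Z Z' : 𝒟} (f : Z ⟶ Z') : ∀ {k : ℕ} {a b : P.ob k ⟶ Z}, P.Par k a b →
    P.Par k (a ≫ f) (b ≫ f)
  | 0, _, _, _ => trivial
  | _ + 1, _, _, h => ⟨by rw [← Category.assoc, h.1, Category.assoc],
      by rw [← Category.assoc, h.2, Category.assoc]⟩

/-- The source and the target of a cell are parallel. -/
theorem par_σ_τ {Z : 𝒟} : ∀ {k : ℕ} (z : P.ob (k + 1) ⟶ Z), P.Par k (P.σ k ≫ z) (P.τ k ≫ z)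
  | 0, _ => trivial
  | k + 1, _ => ⟨by rw [← Category.assoc, P.σσ, Category.assoc],
      by rw [← Category.assoc, P.ττ, Category.assoc]⟩

theorem par_face {Z : 𝒟} {k : ℕ} (z : P.ob (k + 1) ⟶ Z) (ε ε' : Bool) :
    P.Par k (P.face ε k ≫ z) (P.face ε' k ≫ z) := by
  cases ε <;> cases ε'
  · exact Par.refl _
  · exact par_σ_τ z
  · exact (par_σ_τ z).symm
  · exact Par.refl _

variable [HasFiniteColimits 𝒟] (P)

theorem ι_σ_τ (k : ℕ) : P.ι k ≫ P.σ k = P.ι k ≫ P.τ k := (P.bdData k).2.2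

/-- The source hemisphere of the boundary. -/
noncomputable def bs (k : ℕ) : P.ob k ⟶ P.bd (k + 1) := pushout.inl (P.ι k) (P.ι k)
/-- The target hemisphere of the boundary. -/
noncomputable def bt (k : ℕ) : P.ob k ⟶ P.bd (k + 1) := pushout.inr (P.ι k) (P.ι k)

theorem isPushout_bd (k : ℕ) : IsPushout (P.ι k) (P.ι k) (P.bs k) (P.bt k) :=
  IsPushout.of_hasPushout _ _

@[reassoc (attr := simp)]
theorem bs_ι (k : ℕ) : P.bs k ≫ P.ι (k + 1) = P.σ k := pushout.inl_desc _ _ _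

@[reassoc (attr := simp)]
theorem bt_ι (k : ℕ) : P.bt k ≫ P.ι (k + 1) = P.τ k := pushout.inr_desc _ _ _

/-- The boundary of the `0`-disk is initial. -/
noncomputable def isInitialBdZero : IsInitial (P.bd 0) := initialIsInitial

variable {P}

theorem bd_zero_ext {Z : 𝒟} (s s' : P.bd 0 ⟶ Z) : s = s' := P.isInitialBdZero.hom_ext _ _

theorem bd_ext {Z : 𝒟} {k : ℕ} {s s' : P.bd (k + 1) ⟶ Z} (h1 : P.bs k ≫ s = P.bs k ≫ s')
    (h2 : P.bt k ≫ s = P.bt k ≫ s') : s = s' := (P.isPushout_bd k).hom_ext h1 h2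

theorem ι_eq_iff {Z : 𝒟} : ∀ {k : ℕ} (a b : P.ob k ⟶ Z), P.ι k ≫ a = P.ι k ≫ b ↔ P.Par k a b
  | 0, _, _ => ⟨fun _ => trivial, fun _ => bd_zero_ext _ _⟩
  | k + 1, a, b => by
    constructor
    · intro h
      exact ⟨by rw [← bs_ι, Category.assoc, h, Category.assoc],
        by rw [← bt_ι, Category.assoc, h, Category.assoc]⟩
    · intro h
      exact bd_ext (by simpa using h.1) (by simpa using h.2)

theorem par_bs_bt {Z : 𝒟} {k : ℕ} (s : P.bd (k + 1) ⟶ Z) :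
    P.Par k (P.bs k ≫ s) (P.bt k ≫ s) := by
  rw [← ι_eq_iff, ← Category.assoc, (P.isPushout_bd k).w, Category.assoc]

/-- The sphere given by a parallel pair. -/
noncomputable def bdDesc {Z : 𝒟} {k : ℕ} (a b : P.ob k ⟶ Z) (h : P.Par k a b) :
    P.bd (k + 1) ⟶ Z := (P.isPushout_bd k).desc a b ((ι_eq_iff a b).2 h)

@[reassoc (attr := simp)]
theorem bs_bdDesc {Z : 𝒟} {k : ℕ} (a b : P.ob k ⟶ Z) (h : P.Par k a b) :
    P.bs k ≫ bdDesc a b h = a := (P.isPushout_bd k).inl_desc _ _ _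

@[reassoc (attr := simp)]
theorem bt_bdDesc {Z : 𝒟} {k : ℕ} (a b : P.ob k ⟶ Z) (h : P.Par k a b) :
    P.bt k ≫ bdDesc a b h = b := (P.isPushout_bd k).inr_desc _ _ _

/-! ### The four classes -/

theorem tf_iff_lifts {m : ℕ} {E B : 𝒟} (q : E ⟶ B) :
    P.TF m q ↔ ∀ k, m ≤ k → Lifts (P.ι k) q := by
  constructor
  · intro h k hk
    exact (lifts_iff _ _).2 (h _ (MorphismProperty.ofHoms.mk (⟨k, hk⟩ : {k : ℕ // m ≤ k})))
  · rintro h _ _ _ ⟨⟨k, hk⟩⟩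
    exact (lifts_iff _ _).1 (h k hk)

theorem fib_iff {m : ℕ} {E B : 𝒟} (q : E ⟶ B) :
    P.Fib m q ↔ ∀ k, m ≤ k → Lifts (P.σ k) q := by
  constructor
  · intro h k hk
    exact (lifts_iff _ _).2 (h _ (MorphismProperty.ofHoms.mk (⟨k, hk⟩ : {k : ℕ // m ≤ k})))
  · rintro h _ _ _ ⟨⟨k, hk⟩⟩
    exact (lifts_iff _ _).1 (h k hk)

theorem lifts_ι_zero {E B : 𝒟} (q : E ⟶ B) :
    Lifts (P.ι 0) q ↔ ∀ y : P.ob 0 ⟶ B, ∃ x : P.ob 0 ⟶ E, x ≫ q = y := by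
  constructor
  · intro h y
    obtain ⟨l, -, hl⟩ := h (P.isInitialBdZero.to E) y (bd_zero_ext _ _)
    exact ⟨l, hl⟩
  · intro h f g _
    obtain ⟨x, hx⟩ := h g
    exact ⟨x, bd_zero_ext _ _, hx⟩

theorem lifts_ι_succ {E B : 𝒟} (q : E ⟶ B) (k : ℕ) :
    Lifts (P.ι (k + 1)) q ↔ ∀ (a b : P.ob k ⟶ E), P.Par k a b → ∀ y : P.ob (k + 1) ⟶ B,
      P.σ k ≫ y = a ≫ q → P.τ k ≫ y = b ≫ q →
        ∃ x : P.ob (k + 1) ⟶ E, P.σ k ≫ x = a ∧ P.τ k ≫ x = b ∧ x ≫ q = y := by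
  constructor
  · intro h a b hab y h1 h2
    obtain ⟨l, hl, hl'⟩ := h (bdDesc a b hab) y (bd_ext (by simp [h1]) (by simp [h2]))
    refine ⟨l, ?_, ?_, hl'⟩
    · rw [← bs_ι, Category.assoc, hl, bs_bdDesc]
    · rw [← bt_ι, Category.assoc, hl, bt_bdDesc]
  · intro h f g w
    obtain ⟨x, h1, h2, h3⟩ := h (P.bs k ≫ f) (P.bt k ≫ f) (par_bs_bt f) g
      (by rw [Category.assoc, w, bs_ι_assoc]) (by rw [Category.assoc, w, bt_ι_assoc])
    exact ⟨x, bd_ext (by simpa using h1) (by simpa using h2), h3⟩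

theorem TF.lifts {m k : ℕ} {E B : 𝒟} {q : E ⟶ B} (hq : P.TF m q) (hk : m ≤ k) :
    Lifts (P.ι k) q := (tf_iff_lifts q).1 hq k hk

/-- Lifting a cell along a trivial fibration, with prescribed boundary. -/
theorem TF.lift {m k : ℕ} {E B : 𝒟} {q : E ⟶ B} (hq : P.TF m q) (hk : m ≤ k + 1)
    (a b : P.ob k ⟶ E) (hab : P.Par k a b) (y : P.ob (k + 1) ⟶ B)
    (h1 : P.σ k ≫ y = a ≫ q) (h2 : P.τ k ≫ y = b ≫ q) :
    ∃ x : P.ob (k + 1) ⟶ E, P.σ k ≫ x = a ∧ P.τ k ≫ x = b ∧ x ≫ q = y :=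
  (lifts_ι_succ q k).1 (hq.lifts hk) a b hab y h1 h2

/-- Lifting a cell along a trivial fibration, parallel to a given cell. -/
theorem TF.lift_par {m k : ℕ} {E B : 𝒟} {q : E ⟶ B} (hq : P.TF m q) (hk : m ≤ k)
    (a : P.ob k ⟶ E) (y : P.ob k ⟶ B) (h : P.Par k (a ≫ q) y) :
    ∃ x : P.ob k ⟶ E, P.Par k a x ∧ x ≫ q = y := by
  obtain ⟨l, hl, hl'⟩ := hq.lifts hk (P.ι k ≫ a) y
    (by rw [Category.assoc]; exact (ι_eq_iff _ _).2 h)
  exact ⟨l, (ι_eq_iff _ _).1 hl.symm, hl'⟩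

theorem Fib.lift {m k : ℕ} {E B : 𝒟} {q : E ⟶ B} (hq : P.Fib m q) (hk : m ≤ k)
    (a : P.ob k ⟶ E) (y : P.ob (k + 1) ⟶ B) (h : P.σ k ≫ y = a ≫ q) :
    ∃ x : P.ob (k + 1) ⟶ E, P.σ k ≫ x = a ∧ x ≫ q = y :=
  (fib_iff q).1 hq k hk a y h.symm

theorem cof_iff {m : ℕ} {A B : 𝒟} (i : A ⟶ B) :
    P.Cof m i ↔ ∀ (E X : 𝒟) (q : E ⟶ X), P.TF m q → Lifts i q := llp_iff _ i

theorem tc_iff {m : ℕ} {A B : 𝒟} (i : A ⟶ B) :
    P.TC m i ↔ ∀ (E X : 𝒟) (q : E ⟶ X), P.Fib m q → Lifts i q := llp_iff _ i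

theorem Cof.lifts {m : ℕ} {A B E X : 𝒟} {i : A ⟶ B} (hi : P.Cof m i) {q : E ⟶ X}
    (hq : P.TF m q) : Lifts i q := (cof_iff i).1 hi _ _ q hq

theorem TC.lifts {m : ℕ} {A B E X : 𝒟} {i : A ⟶ B} (hi : P.TC m i) {q : E ⟶ X}
    (hq : P.Fib m q) : Lifts i q := (tc_iff i).1 hi _ _ q hq

theorem TF.mono {m m' : ℕ} (h : m ≤ m') {E B : 𝒟} {q : E ⟶ B} (hq : P.TF m q) : P.TF m' q :=
  (tf_iff_lifts q).2 fun _ hk => hq.lifts (h.trans hk)

theorem Fib.mono {m m' : ℕ} (h : m ≤ m') {E B : 𝒟} {q : E ⟶ B} (hq : P.Fib m q) : P.Fib m' q :=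
  (fib_iff q).2 fun k hk => (fib_iff q).1 hq k (h.trans hk)

theorem Cof.mono {m m' : ℕ} (h : m ≤ m') {A B : 𝒟} {i : A ⟶ B} (hi : P.Cof m' i) : P.Cof m i :=
  (cof_iff i).2 fun _ _ _ hq => hi.lifts (hq.mono h)

theorem TC.mono {m m' : ℕ} (h : m ≤ m') {A B : 𝒟} {i : A ⟶ B} (hi : P.TC m' i) : P.TC m i :=
  (tc_iff i).2 fun _ _ _ hq => hi.lifts (hq.mono h)

theorem TF.fib {m : ℕ} {E B : 𝒟} {q : E ⟶ B} (hq : P.TF m q) : P.Fib m q := by
  refine (fib_iff q).2 fun k hk a y w => ?_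
  obtain ⟨b, hb, hb'⟩ := hq.lift_par hk a (P.τ k ≫ y) (by rw [w]; exact par_σ_τ y)
  obtain ⟨x, h1, -, h3⟩ := hq.lift (hk.trans (Nat.le_succ k)) a b hb y w.symm hb'.symm
  exact ⟨x, h1, h3⟩

theorem TC.cof {m : ℕ} {A B : 𝒟} {i : A ⟶ B} (hi : P.TC m i) : P.Cof m i :=
  (cof_iff i).2 fun _ _ _ hq => hi.lifts hq.fib

theorem cof_ι {m k : ℕ} (h : m ≤ k) : P.Cof m (P.ι k) :=
  (cof_iff _).2 fun _ _ _ hq => hq.lifts h

theorem tc_σ {m k : ℕ} (h : m ≤ k) : P.TC m (P.σ k) :=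
  (tc_iff _).2 fun _ _ q hq => (fib_iff q).1 hq k h

theorem cof_σ {m k : ℕ} (h : m ≤ k) : P.Cof m (P.σ k) := (tc_σ h).cof

theorem cof_τ {m k : ℕ} (h : m ≤ k) : P.Cof m (P.τ k) := by
  refine (cof_iff _).2 fun _ _ q hq b y w => ?_
  obtain ⟨a, ha, ha'⟩ := hq.lift_par h b (P.σ k ≫ y) (by rw [w]; exact (par_σ_τ y).symm)
  obtain ⟨x, -, h2, h3⟩ := hq.lift (h.trans (Nat.le_succ k)) a b ha.symm y ha'.symm w.symm
  exact ⟨x, h2, h3⟩

theorem cof_face {m k : ℕ} (h : m ≤ k) (ε : Bool) : P.Cof m (P.face ε k) := by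
  cases ε
  · exact cof_σ h
  · exact cof_τ h

theorem Cof.comp {m : ℕ} {A B C : 𝒟} {i : A ⟶ B} {j : B ⟶ C} (hi : P.Cof m i) (hj : P.Cof m j) :
    P.Cof m (i ≫ j) := (P.Ibd m).rlp.llp.comp_mem _ _ hi hj

theorem TC.comp {m : ℕ} {A B C : 𝒟} {i : A ⟶ B} {j : B ⟶ C} (hi : P.TC m i) (hj : P.TC m j) :
    P.TC m (i ≫ j) := (P.Isrc m).rlp.llp.comp_mem _ _ hi hj

theorem TF.comp {m : ℕ} {A B C : 𝒟} {i : A ⟶ B} {j : B ⟶ C} (hi : P.TF m i) (hj : P.TF m j) :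
    P.TF m (i ≫ j) := (P.Ibd m).rlp.comp_mem _ _ hi hj

theorem Fib.comp {m : ℕ} {A B C : 𝒟} {i : A ⟶ B} {j : B ⟶ C} (hi : P.Fib m i) (hj : P.Fib m j) :
    P.Fib m (i ≫ j) := (P.Isrc m).rlp.comp_mem _ _ hi hj

theorem cof_of_isIso (m : ℕ) {A B : 𝒟} (i : A ⟶ B) [IsIso i] : P.Cof m i :=
  MorphismProperty.llp_of_isIso _ i

theorem tc_of_isIso (m : ℕ) {A B : 𝒟} (i : A ⟶ B) [IsIso i] : P.TC m i :=
  MorphismProperty.llp_of_isIso _ i

theorem tf_of_isIso (m : ℕ) {A B : 𝒟} (i : A ⟶ B) [IsIso i] : P.TF m i :=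
  MorphismProperty.rlp_of_isIso _ i

/-- In a pushout square `IsPushout f i i' f'` (with `f ≫ i' = i ≫ f'`), `i'` is a cobase change of
`i`. -/
theorem Cof.of_isPushout {m : ℕ} {A A' B B' : 𝒟} {f : A ⟶ A'} {i : A ⟶ B} {i' : A' ⟶ B'}
    {f' : B ⟶ B'} (sq : IsPushout f i i' f') (hi : P.Cof m i) : P.Cof m i' :=
  MorphismProperty.of_isPushout (P := (P.Ibd m).rlp.llp) sq hi

theorem TC.of_isPushout {m : ℕ} {A A' B B' : 𝒟} {f : A ⟶ A'} {i : A ⟶ B} {i' : A' ⟶ B'}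
    {f' : B ⟶ B'} (sq : IsPushout f i i' f') (hi : P.TC m i) : P.TC m i' :=
  MorphismProperty.of_isPushout (P := (P.Isrc m).rlp.llp) sq hi

theorem Cof.inl {m : ℕ} {A A' B : 𝒟} (f : A ⟶ A') {i : A ⟶ B} (hi : P.Cof m i) :
    P.Cof m (pushout.inl f i) := hi.of_isPushout (IsPushout.of_hasPushout f i)

theorem Cof.inr {m : ℕ} {A A' B : 𝒟} {i : A ⟶ B} (f : A ⟶ A') (hi : P.Cof m i) :
    P.Cof m (pushout.inr i f) := hi.of_isPushout (IsPushout.of_hasPushout i f).flip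

theorem TC.inl {m : ℕ} {A A' B : 𝒟} (f : A ⟶ A') {i : A ⟶ B} (hi : P.TC m i) :
    P.TC m (pushout.inl f i) := hi.of_isPushout (IsPushout.of_hasPushout f i)

theorem TC.inr {m : ℕ} {A A' B : 𝒟} {i : A ⟶ B} (f : A ⟶ A') (hi : P.TC m i) :
    P.TC m (pushout.inr i f) := hi.of_isPushout (IsPushout.of_hasPushout i f).flip

/-! ### Cofibrant objects -/

theorem cofibrant_iff (X : 𝒟) : P.Cofibrant X ↔
    ∀ (E B : 𝒟) (q : E ⟶ B), P.TF 0 q → ∀ g : X ⟶ B, ∃ l : X ⟶ E, l ≫ q = g := by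
  constructor
  · intro h E B q hq g
    obtain ⟨l, -, hl⟩ := Cof.lifts h hq (initial.to E) g (initial.hom_ext _ _)
    exact ⟨l, hl⟩
  · intro h
    refine (cof_iff _).2 fun E B q hq f g _ => ?_
    obtain ⟨l, hl⟩ := h E B q hq g
    exact ⟨l, initial.hom_ext _ _, hl⟩

theorem Cofibrant.lift {X E B : 𝒟} (h : P.Cofibrant X) {q : E ⟶ B} (hq : P.TF 0 q) (g : X ⟶ B) :
    ∃ l : X ⟶ E, l ≫ q = g := (cofibrant_iff X).1 h E B q hq g

theorem Cofibrant.of_cof {m : ℕ} {X Y : 𝒟} (h : P.Cofibrant X) {i : X ⟶ Y} (hi : P.Cof m i) :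
    P.Cofibrant Y := by
  have := Cof.comp h (hi.mono (Nat.zero_le m))
  rwa [initial.hom_ext (initial.to X ≫ i) (initial.to Y)] at this

theorem cofibrant_of_isInitial {X : 𝒟} (h : IsInitial X) : P.Cofibrant X :=
  (cofibrant_iff X).2 fun E _ _ _ _ => ⟨h.to E, h.hom_ext _ _⟩

theorem cofibrant_bd : ∀ k, P.Cofibrant (P.bd k)
  | 0 => cofibrant_of_isInitial P.isInitialBdZero
  | k + 1 => ((cofibrant_bd k).of_cof (cof_ι (Nat.zero_le k))).of_cof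
      ((cof_ι (Nat.zero_le k)).of_isPushout (P.isPushout_bd k))

theorem cofibrant_ob (k : ℕ) : P.Cofibrant (P.ob k) :=
  (cofibrant_bd k).of_cof (cof_ι (Nat.zero_le k))

theorem UniqueFill.isIso_ι {N k : ℕ} (h : P.UniqueFill N) (hk : N ≤ k + 1) :
    IsIso (P.ι (k + 1)) := by
  obtain ⟨z, ⟨hz1, hz2⟩, -⟩ := h k hk _ (P.bs k) (P.bt k) (by simpa using par_bs_bt (𝟙 _))
  obtain ⟨w, -, hw⟩ := h k hk _ (P.σ k) (P.τ k) (by simpa using par_σ_τ (𝟙 _))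
  refine ⟨z, bd_ext (by simpa using hz1) (by simpa using hz2), ?_⟩
  rw [hw (z ≫ P.ι (k + 1)) ⟨by rw [← Category.assoc, hz1, bs_ι], by rw [← Category.assoc, hz2, bt_ι]⟩,
    hw (𝟙 _) ⟨Category.comp_id _, Category.comp_id _⟩]

/-! ### Contractible objects -/

variable [HasFiniteProducts 𝒟]

theorem Contr.fill {m k : ℕ} {Z : 𝒟} (h : P.Contr m Z) (hk : m ≤ k + 1) (a b : P.ob k ⟶ Z)
    (hab : P.Par k a b) : ∃ x : P.ob (k + 1) ⟶ Z, P.σ k ≫ x = a ∧ P.τ k ≫ x = b := by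
  obtain ⟨x, h1, h2, -⟩ := TF.lift h hk a b hab (terminal.from _) (terminal.hom_ext _ _)
    (terminal.hom_ext _ _)
  exact ⟨x, h1, h2⟩

theorem contr_succ_iff {m : ℕ} (Z : 𝒟) : P.Contr (m + 1) Z ↔ ∀ k, m ≤ k →
    ∀ (a b : P.ob k ⟶ Z), P.Par k a b → ∃ x : P.ob (k + 1) ⟶ Z, P.σ k ≫ x = a ∧ P.τ k ≫ x = b := by
  constructor
  · intro h k hk a b hab
    exact h.fill (Nat.succ_le_succ hk) a b hab
  · intro h
    refine (tf_iff_lifts _).2 fun k hk => ?_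
    obtain ⟨k, rfl⟩ : ∃ k', k = k' + 1 := ⟨k - 1, by omega⟩
    refine (lifts_ι_succ _ k).2 fun a b hab y _ _ => ?_
    obtain ⟨x, h1, h2⟩ := h k (by omega) a b hab
    exact ⟨x, h1, h2, terminal.hom_ext _ _⟩

theorem contr_iff {m : ℕ} (Z : 𝒟) : P.Contr m Z ↔ ∀ k, m ≤ k →
    ∀ s : P.bd k ⟶ Z, ∃ x : P.ob k ⟶ Z, P.ι k ≫ x = s := by
  constructor
  · intro h k hk s
    obtain ⟨x, h1, -⟩ := TF.lifts h hk s (terminal.from _) (terminal.hom_ext _ _)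
    exact ⟨x, h1⟩
  · intro h
    refine (tf_iff_lifts _).2 fun k hk s y _ => ?_
    obtain ⟨x, hx⟩ := h k hk s
    exact ⟨x, hx, terminal.hom_ext _ _⟩

theorem Contr.mono {m m' : ℕ} (h : m ≤ m') {Z : 𝒟} (hZ : P.Contr m Z) : P.Contr m' Z :=
  TF.mono h hZ

/-- Contractibility passes to retracts. -/
theorem Contr.of_retract {m : ℕ} {X Y : 𝒟} (hY : P.Contr m Y) (i : X ⟶ Y) (r : Y ⟶ X)
    (hir : i ≫ r = 𝟙 X) : P.Contr m X := by
  refine (contr_iff X).2 fun k hk s => ?_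
  obtain ⟨x, hx⟩ := (contr_iff Y).1 hY k hk (s ≫ i)
  exact ⟨x ≫ r, by rw [← Category.assoc, hx, Category.assoc, hir, Category.comp_id]⟩

theorem Contr.of_isIso {m : ℕ} {X Y : 𝒟} (hX : P.Contr m X) (f : X ⟶ Y) [IsIso f] :
    P.Contr m Y := hX.of_retract (inv f) f (IsIso.inv_hom_id f)

/-- Extension along a cofibration into a contractible object. -/
theorem Cof.extend {m : ℕ} {A B Z : 𝒟} {i : A ⟶ B} (hi : P.Cof m i) (hZ : P.Contr m Z)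
    (f : A ⟶ Z) : ∃ g : B ⟶ Z, i ≫ g = f := by
  obtain ⟨l, hl, -⟩ := hi.lifts hZ f (terminal.from _) (terminal.hom_ext _ _)
  exact ⟨l, hl⟩

end Seq

/-! ## Consequences of the context -/

namespace Ctx

variable [HasFiniteColimits 𝒟] [HasFiniteProducts 𝒟] {F : Shape ⥤ 𝒟} {N : ℕ} (c : Ctx F N)
include c

/-- Unit cells. -/
theorem exists_unit (k : ℕ) : ∃ w : (ofF F).ob (k + 1) ⟶ (ofF F).ob k,
    (ofF F).σ k ≫ w = 𝟙 _ ∧ (ofF F).τ k ≫ w = 𝟙 _ :=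
  c.contr (Shape.globe k) k (Nat.le_succ k) _ _ (Seq.Par.refl _)

/-- Every object is fibrant. -/
theorem fib_terminal (m : ℕ) (Z : 𝒟) : (ofF F).Fib m (terminal.from Z) := by
  refine (Seq.fib_iff _).2 fun k _ a y _ => ?_
  obtain ⟨w, hw, -⟩ := c.exists_unit k
  exact ⟨w ≫ a, by rw [← Category.assoc, hw, Category.id_comp], terminal.hom_ext _ _⟩

/-- Extension along a trivial cofibration. -/
theorem extend {m : ℕ} {A B Z : 𝒟} {i : A ⟶ B} (hi : (ofF F).TC m i) (f : A ⟶ Z) :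
    ∃ g : B ⟶ Z, i ≫ g = f := by
  obtain ⟨l, hl, -⟩ := hi.lifts (c.fib_terminal m Z) f (terminal.from _) (terminal.hom_ext _ _)
  exact ⟨l, hl⟩

/-- Contractibility moves backward along trivial cofibrations. -/
theorem contr_back {m n : ℕ} {X Y : 𝒟} {j : X ⟶ Y} (hj : (ofF F).TC n j)
    (hY : (ofF F).Contr m Y) : (ofF F).Contr m X := by
  obtain ⟨r, hr⟩ := c.extend hj (𝟙 X)
  exact hY.of_retract j r hr

theorem contr_obj (S : Shape) {m : ℕ} (hS : S.dim ≤ m + 1) : (ofF F).Contr (m + 1) (F.obj S) :=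
  (Seq.contr_succ_iff _).2 fun k hk a b hab => c.contr S k (by omega) a b hab

omit c in
theorem tc_faceMap {m b : ℕ} (hm : m ≤ b) : ∀ {h : ℕ} (hh : b < h),
    (ofF F).TC m (F.map (Shape.faceMap hh false))
  | 0, hh => absurd hh (Nat.not_lt_zero _)
  | h + 1, hh => by
    rcases Nat.lt_succ_iff_lt_or_eq.1 hh with h' | rfl
    · rw [← faceMap_comp h' (Nat.lt_succ_self h) false false, F.map_comp]
      exact (tc_faceMap hm h').comp (Seq.tc_σ (P := ofF F) (by omega))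
    · exact Seq.tc_σ (P := ofF F) hm

theorem cofibrant_obj (S : Shape) : (ofF F).Cofibrant (F.obj S) := by
  induction S using shape_induction with
  | h0 n => exact Seq.cofibrant_ob (P := ofF F) n
  | h1 S b h hb hh ih =>
    exact ih.of_cof ((tc_faceMap (Nat.zero_le b) hh).cof.of_isPushout (c.sums S b h hb hh))

/-- Every object embeds by a cofibration in a contractible object (itself if contractible). -/
theorem exists_fill (m : ℕ) (B : 𝒟) : ∃ (X : 𝒟) (f : B ⟶ X), (ofF F).Cof m f ∧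
    (ofF F).Contr m X ∧ ((ofF F).Contr m B → IsIso f) := by
  by_cases hB : (ofF F).Contr m B
  · exact ⟨B, 𝟙 B, Seq.cof_of_isIso _ _, hB, fun _ => inferInstance⟩
  · obtain ⟨d⟩ := (c.factTF m).nonempty_mapFactorizationData (terminal.from B)
    refine ⟨d.Z, d.i, d.hi, ?_, fun h => absurd h hB⟩
    have := d.hp
    rwa [terminal.hom_ext d.p (terminal.from _)] at this

end Ctx

end Crest.Agent.R248
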