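import Crest.Agent.R248.Basic

/-!
# Row 248: cells of truncated models as maps out of free models
-/

set_option autoImplicit false
set_option linter.unusedSectionVars false
open CategoryTheory CategoryTheory.Limits Opposite Crest.GeometryTopology.Coherator

namespace Crest.Agent.R248

universe u

variable {C : GlobTheory.{u}} {N : ℕ} {L : PSh C ⥤ DD C N} (adj : L ⊣ (Good C N).ι)

/-- Maps out of a free truncated model are tuples. -/
noncomputable def cellEquiv (S : C.Ob) (Z : DD C N) :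
    ((FC L).obj S ⟶ Z) ≃ Z.obj.obj (op S) :=
  (adj.homEquiv (yoneda.obj S) Z).trans yonedaEquiv

theorem cellEquiv_comp {S : C.Ob} {Z Z' : DD C N} (x : (FC L).obj S ⟶ Z) (f : Z ⟶ Z') :
    cellEquiv adj S Z' (x ≫ f) = f.hom.app (op S) (cellEquiv adj S Z x) := by
  change yonedaEquiv (adj.homEquiv _ _ (x ≫ f)) = _
  rw [adj.homEquiv_naturality_right, yonedaEquiv_comp]
  rfl

theorem cellEquiv_map {S S' : C.Ob} {Z : DD C N} (g : S' ⟶ S) (x : (FC L).obj S ⟶ Z) :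
    cellEquiv adj S' Z ((FC L).map g ≫ x) = Z.obj.map g.op (cellEquiv adj S Z x) := by
  change yonedaEquiv (adj.homEquiv _ _ (L.map (yoneda.map g) ≫ x)) = _
  rw [adj.homEquiv_naturality_left, ← yonedaEquiv_naturality]
  rfl

/-- The unit on an operation. -/
theorem cellEquiv_FC_map {S S' : C.Ob} (g : S' ⟶ S) :
    cellEquiv adj S' ((FC L).obj S) ((FC L).map g) = (adj.unit.app (yoneda.obj S)).app (op S') g := by
  change yonedaEquiv (adj.homEquiv _ _ (L.map (yoneda.map g))) = _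
  rw [Adjunction.homEquiv_unit]
  erw [← adj.unit.naturality (yoneda.map g)]
  change (adj.unit.app (yoneda.obj S)).app (op S') ((yoneda.map g).app (op S') (𝟙 S')) = _
  congr 1
  simp

/-- Cells of a truncated model. -/
noncomputable def cE (k : ℕ) (Z : DD C N) :
    ((ofF (FF L)).ob k ⟶ Z) ≃ (cellsOf C Z.obj).cell k :=
  cellEquiv adj ⟨Shape.globe k⟩ Z

theorem cE_σ {k : ℕ} {Z : DD C N} (x : (ofF (FF L)).ob (k + 1) ⟶ Z) :
    cE adj k Z ((ofF (FF L)).σ k ≫ x) = (cellsOf C Z.obj).src k (cE adj (k + 1) Z x) :=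
  cellEquiv_map adj (C.incl.map (Shape.σ k)) x

theorem cE_τ {k : ℕ} {Z : DD C N} (x : (ofF (FF L)).ob (k + 1) ⟶ Z) :
    cE adj k Z ((ofF (FF L)).τ k ≫ x) = (cellsOf C Z.obj).tgt k (cE adj (k + 1) Z x) :=
  cellEquiv_map adj (C.incl.map (Shape.τ k)) x

theorem cE_comp {k : ℕ} {Z Z' : DD C N} (x : (ofF (FF L)).ob k ⟶ Z) (f : Z ⟶ Z') :
    cE adj k Z' (x ≫ f) =
      (GlobTheory.GlobModel.cellsMap (toModelMap f)).app k (cE adj k Z x) :=
  cellEquiv_comp adj x f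

theorem par_iff_areParallel {Z : DD C N} : ∀ {k : ℕ} (a b : (ofF (FF L)).ob k ⟶ Z),
    (ofF (FF L)).Par k a b ↔ (cellsOf C Z.obj).AreParallel k (cE adj k Z a) (cE adj k Z b)
  | 0, _, _ => Iff.rfl
  | k + 1, a, b => by
    change _ ∧ _ ↔ _ ∧ _
    rw [← cE_σ, ← cE_σ, ← cE_τ, ← cE_τ, (cE adj k Z).apply_eq_iff_eq, (cE adj k Z).apply_eq_iff_eq]

include adj in
theorem uniq_FF : (ofF (FF L)).UniqueFill N := by
  intro k hk Z a b hab
  obtain ⟨z, ⟨h1, h2⟩, hz⟩ := Z.property.2 k hk _ _ ((par_iff_areParallel adj a b).1 hab)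
  refine ⟨(cE adj (k + 1) Z).symm z, ⟨(cE adj k Z).injective ?_, (cE adj k Z).injective ?_⟩, ?_⟩
  · rw [cE_σ, Equiv.apply_symm_apply, h1]
  · rw [cE_τ, Equiv.apply_symm_apply, h2]
  · rintro y ⟨h3, h4⟩
    rw [← hz (cE adj (k + 1) Z y) ⟨by rw [← cE_σ, h3], by rw [← cE_τ, h4]⟩,
      Equiv.symm_apply_apply]

include adj in
theorem sums_FF : Sums (FF L) := by
  intro S b h hb hh
  refine isPushout_of (((C.respectsSums S b h hb hh).toCommSq.map (FC L)).w) ?_ ?_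
  · intro Z x y w
    obtain ⟨z, hz1, hz2⟩ := Types.exists_of_isPullback (Z.property.1 S b h hb hh)
      (cellEquiv adj _ _ x) (cellEquiv adj _ _ y) (by
        rw [← cellEquiv_map, ← cellEquiv_map]
        exact congrArg _ w)
    refine ⟨(cellEquiv adj _ _).symm z, ?_, ?_⟩
    · apply (cellEquiv adj _ _).injective
      exact (cellEquiv_map adj _ _).trans (by rw [Equiv.apply_symm_apply]; exact hz1)
    · apply (cellEquiv adj _ _).injective
      exact (cellEquiv_map adj _ _).trans (by rw [Equiv.apply_symm_apply]; exact hz2)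
  · intro Z l l' h1 h2
    apply (cellEquiv adj _ _).injective
    apply Types.ext_of_isPullback (Z.property.1 S b h hb hh)
    · exact (cellEquiv_map adj _ _).symm.trans ((congrArg _ h1).trans (cellEquiv_map adj _ _))
    · exact (cellEquiv_map adj _ _).symm.trans ((congrArg _ h2).trans (cellEquiv_map adj _ _))

theorem contr_FF (hC : C.IsCoheratorTheory) (hcosk : CoskStmt adj) (S : Shape) (k : ℕ)
    (hS : S.dim ≤ k + 1) (a b : (FF L).obj (Shape.globe k) ⟶ (FF L).obj S)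
    (hab : (ofF (FF L)).Par k a b) :
    ∃ z : (FF L).obj (Shape.globe (k + 1)) ⟶ (FF L).obj S,
      (FF L).map (Shape.σ k) ≫ z = a ∧ (FF L).map (Shape.τ k) ≫ z = b := by
  by_cases hk : N ≤ k + 1
  · obtain ⟨z, hz, -⟩ := uniq_FF adj k hk _ a b hab
    exact ⟨z, hz⟩
  have hb : ∀ i, i < N → Function.Bijective
      (fun g : C.arr (Shape.globe i) S =>
        ((FC L).map (X := ⟨Shape.globe i⟩) (Y := ⟨S⟩) g :
          (FF L).obj (Shape.globe i) ⟶ (FF L).obj S)) := by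
    intro i hi
    rw [← Function.Bijective.of_comp_iff' (cellEquiv adj ⟨Shape.globe i⟩ _).bijective]
    have h0 := hcosk (GlobTheory.GlobModel.freeOn C S) i hi
    have h1 : (cellEquiv adj ⟨Shape.globe i⟩ ((FC L).obj ⟨S⟩)) ∘ (fun g : C.arr (Shape.globe i) S =>
        ((FC L).map (X := ⟨Shape.globe i⟩) (Y := ⟨S⟩) g :
          (FF L).obj (Shape.globe i) ⟶ (FF L).obj S)) =
        fun g => (adj.unit.app (yoneda.obj (⟨S⟩ : C.Ob))).app (op ⟨Shape.globe i⟩) g :=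
      funext fun g => cellEquiv_FC_map adj (S' := ⟨Shape.globe i⟩) (S := ⟨S⟩) g
    exact h1 ▸ h0
  obtain ⟨l, rfl⟩ := (hb k (by omega)).2 a
  obtain ⟨r, rfl⟩ := (hb k (by omega)).2 b
  have hpar : C.OpsParallel k l r := by
    cases k with
    | zero => trivial
    | succ k =>
      refine ⟨(hb k (by omega)).1 ?_, (hb k (by omega)).1 ?_⟩
      · exact (((FC L).map_comp (X := ⟨Shape.globe k⟩) (Y := ⟨Shape.globe (k + 1)⟩) (Z := ⟨S⟩)
          _ l).trans hab.1).trans ((FC L).map_comp (X := ⟨Shape.globe k⟩)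
            (Y := ⟨Shape.globe (k + 1)⟩) (Z := ⟨S⟩) _ r).symm
      · exact (((FC L).map_comp (X := ⟨Shape.globe k⟩) (Y := ⟨Shape.globe (k + 1)⟩) (Z := ⟨S⟩)
          _ l).trans hab.2).trans ((FC L).map_comp (X := ⟨Shape.globe k⟩)
            (Y := ⟨Shape.globe (k + 1)⟩) (Z := ⟨S⟩) _ r).symm
  obtain ⟨z, h1, h2⟩ := hC.2 ⟨k, S, hS, l, r, hpar⟩
  refine ⟨(FC L).map (X := ⟨Shape.globe (k + 1)⟩) (Y := ⟨S⟩) z, ?_, ?_⟩
  · exact ((FC L).map_comp (X := ⟨Shape.globe k⟩) (Y := ⟨Shape.globe (k + 1)⟩) (Z := ⟨S⟩)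
      _ z).symm.trans (congrArg ((FC L).map (X := ⟨Shape.globe k⟩) (Y := ⟨S⟩)) h1)
  · exact ((FC L).map_comp (X := ⟨Shape.globe k⟩) (Y := ⟨Shape.globe (k + 1)⟩) (Z := ⟨S⟩)
      _ z).symm.trans (congrArg ((FC L).map (X := ⟨Shape.globe k⟩) (Y := ⟨S⟩)) h2)

end Crest.Agent.R248
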