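import Crest.Agent.R248.Basic

/-!
# Row 248: the unit of the reflection does not change low-dimensional cells
-/

set_option autoImplicit false
set_option linter.unusedSectionVars false
open CategoryTheory CategoryTheory.Limits Opposite Crest.GeometryTopology.Coherator

namespace Crest.Agent.R248

universe u v

namespace Cosk

section Abstract

variable {𝒜 : Type v} [Category.{u} 𝒜]

theorem ext_of_uniq {P : Seq 𝒜} {N k : ℕ} (h : P.UniqueFill N) (hk : N ≤ k + 1) {Z : 𝒜}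
    (x y : P.ob (k + 1) ⟶ Z) (h1 : P.σ k ≫ x = P.σ k ≫ y) (h2 : P.τ k ≫ x = P.τ k ≫ y) :
    x = y := by
  obtain ⟨z, -, hz⟩ := h k hk Z _ _ (Seq.par_σ_τ x)
  exact (hz x ⟨rfl, rfl⟩).trans (hz y ⟨h1.symm, h2.symm⟩).symm

theorem nat_ext {Ψ Ψ' : Shape ⥤ 𝒜} (hΨ : Sums Ψ) (α β : Ψ ⟶ Ψ')
    (h : ∀ k, α.app (Shape.globe k) = β.app (Shape.globe k)) (S : Shape) :
    α.app S = β.app S := by
  induction S using shape_induction with
  | h0 n => exact h n
  | h1 S b h' hb hh ih =>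
    apply (hΨ S b h' hb hh).hom_ext
    · rw [α.naturality, β.naturality, ih]
    · rw [α.naturality, β.naturality, h]

theorem isIso_app {Ψ Ψ' : Shape ⥤ 𝒜} (hΨ : Sums Ψ) (hΨ' : Sums Ψ') (α : Ψ ⟶ Ψ') {N : ℕ}
    (h : ∀ k, k < N → IsIso (α.app (Shape.globe k))) (S : Shape) (hS : S.dim < N) :
    IsIso (α.app S) := by
  induction S using shape_induction with
  | h0 n => exact h n hS
  | h1 S b h' hb hh ih =>
    rw [dim_glue] at hS
    have i1 := ih (lt_of_le_of_lt (le_max_left _ _) hS)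
    have i2 := h h' (lt_of_le_of_lt (le_max_right _ _) hS)
    have i3 := h b (lt_trans hh (lt_of_le_of_lt (le_max_right _ _) hS))
    have w : Ψ'.map (S.hinge hb) ≫ (inv (α.app S) ≫ Ψ.map (S.inLeft b h' hb hh)) =
        Ψ'.map (Shape.faceMap hh false) ≫
          (inv (α.app (Shape.globe h')) ≫ Ψ.map (S.inRight b h' hb hh)) := by
      rw [← cancel_epi (α.app (Shape.globe b)), ← α.naturality_assoc, ← α.naturality_assoc,
        IsIso.hom_inv_id_assoc, IsIso.hom_inv_id_assoc]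
      exact (hΨ S b h' hb hh).w
    obtain ⟨l, hl1, hl2⟩ := IsPushout.ex (hΨ' S b h' hb hh) _ _ w
    refine ⟨l, ?_, ?_⟩
    · apply (hΨ S b h' hb hh).hom_ext
      · rw [α.naturality_assoc, hl1, IsIso.hom_inv_id_assoc, Category.comp_id]
      · rw [α.naturality_assoc, hl2, IsIso.hom_inv_id_assoc, Category.comp_id]
    · apply (hΨ' S b h' hb hh).hom_ext
      · rw [← Category.assoc, hl1, Category.assoc, α.naturality, IsIso.inv_hom_id_assoc,
          Category.comp_id]
      · rw [← Category.assoc, hl2, Category.assoc, α.naturality, IsIso.inv_hom_id_assoc,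
          Category.comp_id]

variable {C : GlobTheory.{u}}

/-- An action of the operations on a functor on shapes. -/
structure IsAct (C : GlobTheory.{u}) (Ψ : Shape ⥤ 𝒜)
    (G : ∀ S T : Shape, C.arr S T → (Ψ.obj S ⟶ Ψ.obj T)) : Prop where
  sh : ∀ (S T : Shape) (f : S ⟶ T), G S T (C.ofShape f) = Ψ.map f
  seq : ∀ (S T U : Shape) (g : C.arr S T) (g' : C.arr T U),
    G S U (C.seq g g') = G S T g ≫ G T U g'

theorem exists_act (hL : LiftStmt C 𝒜) {N : ℕ} {FX FZ : Shape ⥤ 𝒜}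
    {GX : ∀ S T : Shape, C.arr S T → (FX.obj S ⟶ FX.obj T)}
    {GZ : ∀ S T : Shape, C.arr S T → (FZ.obj S ⟶ FZ.obj T)}
    (aX : IsAct C FX GX) (aZ : IsAct C FZ GZ) (η : FZ ⟶ FX)
    (hη : ∀ S T g, GZ S T g ≫ η.app T = η.app S ≫ GX S T g)
    (hX : Sums FX) (hZ : Sums FZ) (uZ : (ofF FZ).UniqueFill N)
    (Ψ : Shape ⥤ 𝒜) (hΨ : Sums Ψ) (uΨ : (ofF Ψ).UniqueFill N)
    (α : Ψ ⟶ FX) (β : FZ ⟶ Ψ) (hαβ : ∀ S, β.app S ≫ α.app S = η.app S)
    (hα : ∀ k, k < N → IsIso (α.app (Shape.globe k))) :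
    ∃ G : ∀ S T : Shape, C.arr S T → (Ψ.obj S ⟶ Ψ.obj T), IsAct C Ψ G ∧
      ∀ S T g, G S T g ≫ α.app T = α.app S ≫ GX S T g ∧
        β.app S ≫ G S T g = GZ S T g ≫ β.app T := by
  obtain ⟨G, hG1, hG2, hG3⟩ := hL Ψ hΨ
    (fun S T g φ => φ ≫ α.app T = α.app S ≫ GX S T g ∧ β.app S ≫ φ = GZ S T g ≫ β.app T)
    (fun S T f => ⟨by rw [aX.sh, α.naturality], by rw [aZ.sh, β.naturality]⟩)
    (by
      rintro S T U g g' φ φ' ⟨h1, h2⟩ ⟨h3, h4⟩
      refine ⟨?_, ?_⟩
      · rw [Category.assoc, h3, ← Category.assoc, h1, Category.assoc, aX.seq]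
      · rw [← Category.assoc, h2, Category.assoc, h4, aZ.seq, Category.assoc])
    (by
      rintro S b h hb hh T g φ ⟨h1, h2⟩ ⟨h3, h4⟩
      refine ⟨?_, ?_⟩
      · apply (hΨ S b h hb hh).hom_ext
        · rw [← Category.assoc, h1, aX.seq, aX.sh, α.naturality_assoc]
        · rw [← Category.assoc, h3, aX.seq, aX.sh, α.naturality_assoc]
      · apply (hZ S b h hb hh).hom_ext
        · rw [β.naturality_assoc, h2, aZ.seq, aZ.sh, Category.assoc]
        · rw [β.naturality_assoc, h4, aZ.seq, aZ.sh, Category.assoc])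
    (by
      rintro A k hA z l r hlr ⟨h1, h2⟩ ⟨h3, h4⟩
      by_cases hk : N ≤ k + 1
      · obtain ⟨φ, ⟨e1, e2⟩, -⟩ := uΨ k hk _ l r hlr
        dsimp only at φ e1 e2
        refine ⟨φ, e1, e2, ?_, ?_⟩
        · apply ext_of_uniq uΨ hk
          · dsimp only
            rw [← Category.assoc, e1, h1, aX.seq, aX.sh, α.naturality_assoc]
          · dsimp only
            rw [← Category.assoc, e2, h3, aX.seq, aX.sh, α.naturality_assoc]
        · apply ext_of_uniq uZ hk
          · dsimp only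
            rw [β.naturality_assoc, e1, h2, aZ.seq, aZ.sh, Category.assoc]
          · dsimp only
            rw [β.naturality_assoc, e2, h4, aZ.seq, aZ.sh, Category.assoc]
      · have iA := isIso_app hΨ hX α hα A (by omega)
        refine ⟨α.app (Shape.globe (k + 1)) ≫ GX _ _ z ≫ inv (α.app A), ?_, ?_, ?_, ?_⟩
        · rw [← cancel_mono (α.app A), h1, aX.seq, aX.sh, α.naturality_assoc]
          simp
        · rw [← cancel_mono (α.app A), h3, aX.seq, aX.sh, α.naturality_assoc]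
          simp
        · simp
        · rw [← cancel_mono (α.app A)]
          simp only [Category.assoc, IsIso.inv_hom_id, Category.comp_id]
          rw [hαβ, ← Category.assoc, hαβ, hη])
  exact ⟨G, ⟨hG1, hG2⟩, hG3⟩

end Abstract

section Types

/-- Elementwise parallelism. -/
def EPar (P : Seq (Type u)ᵒᵖ) : (k : ℕ) → (P.ob k).unop → (P.ob k).unop → Prop
  | 0, _, _ => True
  | k + 1, a, b => (P.σ k).unop a = (P.σ k).unop b ∧ (P.τ k).unop a = (P.τ k).unop b

/-- Elementwise unique fillers. -/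
def EUniq (P : Seq (Type u)ᵒᵖ) (N : ℕ) : Prop :=
  ∀ k, N ≤ k + 1 → ∀ a b : (P.ob k).unop, EPar P k a b →
    ∃! z : (P.ob (k + 1)).unop, (P.σ k).unop z = a ∧ (P.τ k).unop z = b

theorem op_ext {A B : (Type u)ᵒᵖ} {f g : A ⟶ B} (h : ∀ x, f.unop x = g.unop x) : f = g :=
  Quiver.Hom.unop_inj (ConcreteCategory.hom_ext _ _ h)

theorem op_congr {A B : (Type u)ᵒᵖ} {f g : A ⟶ B} (h : f = g) (x : B.unop) :
    f.unop x = g.unop x := by rw [h]

theorem uniqueFill_of {P : Seq (Type u)ᵒᵖ} {N : ℕ} (h : EUniq P N) : P.UniqueFill N := by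
  intro k hk Z a b hab
  have hp : ∀ x, EPar P k (a.unop x) (b.unop x) := by
    intro x
    cases k with
    | zero => trivial
    | succ k => exact ⟨op_congr hab.1 x, op_congr hab.2 x⟩
  choose z hz hu using fun x => h k hk _ _ (hp x)
  refine ⟨(TypeCat.ofHom z).op, ⟨op_ext fun x => (hz x).1, op_ext fun x => (hz x).2⟩, ?_⟩
  rintro y ⟨h1, h2⟩
  exact op_ext fun x => hu x _ ⟨op_congr h1 x, op_congr h2 x⟩

theorem eUniq_of {P : Seq (Type u)ᵒᵖ} {N : ℕ} (h : P.UniqueFill N) : EUniq P N := by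
  intro k hk a b hab
  obtain ⟨z, ⟨h1, h2⟩, hu⟩ := h k hk (op PUnit.{u + 1}) (TypeCat.ofHom fun _ => a).op
    (TypeCat.ofHom fun _ => b).op (by
      cases k with
      | zero => trivial
      | succ k => exact ⟨op_ext fun _ => hab.1, op_ext fun _ => hab.2⟩)
  refine ⟨z.unop PUnit.unit, ⟨op_congr h1 PUnit.unit, op_congr h2 PUnit.unit⟩, ?_⟩
  rintro y ⟨h3, h4⟩
  exact op_congr (hu (TypeCat.ofHom fun _ => y).op ⟨op_ext fun _ => h3, op_ext fun _ => h4⟩)
    PUnit.unit

end Types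

section Cells

/-- The face of a globe on a given side. -/
def gface (ε : Bool) (k : ℕ) : GlobeObj.mk k ⟶ GlobeObj.mk (k + 1) :=
  GlobeObj.faceArrow (Nat.lt_succ_self k) ε

theorem exists_down {j k : ℕ} (h : j < k + 1) (w : GlobeObj.mk j ⟶ GlobeObj.mk (k + 1)) :
    ∃ (ε : Bool) (w' : GlobeObj.mk j ⟶ GlobeObj.mk k), w' ≫ gface ε k = w := by
  have key : ∀ (a b : ℕ) (w : GlobeObj.Arrow a b) (h : a < b), ∃ ε, w = .pole h ε := by
    intro a b w h
    cases w with
    | refl => exact absurd h (lt_irrefl _)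
    | pole _ ε => exact ⟨ε, rfl⟩
  obtain ⟨ε, rfl⟩ := key j (k + 1) w h
  rcases Nat.lt_succ_iff_lt_or_eq.1 h with h' | rfl
  · exact ⟨ε, GlobeObj.faceArrow h' ε, rfl⟩
  · exact ⟨ε, 𝟙 _, rfl⟩

theorem down_cases {j k : ℕ} (ε ε' : Bool) (w w' : GlobeObj.mk j ⟶ GlobeObj.mk k)
    (h : w ≫ gface ε k = w' ≫ gface ε' k) : w = w' ∧ (ε = ε' ∨ j < k) := by
  have key : ∀ (a b : ℕ) (w w' : GlobeObj.Arrow a b),
      w.seq (.pole (Nat.lt_succ_self b) ε) = w'.seq (.pole (Nat.lt_succ_self b) ε') →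
      w = w' ∧ (ε = ε' ∨ a < b) := by
    intro a b w w' h
    cases w with
    | refl =>
      cases w' with
      | refl =>
        refine ⟨rfl, Or.inl ?_⟩
        simpa [GlobeObj.Arrow.seq] using h
      | pole h' _ => exact absurd h' (lt_irrefl _)
    | pole h1 δ =>
      cases w' with
      | refl => exact absurd h1 (lt_irrefl _)
      | pole h' δ' =>
        refine ⟨?_, Or.inr h1⟩
        have : δ = δ' := by simpa [GlobeObj.Arrow.seq] using h
        rw [this]
  exact key j k w w' h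

variable {X Z : GlobPsh.{u}} (η : X ⟶ Z) (N : ℕ)

/-- Cells of the relative coskeleton. -/
@[ext]
structure Cell (k : ℕ) : Type u where
  f : ∀ j, j < N → (GlobeObj.mk j ⟶ GlobeObj.mk k) → X.obj (op ⟨j⟩)
  z : Z.obj (op ⟨k⟩)
  nat : ∀ i j (hi : i < N) (hj : j < N) (g : GlobeObj.mk i ⟶ GlobeObj.mk j)
    (w : GlobeObj.mk j ⟶ GlobeObj.mk k), f i hi (g ≫ w) = X.map g.op (f j hj w)
  cmp : ∀ j (hj : j < N) (w : GlobeObj.mk j ⟶ GlobeObj.mk k),
    η.app _ (f j hj w) = Z.map w.op z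

variable {η N}

/-- Restriction of cells. -/
def Cell.res {k k' : ℕ} (v : GlobeObj.mk k ⟶ GlobeObj.mk k') (c : Cell η N k') : Cell η N k where
  f j hj w := c.f j hj (w ≫ v)
  z := Z.map v.op c.z
  nat i j hi hj g w := by rw [Category.assoc, c.nat i j hi hj]
  cmp j hj w := by rw [c.cmp, op_comp, Functor.map_comp_apply]

theorem Cell.res_res {k k' k'' : ℕ} (v : GlobeObj.mk k ⟶ GlobeObj.mk k')
    (v' : GlobeObj.mk k' ⟶ GlobeObj.mk k'') (c : Cell η N k'') :
    (c.res v').res v = c.res (v ≫ v') := by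
  apply Cell.ext
  · funext j hj w
    change c.f j hj ((w ≫ v) ≫ v') = c.f j hj (w ≫ v ≫ v')
    rw [Category.assoc]
  · change Z.map v.op (Z.map v'.op c.z) = Z.map (v ≫ v').op c.z
    rw [op_comp, Functor.map_comp_apply]

variable (η N)

/-- The relative coskeleton as a co-globular object. -/
def coskSeq : Seq (Type u)ᵒᵖ where
  ob k := op (Cell η N k)
  σ k := (TypeCat.ofHom (Cell.res (GlobeObj.σ k))).op
  τ k := (TypeCat.ofHom (Cell.res (GlobeObj.τ k))).op
  σσ k := op_ext fun c => (Cell.res_res (GlobeObj.σ k) (GlobeObj.σ (k + 1)) c).trans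
    (Cell.res_res (GlobeObj.σ k) (GlobeObj.τ (k + 1)) c).symm
  ττ k := op_ext fun c => (Cell.res_res (GlobeObj.τ k) (GlobeObj.σ (k + 1)) c).trans
    (Cell.res_res (GlobeObj.τ k) (GlobeObj.τ (k + 1)) c).symm

/-- The map to the coskeleton. -/
def toCell (k : ℕ) (x : X.obj (op ⟨k⟩)) : Cell η N k where
  f j _ w := X.map w.op x
  z := η.app _ x
  nat i j _ _ g w := by rw [op_comp, Functor.map_comp_apply]
  cmp j _ w := NatTrans.naturality_apply η w.op x

theorem toCell_res {k k' : ℕ} (v : GlobeObj.mk k ⟶ GlobeObj.mk k') (x : X.obj (op ⟨k'⟩)) :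
    toCell η N k (X.map v.op x) = (toCell η N k' x).res v := by
  apply Cell.ext
  · funext j hj w
    change X.map w.op (X.map v.op x) = X.map (w ≫ v).op x
    rw [op_comp, Functor.map_comp_apply]
  · exact NatTrans.naturality_apply η v.op x

theorem toCell_bijective {k : ℕ} (hk : k < N) : Function.Bijective (toCell η N k) := by
  constructor
  · intro x y h
    have h1 : X.map (𝟙 (GlobeObj.mk k)).op x = X.map (𝟙 (GlobeObj.mk k)).op y :=
      congrArg (fun c : Cell η N k => c.f k hk (𝟙 _)) h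
    simpa using h1
  · intro c
    refine ⟨c.f k hk (𝟙 _), ?_⟩
    apply Cell.ext
    · funext j hj w
      change X.map w.op (c.f k hk (𝟙 _)) = _
      rw [← c.nat j k hj hk, Category.comp_id]
    · change η.app _ (c.f k hk (𝟙 _)) = _
      rw [c.cmp]
      simp

theorem cosk_uniq (hZ : ∀ k, N ≤ k + 1 → ∀ a b : Z.toGlobSet.cell k,
    Z.toGlobSet.AreParallel k a b →
      ∃! z : Z.toGlobSet.cell (k + 1), Z.toGlobSet.src k z = a ∧ Z.toGlobSet.tgt k z = b) :
    EUniq (coskSeq η N) N := by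
  intro k hk l r hlr
  change Cell η N k at l r
  obtain ⟨z, ⟨hz1, hz2⟩, hzu⟩ := hZ k hk l.z r.z (by
    cases k with
    | zero => trivial
    | succ k => exact ⟨congrArg Cell.z hlr.1, congrArg Cell.z hlr.2⟩)
  let c : Bool → Cell η N k := fun ε => bif ε then r else l
  have hcz : ∀ ε, Z.map (gface ε k).op z = (c ε).z := by
    intro ε
    cases ε
    · exact hz1
    · exact hz2
  have hlow : ∀ j (hj : j < N) (w : GlobeObj.mk j ⟶ GlobeObj.mk k), j < k →
      l.f j hj w = r.f j hj w := by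
    intro j hj w hjk
    cases k with
    | zero => exact absurd hjk (Nat.not_lt_zero _)
    | succ k =>
      obtain ⟨ε, w', rfl⟩ := exists_down hjk w
      cases ε
      · exact congrArg (fun c : Cell η N k => c.f j hj w') hlr.1
      · exact congrArg (fun c : Cell η N k => c.f j hj w') hlr.2
  choose sd dn hdn using fun j (hj : j < N) (w : GlobeObj.mk j ⟶ GlobeObj.mk (k + 1)) =>
    exists_down (lt_of_lt_of_le hj hk) w
  have key : ∀ j (hj : j < N) (ε : Bool) (w : GlobeObj.mk j ⟶ GlobeObj.mk k),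
      (c (sd j hj (w ≫ gface ε k))).f j hj (dn j hj (w ≫ gface ε k)) = (c ε).f j hj w := by
    intro j hj ε w
    obtain ⟨h1, h2⟩ := down_cases _ _ _ _ (hdn j hj (w ≫ gface ε k))
    rw [h1]
    rcases h2 with h2 | h2
    · rw [h2]
    · have := hlow j hj w h2
      cases sd j hj (w ≫ gface ε k) <;> cases ε
      · rfl
      · exact this
      · exact this.symm
      · rfl
  let y : Cell η N (k + 1) :=
    { f := fun j hj w => (c (sd j hj w)).f j hj (dn j hj w)
      z := z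
      nat := by
        intro i j hi hj g w
        obtain ⟨ε, w', rfl⟩ := exists_down (lt_of_lt_of_le hj hk) w
        rw [← Category.assoc, key, key, (c ε).nat i j hi hj]
      cmp := by
        intro j hj w
        obtain ⟨ε, w', rfl⟩ := exists_down (lt_of_lt_of_le hj hk) w
        rw [key, (c ε).cmp, op_comp, ← hcz]
        exact (Functor.map_comp_apply Z _ _ _).symm }
  refine ⟨y, ⟨?_, ?_⟩, ?_⟩
  · apply Cell.ext
    · funext j hj w
      exact key j hj false w
    · exact hz1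
  · apply Cell.ext
    · funext j hj w
      exact key j hj true w
    · exact hz2
  · rintro y' ⟨h1, h2⟩
    change Cell η N (k + 1) at y'
    apply Cell.ext
    · funext j hj w
      obtain ⟨ε, w', rfl⟩ := exists_down (lt_of_lt_of_le hj hk) w
      refine Eq.trans ?_ (key j hj ε w').symm
      cases ε
      · exact congrArg (fun c : Cell η N k => c.f j hj w') h1
      · exact congrArg (fun c : Cell η N k => c.f j hj w') h2
    · exact hzu _ ⟨congrArg Cell.z h1, congrArg Cell.z h2⟩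

end Cells

section Psh

variable {C : GlobTheory.{u}}

/-- A presheaf on the theory as a functor on shapes. -/
noncomputable def toF (X : PSh C) : Shape ⥤ (Type u)ᵒᵖ where
  obj S := op (X.obj (op ⟨S⟩))
  map f := (X.map (C.incl.map f).op).op
  map_id S := by
    rw [C.incl.map_id, op_id, X.map_id]
    rfl
  map_comp f g := by
    rw [C.incl.map_comp, op_comp, X.map_comp]
    rfl

/-- The action of the operations on a presheaf. -/
noncomputable def toG (X : PSh C) (S T : Shape) (g : C.arr S T) : (toF X).obj S ⟶ (toF X).obj T :=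
  (X.map (Quiver.Hom.op (X := (⟨S⟩ : C.Ob)) (Y := (⟨T⟩ : C.Ob)) g)).op

theorem isAct_toG (X : PSh C) : IsAct C (toF X) (toG X) where
  sh _ _ _ := rfl
  seq S T U g g' := congrArg Quiver.Hom.op (X.map_comp
    (Quiver.Hom.op (X := (⟨T⟩ : C.Ob)) (Y := (⟨U⟩ : C.Ob)) g')
    (Quiver.Hom.op (X := (⟨S⟩ : C.Ob)) (Y := (⟨T⟩ : C.Ob)) g))

/-- A map of presheaves as a map of functors on shapes. -/
noncomputable def toN {X Z : PSh C} (η : X ⟶ Z) : toF Z ⟶ toF X where
  app S := (η.app (op ⟨S⟩)).op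
  naturality _ _ f := congrArg Quiver.Hom.op (η.naturality (C.incl.map f).op).symm

theorem sums_toF {X : PSh C} (h : IsModel C X) : Sums (toF X) := fun S b h' hb hh =>
  (h S b h' hb hh).op.flip

/-- A functor on shapes with an action as a presheaf. -/
noncomputable def ofG {Ψ : Shape ⥤ (Type u)ᵒᵖ}
    {G : ∀ S T : Shape, C.arr S T → (Ψ.obj S ⟶ Ψ.obj T)} (h : IsAct C Ψ G) : PSh C where
  obj S := (Ψ.obj S.unop.shape).unop
  map g := (G _ _ g.unop).unop
  map_id S := by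
    change (G _ _ (C.one S.unop.shape)).unop = _
    rw [← C.ofShape_id, h.sh, Ψ.map_id]
    rfl
  map_comp g g' := congrArg Quiver.Hom.unop (h.seq _ _ _ g'.unop g.unop)

theorem ofG_map {Ψ : Shape ⥤ (Type u)ᵒᵖ}
    {G : ∀ S T : Shape, C.arr S T → (Ψ.obj S ⟶ Ψ.obj T)} (h : IsAct C Ψ G) {S T : Shape}
    (f : S ⟶ T) : (ofG h).map (C.incl.map f).op = (Ψ.map f).unop :=
  congrArg Quiver.Hom.unop (h.sh S T f)

theorem good_ofG {N : ℕ} {Ψ : Shape ⥤ (Type u)ᵒᵖ}
    {G : ∀ S T : Shape, C.arr S T → (Ψ.obj S ⟶ Ψ.obj T)} (h : IsAct C Ψ G) (hΨ : Sums Ψ)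
    (uΨ : (ofF Ψ).UniqueFill N) : Good C N (ofG h) := by
  have hs : ∀ k (x : (cellsOf C (ofG h)).cell (k + 1)),
      (cellsOf C (ofG h)).src k x = (Ψ.map (Shape.σ k)).unop x := fun k x =>
    types_congr_hom (ofG_map h (Shape.σ k)) x
  have ht : ∀ k (x : (cellsOf C (ofG h)).cell (k + 1)),
      (cellsOf C (ofG h)).tgt k x = (Ψ.map (Shape.τ k)).unop x := fun k x =>
    types_congr_hom (ofG_map h (Shape.τ k)) x
  refine ⟨fun S b h' hb hh => ?_, fun k hk a b hab => ?_⟩
  · rw [ofG_map, ofG_map, ofG_map, ofG_map]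
    exact (hΨ S b h' hb hh).unop.flip
  · obtain ⟨z, ⟨h1, h2⟩, hu⟩ := eUniq_of uΨ k hk a b (by
      cases k with
      | zero => trivial
      | succ k => exact ⟨(hs k a).symm.trans (hab.1.trans (hs k b)),
          (ht k a).symm.trans (hab.2.trans (ht k b))⟩)
    refine ⟨z, ⟨(hs k z).trans h1, (ht k z).trans h2⟩, ?_⟩
    rintro y ⟨h3, h4⟩
    exact hu y ⟨(hs k y).symm.trans h3, (ht k y).symm.trans h4⟩

theorem uniq_toF {N : ℕ} {Z : PSh C} (h : Good C N Z) : (ofF (toF Z)).UniqueFill N := by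
  apply uniqueFill_of
  intro k hk a b hab
  exact h.2 k hk a b (by
    cases k with
    | zero => trivial
    | succ k => exact hab)

/-- A co-globular object lying between `X` and `Z`. -/
def Between (N : ℕ) {X Z : PSh C} (η : X ⟶ Z) (P : Seq (Type u)ᵒᵖ) : Prop :=
  P.UniqueFill N ∧ ∃ (α : ∀ k, P.ob k ⟶ (toF X).obj (Shape.globe k))
    (β : ∀ k, (toF Z).obj (Shape.globe k) ⟶ P.ob k),
    (∀ k, P.σ k ≫ α (k + 1) = α k ≫ (toF X).map (Shape.σ k)) ∧
    (∀ k, P.τ k ≫ α (k + 1) = α k ≫ (toF X).map (Shape.τ k)) ∧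
    (∀ k, (toF Z).map (Shape.σ k) ≫ β (k + 1) = β k ≫ P.σ k) ∧
    (∀ k, (toF Z).map (Shape.τ k) ≫ β (k + 1) = β k ≫ P.τ k) ∧
    (∀ k, β k ≫ α k = (toN η).app (Shape.globe k)) ∧ ∀ k, k < N → IsIso (α k)

theorem between_cosk {N : ℕ} {X Z : PSh C} (η : X ⟶ Z) (hZ : Good C N Z) :
    Between N η (coskSeq (Functor.whiskerLeft C.globes.op η) N) := by
  refine ⟨uniqueFill_of (cosk_uniq _ N hZ.2),
    fun k => (TypeCat.ofHom (toCell (Functor.whiskerLeft C.globes.op η) N k)).op,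
    fun k => (TypeCat.ofHom (fun c : Cell (Functor.whiskerLeft C.globes.op η) N k => c.z)).op,
    fun k => op_ext fun x => (toCell_res (Functor.whiskerLeft C.globes.op η) N
      (GlobeObj.σ k) x).symm,
    fun k => op_ext fun x => (toCell_res (Functor.whiskerLeft C.globes.op η) N
      (GlobeObj.τ k) x).symm,
    fun k => op_ext fun _ => rfl, fun k => op_ext fun _ => rfl, fun k => op_ext fun _ => rfl,
    fun k hk => ?_⟩
  have := (bijective_iff_isIso_ofHom _).1 (toCell_bijective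
    (Functor.whiskerLeft C.globes.op η) N hk)
  exact isIso_op _

theorem exists_factor {N : ℕ} (hE : ExtStmt (Type u)ᵒᵖ) (hNat : NatStmt (Type u)ᵒᵖ)
    (hL : LiftStmt C (Type u)ᵒᵖ) {X Z : PSh C} (η : X ⟶ Z) (hX : IsModel C X)
    (hZ : Good C N Z) :
    ∃ (Y : PSh C) (a : X ⟶ Y) (b : Y ⟶ Z), Good C N Y ∧ a ≫ b = η ∧
      ∀ k, k < N → Function.Bijective (a.app (op ⟨Shape.globe k⟩)) := by
  obtain ⟨Ψ, hΨ, hP⟩ := hE (coskSeq (Functor.whiskerLeft C.globes.op η) N)
  have hB := between_cosk η hZ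
  rw [← hP] at hB
  obtain ⟨uΨ, α0, β0, h1, h2, h3, h4, h5, h6⟩ := hB
  obtain ⟨α, hα⟩ := hNat Ψ (toF X) hΨ α0 h1 h2
  obtain ⟨β, hβ⟩ := hNat (toF Z) Ψ (sums_toF hZ.1) β0 h3 h4
  have hαβ : ∀ S, β.app S ≫ α.app S = (toN η).app S := fun S =>
    nat_ext (sums_toF hZ.1) (β ≫ α) (toN η) (fun k => by
      rw [NatTrans.comp_app, hα, hβ]; exact h5 k) S
  obtain ⟨G, hG, hG'⟩ := exists_act hL (isAct_toG X) (isAct_toG Z) (toN η)
    (fun S T g => congrArg Quiver.Hom.op (η.naturality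
      (Quiver.Hom.op (X := (⟨S⟩ : C.Ob)) (Y := (⟨T⟩ : C.Ob)) g)).symm)
    (sums_toF hX) (sums_toF hZ.1) (uniq_toF hZ) Ψ hΨ uΨ α β hαβ
    (fun k hk => by rw [hα]; exact h6 k hk)
  refine ⟨ofG hG, ⟨fun S => (α.app S.unop.shape).unop, fun S T g =>
      congrArg Quiver.Hom.unop (hG' _ _ g.unop).1.symm⟩,
    ⟨fun S => (β.app S.unop.shape).unop, fun S T g =>
      congrArg Quiver.Hom.unop (hG' _ _ g.unop).2⟩, good_ofG hG hΨ uΨ, ?_, fun k hk => ?_⟩
  · ext S : 2
    exact congrArg Quiver.Hom.unop (hαβ S.unop.shape)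
  · have i : IsIso (α.app (Shape.globe k)) := by rw [hα]; exact h6 k hk
    exact (isIso_iff_bijective _).1 (isIso_unop (α.app (Shape.globe k)))

end Psh

end Cosk

set_option linter.unusedVariables false in
theorem coskStmt {C : GlobTheory.{u}} {N : ℕ} (hN : 1 ≤ N) (hE : ExtStmt (Type u)ᵒᵖ)
    (hNat : NatStmt (Type u)ᵒᵖ) (hL : LiftStmt C (Type u)ᵒᵖ) {L : PSh C ⥤ DD C N}
    (adj : L ⊣ (Good C N).ι) : CoskStmt adj := by
  intro X k hk
  obtain ⟨Y, a, b, hY, hab, ha⟩ := Cosk.exists_factor hE hNat hL (adj.unit.app X.functor) X.sums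
    (L.obj X.functor).property
  let Y' : DD C N := ⟨Y, hY⟩
  let c : L.obj X.functor ⟶ Y' := (adj.homEquiv X.functor Y').symm a
  have hc : adj.unit.app X.functor ≫ c.hom = a := by
    have := (adj.homEquiv X.functor Y').apply_symm_apply a
    rw [Adjunction.homEquiv_unit] at this
    exact this
  have hcb : c ≫ (ObjectProperty.homMk b : Y' ⟶ L.obj X.functor) = 𝟙 _ := by
    apply (adj.homEquiv _ _).injective
    rw [Adjunction.homEquiv_unit, Adjunction.homEquiv_unit, CategoryTheory.Functor.map_id]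
    refine Eq.trans ?_ (Category.comp_id _).symm
    refine Eq.trans (Category.assoc _ c.hom b).symm ?_
    exact (congrArg (· ≫ b) hc).trans hab
  have hcb' : c.hom ≫ b = 𝟙 _ := congrArg (fun f => f.hom) hcb
  constructor
  · intro x y hxy
    apply (ha k hk).1
    have e1 := types_congr_hom (congrArg (fun f => f.app (op ⟨Shape.globe k⟩)) hc)
    exact (e1 x).symm.trans ((congrArg (c.hom.app (op ⟨Shape.globe k⟩)) hxy).trans (e1 y))
  · intro z
    obtain ⟨x, hx⟩ := (ha k hk).2 (c.hom.app (op ⟨Shape.globe k⟩) z)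
    refine ⟨x, ?_⟩
    have e1 := types_congr_hom (congrArg (fun f => f.app (op ⟨Shape.globe k⟩)) hab) x
    have e2 := types_congr_hom (congrArg (fun f => f.app (op ⟨Shape.globe k⟩)) hcb') z
    exact e1.symm.trans ((congrArg (b.app (op ⟨Shape.globe k⟩)) hx).trans e2)

end Crest.Agent.R248
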