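import Crest.Agent.R248.Basic

/-!
# Row 248: construction of the cylinder, stages
-/

set_option autoImplicit false
set_option linter.unusedSectionVars false
open CategoryTheory CategoryTheory.Limits Opposite Crest.GeometryTopology.Coherator

namespace Crest.Agent.R248

universe u v

variable {𝒟 : Type v} [Category.{u} 𝒟] [HasFiniteColimits 𝒟] [HasFiniteProducts 𝒟]

namespace Cyl

open Crest.Agent.R248.Seq

/-- What the construction uses. -/
structure Hyp (P : Seq 𝒟) (N n : ℕ) : Prop where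
  hn : n < N
  extend : ∀ {A B Z : 𝒟} {i : A ⟶ B}, P.TC (n + 1) i → ∀ f : A ⟶ Z, ∃ g : B ⟶ Z, i ≫ g = f
  fill : ∀ B : 𝒟, ∃ (X : 𝒟) (f : B ⟶ X), P.Cof (n + 1) f ∧ P.Contr (n + 1) X ∧
    (P.Contr (n + 1) B → IsIso f)
  uniq : P.UniqueFill N
  disk : P.Contr (n + 1) (P.ob (n + 1))
  lemA : P.LemA (n + 1)
  fwd : P.Fwd (n + 1)
  zig : P.Zig n

/-- The cylinder on the `k`-disk and on its boundary. -/
structure Stage (P : Seq 𝒟) (N n k : ℕ) where
  Ob : 𝒟
  Bd : 𝒟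
  i : Bd ⟶ Ob
  jo : Bool → (P.ob k ⟶ Ob)
  jb : Bool → (P.bd k ⟶ Bd)
  comm : ∀ ε, P.ι k ≫ jo ε = jb ε ≫ i
  cofB : P.Cofibrant Bd
  cofi : P.Cof 0 i
  lowb : k ≤ n → jb false = jb true ∧ IsIso (jb false)
  lowo : k < n → jo false = jo true ∧ IsIso (jo false)
  mid : k = n → ∃ e : P.ob (k + 1) ⟶ Ob, IsIso e ∧ ∀ ε, P.face ε k ≫ e = jo ε
  contr : n ≤ k → P.Contr (n + 1) Ob
  extB : n ≤ k → ∀ (E B : 𝒟) (q : E ⟶ B), P.TF (n + 1) q →
    ∀ (s : Bd ⟶ E) (z : Bool → (P.ob k ⟶ E)) (φ' : Ob ⟶ B),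
      (∀ ε, P.ι k ≫ z ε = jb ε ≫ s) → i ≫ φ' = s ≫ q → (∀ ε, jo ε ≫ φ' = z ε ≫ q) →
      ∃ φ : Ob ⟶ E, i ≫ φ = s ∧ (∀ ε, jo ε ≫ φ = z ε) ∧ φ ≫ q = φ'
  extU : n < k → ∀ (ε : Bool) (E B : 𝒟) (q : E ⟶ B), P.Fib (n + 1) q →
    ∀ (s : Bd ⟶ E) (z : P.ob k ⟶ E) (φ' : Ob ⟶ B),
      P.ι k ≫ z = jb ε ≫ s → i ≫ φ' = s ≫ q → jo ε ≫ φ' = z ≫ q →
      ∃ φ : Ob ⟶ E, i ≫ φ = s ∧ jo ε ≫ φ = z ∧ φ ≫ q = φ'
  iso : N ≤ k → IsIso i

/-- How consecutive stages fit together. -/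
structure Link {P : Seq 𝒟} {N n k : ℕ} (S : Stage P N n k) (S' : Stage P N n (k + 1)) where
  s : S.Ob ⟶ S'.Bd
  t : S.Ob ⟶ S'.Bd
  po : IsPushout S.i S.i s t
  js : ∀ ε, P.bs k ≫ S'.jb ε = S.jo ε ≫ s
  jt : ∀ ε, P.bt k ≫ S'.jb ε = S.jo ε ≫ t
  midm : k = n → ∃ m : P.ob (k + 1) ⟶ S'.Ob, P.σ k ≫ m = S.jo true ≫ s ≫ S'.i ∧
    P.τ k ≫ m = S.jo false ≫ t ≫ S'.i ∧
    ∀ (E B : 𝒟) (q : E ⟶ B), P.Fib (n + 1) q → ∀ (l r : S.Ob ⟶ E) (x : P.ob (k + 1) ⟶ E)
      (φ' : S'.Ob ⟶ B), P.σ k ≫ x = S.jo true ≫ l → P.τ k ≫ x = S.jo false ≫ r →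
      s ≫ S'.i ≫ φ' = l ≫ q → m ≫ φ' = x ≫ q → t ≫ S'.i ≫ φ' = r ≫ q →
      ∃ φ : S'.Ob ⟶ E, s ≫ S'.i ≫ φ = l ∧ m ≫ φ = x ∧ t ≫ S'.i ≫ φ = r ∧ φ ≫ q = φ'

variable {P : Seq 𝒟} {N n : ℕ}

/-- Stages below the level. -/
noncomputable def lowStage (H : Hyp P N n) (k : ℕ) (hk : k < n) : Stage P N n k where
  Ob := P.ob k
  Bd := P.bd k
  i := P.ι k
  jo _ := 𝟙 _
  jb _ := 𝟙 _
  comm _ := by simp
  cofB := cofibrant_bd k
  cofi := cof_ι (Nat.zero_le k)
  lowb _ := ⟨rfl, inferInstance⟩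
  lowo _ := ⟨rfl, inferInstance⟩
  mid h := absurd h hk.ne
  contr h := absurd h (not_le.2 hk)
  extB h := absurd h (not_le.2 hk)
  extU h := absurd h (not_lt.2 hk.le)
  iso h := absurd (H.hn.le.trans h) (not_le.2 hk)

theorem ι_face (k : ℕ) (ε : Bool) : P.ι k ≫ P.face ε k = P.ι k ≫ P.σ k := by
  cases ε
  · rfl
  · exact (P.ι_σ_τ k).symm

/-- The stage at the level. -/
noncomputable def midStage (H : Hyp P N n) (k : ℕ) (hk : k = n) : Stage P N n k where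
  Ob := P.ob (k + 1)
  Bd := P.bd k
  i := P.ι k ≫ P.σ k
  jo ε := P.face ε k
  jb _ := 𝟙 _
  comm ε := by rw [Category.id_comp, ι_face]
  cofB := cofibrant_bd k
  cofi := (cof_ι (Nat.zero_le k)).comp (cof_σ (Nat.zero_le k))
  lowb _ := ⟨rfl, inferInstance⟩
  lowo h := absurd hk h.ne
  mid _ := ⟨𝟙 _, inferInstance, fun _ => Category.comp_id _⟩
  contr _ := by subst hk; exact H.disk
  extB _ E B q hq s z φ' h1 h2 h3 := by
    obtain ⟨x, e1, e2, e3⟩ := hq.lift (k := k) (by omega) (z false) (z true)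
      ((ι_eq_iff _ _).1 ((h1 false).trans (h1 true).symm)) φ' (h3 false) (h3 true)
    refine ⟨x, ?_, fun ε => ?_, e3⟩
    · rw [Category.assoc, e1, h1, Category.id_comp]
    · cases ε
      · exact e1
      · exact e2
  extU h := absurd hk h.ne'
  iso h := absurd (H.hn.trans_le h) (by omega)

theorem low_po {k : ℕ} (S : Stage P N n k) (hk : k < n) :
    ∃ s t : S.Ob ⟶ P.bd (k + 1), IsPushout S.i S.i s t ∧ (∀ ε, P.bs k = S.jo ε ≫ s) ∧
      ∀ ε, P.bt k = S.jo ε ≫ t := by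
  obtain ⟨h1, h2⟩ := S.lowo hk
  obtain ⟨h3, h4⟩ := S.lowb hk.le
  have hi : S.i ≫ inv (S.jo false) = inv (S.jb false) ≫ P.ι k := by
    rw [IsIso.comp_inv_eq, Category.assoc, S.comm, IsIso.inv_hom_id_assoc]
  refine ⟨inv (S.jo false) ≫ P.bs k, inv (S.jo false) ≫ P.bt k, ?_, fun ε => ?_, fun ε => ?_⟩
  · refine isPushout_of ?_ ?_ ?_
    · rw [← Category.assoc, ← Category.assoc, hi, Category.assoc, Category.assoc,
        (P.isPushout_bd k).w]
    · intro Z a b w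
      refine ⟨bdDesc (S.jo false ≫ a) (S.jo false ≫ b) ((ι_eq_iff _ _).1 ?_), by simp, by simp⟩
      rw [← Category.assoc, ← Category.assoc, S.comm, Category.assoc, Category.assoc, w]
    · intro Z l l' e1 e2
      exact bd_ext (by simpa using e1) (by simpa using e2)
  · cases ε
    · simp
    · rw [← h1]; simp
  · cases ε
    · simp
    · rw [← h1]; simp

theorem next_low (H : Hyp P N n) {k : ℕ} (S : Stage P N n k) (hk : k < n) :
    ∃ S' : Stage P N n (k + 1), Nonempty (Link S S') := by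
  obtain ⟨s, t, po, hs, ht⟩ := low_po S hk
  rcases Nat.lt_or_ge (k + 1) n with h | h
  · exact ⟨lowStage H (k + 1) h, ⟨⟨s, t, po, fun ε => (Category.comp_id _).trans (hs ε),
      fun ε => (Category.comp_id _).trans (ht ε), fun h' => absurd h' hk.ne⟩⟩⟩
  · exact ⟨midStage H (k + 1) (by omega), ⟨⟨s, t, po, fun ε => (Category.comp_id _).trans (hs ε),
      fun ε => (Category.comp_id _).trans (ht ε), fun h' => absurd h' hk.ne⟩⟩⟩

/-- Attaching an edge to the boundary cylinder at the level gives a zig-zag. -/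
theorem attW {k : ℕ} (S : Stage P N n k) (hk : k = n) {e : P.ob (k + 1) ⟶ S.Ob} [IsIso e]
    (he : ∀ ε, P.face ε k ≫ e = S.jo ε) {V U : 𝒟} {s t : S.Ob ⟶ V} (po : IsPushout S.i S.i s t)
    (ε0 ε1 : Bool) {μ : P.bd (k + 1) ⟶ V} (h0 : P.bs k ≫ μ = S.jo ε0 ≫ s)
    (h1 : P.bt k ≫ μ = S.jo ε1 ≫ t) {a : V ⟶ U} {x : P.ob (k + 1) ⟶ U}
    (pu : IsPushout μ (P.ι (k + 1)) a x) :
    P.IsW k ε0 ε1 x (e ≫ s ≫ a) (e ≫ t ≫ a) where
  e0 := by
    rw [← bs_ι, Category.assoc, ← pu.w, ← Category.assoc, h0, ← he]; simp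
  e1 := by
    rw [← bt_ι, Category.assoc, ← pu.w, ← Category.assoc, h1, ← he]; simp
  ex Z x' w0 w1 e0 e1 := by
    obtain ⟨-, h4⟩ := S.lowb hk.le
    have hi : ∀ w : P.ob (k + 1) ⟶ Z, ∀ ε, S.jb false ≫ S.i ≫ inv e ≫ w =
        P.ι k ≫ P.face ε k ≫ w := by
      intro w ε
      rw [← Category.assoc, ← S.comm, ← he false, ← Category.assoc (P.ι k) (P.face ε k), ι_face]
      simp
    obtain ⟨g, g1, g2⟩ := IsPushout.ex po (inv e ≫ w0) (inv e ≫ w1) (by
      rw [← cancel_epi (S.jb false), hi w0 ε0, hi w1 ε1, ← e0, ← e1, ← Category.assoc,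
        P.ι_σ_τ, Category.assoc])
    obtain ⟨g', g3, g4⟩ := IsPushout.ex pu g x' (by
      refine bd_ext ?_ ?_
      · rw [← Category.assoc, h0, Category.assoc, g1, bs_ι_assoc, e0, ← he]; simp
      · rw [← Category.assoc, h1, Category.assoc, g2, bt_ι_assoc, e1, ← he]; simp)
    refine ⟨g', g4, ?_, ?_⟩
    · simp only [Category.assoc, g3, g1, IsIso.hom_inv_id_assoc]
    · simp only [Category.assoc, g3, g2, IsIso.hom_inv_id_assoc]
  un Z g g' e0 e1 e2 := by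
    refine pu.hom_ext (po.hom_ext ?_ ?_) e0
    · simpa only [Category.assoc, cancel_epi] using e1
    · simpa only [Category.assoc, cancel_epi] using e2

/-- Above the level, the half cylinder is a trivial cofibration over the previous stage. -/
theorem tc_half {k : ℕ} (S : Stage P N n k) (hk : n < k) {V U : 𝒟} {s t : S.Ob ⟶ V}
    (po : IsPushout S.i S.i s t) (ε : Bool) {μ : P.bd (k + 1) ⟶ V}
    (h0 : P.bs k ≫ μ = S.jo ε ≫ s) (h1 : P.bt k ≫ μ = S.jo ε ≫ t) {a : V ⟶ U}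
    {x : P.ob (k + 1) ⟶ U} (pu : IsPushout μ (P.ι (k + 1)) a x) :
    P.TC (n + 1) (s ≫ a) := by
  have hσ : P.σ k ≫ x = S.jo ε ≫ s ≫ a := by
    rw [← bs_ι, Category.assoc, ← pu.w, ← Category.assoc, h0, Category.assoc]
  have hτ : P.τ k ≫ x = S.jo ε ≫ t ≫ a := by
    rw [← bt_ι, Category.assoc, ← pu.w, ← Category.assoc, h1, Category.assoc]
  refine (tc_iff _).2 fun E B q hq l g w => ?_
  obtain ⟨z, z1, z2⟩ := hq.lift (k := k) hk (S.jo ε ≫ l) (x ≫ g) (by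
    rw [← Category.assoc, hσ, Category.assoc, Category.assoc, Category.assoc, w, Category.assoc])
  obtain ⟨r, r1, r2, r3⟩ := S.extU hk ε E B q hq (S.i ≫ l) (P.τ k ≫ z) (t ≫ a ≫ g)
    (by rw [← Category.assoc, ← P.ι_σ_τ, Category.assoc, z1, ← Category.assoc, S.comm,
      Category.assoc])
    (by rw [Category.assoc, w, ← Category.assoc, ← po.w]; simp)
    (by rw [Category.assoc, z2, ← Category.assoc (P.τ k), hτ]; simp)
  obtain ⟨d, d1, d2⟩ := IsPushout.ex po l r r1.symm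
  obtain ⟨φ, f1, f2⟩ := IsPushout.ex pu d z (bd_ext
    (by rw [← Category.assoc, h0, Category.assoc, d1, bs_ι_assoc, z1])
    (by rw [← Category.assoc, h1, Category.assoc, d2, bt_ι_assoc, r2]))
  refine ⟨φ, by rw [Category.assoc, f1, d1], pu.hom_ext (po.hom_ext ?_ ?_) ?_⟩
  · rw [← Category.assoc a, f1, ← Category.assoc, d1, w, Category.assoc]
  · rw [← Category.assoc a, f1, ← Category.assoc, d2, r3]
  · rw [← Category.assoc, f2, z2]

theorem Stage.cofO {k : ℕ} (S : Stage P N n k) : P.Cofibrant S.Ob := S.cofB.of_cof S.cofi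

theorem contr_half (H : Hyp P N n) {k : ℕ} (S : Stage P N n k) (hk : n ≤ k) {V U : 𝒟}
    {s t : S.Ob ⟶ V} (po : IsPushout S.i S.i s t) (ε : Bool) {μ : P.bd (k + 1) ⟶ V}
    (h0 : P.bs k ≫ μ = S.jo ε ≫ s) (h1 : P.bt k ≫ μ = S.jo ε ≫ t) {a : V ⟶ U}
    {x : P.ob (k + 1) ⟶ U} (pu : IsPushout μ (P.ι (k + 1)) a x) : P.Contr (n + 1) U := by
  rcases hk.eq_or_lt with h | h
  · obtain ⟨e, he, he'⟩ := S.mid h.symm
    have := attW S h.symm he' po ε ε h0 h1 pu
    subst h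
    exact H.zig _ _ _ _ _ _ this
  · exact H.fwd _ _ _ (tc_half S h po ε h0 h1 pu) S.cofO _ (S.contr hk)

/-- The boundary of the next cylinder cell. -/
structure Pre {k : ℕ} (S : Stage P N n k) where
  V : 𝒟
  s : S.Ob ⟶ V
  t : S.Ob ⟶ V
  po : IsPushout S.i S.i s t
  jb : Bool → (P.bd (k + 1) ⟶ V)
  js : ∀ ε, P.bs k ≫ jb ε = S.jo ε ≫ s
  jt : ∀ ε, P.bt k ≫ jb ε = S.jo ε ≫ t
  B : 𝒟
  b : V ⟶ B
  x : Bool → (P.ob (k + 1) ⟶ B)
  hx : ∀ ε, P.ι (k + 1) ≫ x ε = jb ε ≫ b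
  ex : ∀ (Z : 𝒟) (g : V ⟶ Z) (z : Bool → (P.ob (k + 1) ⟶ Z)),
    (∀ ε, P.ι (k + 1) ≫ z ε = jb ε ≫ g) → ∃ φ : B ⟶ Z, b ≫ φ = g ∧ ∀ ε, x ε ≫ φ = z ε
  un : ∀ (Z : 𝒟) (φ φ' : B ⟶ Z), b ≫ φ = b ≫ φ' → (∀ ε, x ε ≫ φ = x ε ≫ φ') → φ = φ'
  cof : P.Cof (k + 1) b
  iso : IsIso (P.ι (k + 1)) → IsIso b

theorem nonempty_pre {k : ℕ} (S : Stage P N n k) : Nonempty (Pre S) := by
  have po := IsPushout.of_hasPushout S.i S.i
  have hp : ∀ ε ε', P.Par k (S.jo ε ≫ pushout.inl S.i S.i) (S.jo ε ≫ pushout.inr S.i S.i) ∨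
      ε ≠ ε' := fun ε _ => Or.inl ((ι_eq_iff _ _).1 (by
    rw [← Category.assoc, ← Category.assoc, S.comm, Category.assoc, Category.assoc, po.w]))
  have hp' : ∀ ε, P.Par k (S.jo ε ≫ pushout.inl S.i S.i) (S.jo ε ≫ pushout.inr S.i S.i) :=
    fun ε => (hp ε ε).resolve_right (fun h => h rfl)
  let jb : Bool → (P.bd (k + 1) ⟶ pushout S.i S.i) := fun ε => bdDesc _ _ (hp' ε)
  have p1 := IsPushout.of_hasPushout (jb false) (P.ι (k + 1))
  have p2 := IsPushout.of_hasPushout (jb true ≫ pushout.inl (jb false) (P.ι (k + 1)))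
    (P.ι (k + 1))
  refine ⟨{ V := _, s := _, t := _, po := po, jb := jb, js := fun ε => bs_bdDesc _ _ _
            jt := fun ε => bt_bdDesc _ _ _
            B := pushout (jb true ≫ pushout.inl (jb false) (P.ι (k + 1))) (P.ι (k + 1))
            b := pushout.inl _ _ ≫ pushout.inl _ _
            x := fun ε => bif ε then pushout.inr _ _ else pushout.inr _ _ ≫ pushout.inl _ _
            hx := ?_, ex := ?_, un := ?_
            cof := ((cof_ι le_rfl).inl _).comp ((cof_ι le_rfl).inl _)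
            iso := fun _ => inferInstance }⟩
  · intro ε
    cases ε
    · change _ ≫ _ ≫ _ = _
      rw [← Category.assoc, ← p1.w, Category.assoc]
    · change _ ≫ pushout.inr _ _ = _
      rw [← p2.w, Category.assoc]
  · intro Z g z hz
    obtain ⟨g1, e1, e2⟩ := IsPushout.ex p1 g (z false) (hz false).symm
    obtain ⟨g2, e3, e4⟩ := IsPushout.ex p2 g1 (z true) (by rw [Category.assoc, e1, hz])
    refine ⟨g2, by rw [Category.assoc, e3, e1], fun ε => ?_⟩
    cases ε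
    · change (_ ≫ _) ≫ _ = _
      rw [Category.assoc, e3, e2]
    · exact e4
  · intro Z φ φ' e1 e2
    refine p2.hom_ext (p1.hom_ext ?_ ?_) (e2 true)
    · simpa only [Category.assoc] using e1
    · have := e2 false
      change (_ ≫ _) ≫ _ = (_ ≫ _) ≫ _ at this
      simpa only [Category.assoc] using this

theorem Pre.cofV {k : ℕ} {S : Stage P N n k} (T : Pre S) : P.Cofibrant T.V :=
  S.cofO.of_cof (S.cofi.of_isPushout T.po)

/-- Completing a pre-stage by a contractible cofibrant extension of the boundary. -/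
noncomputable def Pre.stage (H : Hyp P N n) {k : ℕ} {S : Stage P N n k} (hk : n ≤ k) (T : Pre S)
    {X : 𝒟} (f : T.B ⟶ X) (hf : P.Cof (n + 1) f) (hX : P.Contr (n + 1) X)
    (hiso : N ≤ k + 1 → IsIso f) : Stage P N n (k + 1) :=
  have extB : ∀ (E B : 𝒟) (q : E ⟶ B), P.TF (n + 1) q →
      ∀ (s : T.V ⟶ E) (z : Bool → (P.ob (k + 1) ⟶ E)) (φ' : X ⟶ B),
        (∀ ε, P.ι (k + 1) ≫ z ε = T.jb ε ≫ s) → (T.b ≫ f) ≫ φ' = s ≫ q →
        (∀ ε, (T.x ε ≫ f) ≫ φ' = z ε ≫ q) →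
        ∃ φ : X ⟶ E, (T.b ≫ f) ≫ φ = s ∧ (∀ ε, (T.x ε ≫ f) ≫ φ = z ε) ∧ φ ≫ q = φ' := by
    intro E B q hq s z φ' h1 h2 h3
    obtain ⟨g, g1, g2⟩ := T.ex E s z h1
    obtain ⟨φ, f1, f2⟩ := hf.lifts hq g φ' (T.un _ _ _
      (by rw [← Category.assoc, g1, ← h2, Category.assoc])
      (fun ε => by rw [← Category.assoc, g2, ← h3, Category.assoc]))
    exact ⟨φ, by rw [Category.assoc, f1, g1], fun ε => by rw [Category.assoc, f1, g2], f2⟩
  { Ob := X
    Bd := T.V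
    i := T.b ≫ f
    jo ε := T.x ε ≫ f
    jb := T.jb
    comm ε := by rw [← Category.assoc, T.hx, Category.assoc]
    cofB := T.cofV
    cofi := (T.cof.mono (Nat.zero_le _)).comp (hf.mono (Nat.zero_le _))
    lowb h := absurd h (by omega)
    lowo h := absurd h (by omega)
    mid h := absurd h (by omega)
    contr _ := hX
    extB _ := extB
    extU _ ε E B q hq s z φ' h1 h2 h3 := by
      have pu := IsPushout.of_hasPushout (T.jb ε) (P.ι (k + 1))
      obtain ⟨w, w1, w2⟩ := IsPushout.ex pu (T.b ≫ f) (T.x ε ≫ f) (by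
        rw [← Category.assoc, ← T.hx, Category.assoc])
      have hw : P.Cof (n + 1) w := by
        refine (cof_iff _).2 fun E B q hq g φ' e => ?_
        obtain ⟨y, y1, y2⟩ := hq.lifts (k := k + 1) (by omega)
          (T.jb (!ε) ≫ pushout.inl _ _ ≫ g) ((T.x (!ε) ≫ f) ≫ φ') (by
            rw [Category.assoc, Category.assoc, e, ← Category.assoc (pushout.inl _ _), w1,
              ← Category.assoc, ← Category.assoc, ← Category.assoc, ← Category.assoc, T.hx])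
        obtain ⟨φ, f1, f2, f3⟩ := extB E B q hq (pushout.inl _ _ ≫ g)
          (fun ε' => if ε' = ε then pushout.inr _ _ ≫ g else y) φ'
          (fun ε' => by
            split_ifs with h
            · rw [h, ← Category.assoc, ← pu.w, Category.assoc]
            · rw [y1, show ε' = !ε by cases ε <;> cases ε' <;> simp_all])
          (by rw [Category.assoc _ g, e, ← Category.assoc _ w, w1])
          (fun ε' => by
            split_ifs with h
            · rw [h, Category.assoc _ g, e, ← Category.assoc _ w, w2]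
            · rw [y2, show ε' = !ε by cases ε <;> cases ε' <;> simp_all])
        refine ⟨φ, pu.hom_ext ?_ ?_, f3⟩
        · rw [← Category.assoc, w1, f1]
        · rw [← Category.assoc, w2, f2, if_pos rfl]
      have htc := H.lemA _ _ w hw (T.cofV.of_cof ((cof_ι (Nat.zero_le _)).inl _))
        (contr_half H S hk T.po ε (T.js ε) (T.jt ε) pu) hX
      obtain ⟨g, g1, g2⟩ := IsPushout.ex pu s z h1.symm
      obtain ⟨φ, f1, f2⟩ := htc.lifts hq g φ' (pu.hom_ext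
        (by rw [← Category.assoc, g1, ← Category.assoc, w1, h2])
        (by rw [← Category.assoc, g2, ← Category.assoc, w2, h3]))
      exact ⟨φ, by rw [← w1, Category.assoc, f1, g1], by rw [← w2, Category.assoc, f1, g2], f2⟩
    iso h := by
      have := T.iso (H.uniq.isIso_ι h)
      have := hiso h
      infer_instance }

theorem Pre.contrB (H : Hyp P N n) {k : ℕ} {S : Stage P N n k} (hk : n ≤ k) (T : Pre S)
    (h : N ≤ k + 1) : P.Contr (n + 1) T.B := by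
  have h1 := H.uniq.isIso_ι h
  have h2 := T.iso h1
  have pu := IsPushout.of_hasPushout (T.jb false) (P.ι (k + 1))
  have := contr_half H S hk T.po false (T.js _) (T.jt _) pu
  exact this.of_isIso (inv (pushout.inl (T.jb false) (P.ι (k + 1))) ≫ T.b)

theorem next_high (H : Hyp P N n) {k : ℕ} (S : Stage P N n k) (hk : n < k) :
    ∃ S' : Stage P N n (k + 1), Nonempty (Link S S') := by
  obtain ⟨T⟩ := nonempty_pre S
  obtain ⟨X, f, hf, hX, hiso⟩ := H.fill T.B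
  exact ⟨T.stage H hk.le f hf hX (fun h => hiso (T.contrB H hk.le h)),
    ⟨⟨T.s, T.t, T.po, T.js, T.jt, fun h => absurd h hk.ne'⟩⟩⟩

theorem next_mid (H : Hyp P N n) {k : ℕ} (S : Stage P N n k) (hk : k = n) :
    ∃ S' : Stage P N n (k + 1), Nonempty (Link S S') := by
  obtain ⟨T⟩ := nonempty_pre S
  obtain ⟨e, he, he'⟩ := S.mid hk
  obtain ⟨hb, -⟩ := S.lowb hk.le
  have hpar : P.Par k (S.jo true ≫ T.s) (S.jo false ≫ T.t) := (ι_eq_iff _ _).1 (by
    rw [← Category.assoc, ← Category.assoc, S.comm, S.comm, ← hb, Category.assoc, Category.assoc,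
      T.po.w])
  let μ : P.bd (k + 1) ⟶ T.V := bdDesc _ _ hpar
  have μs : P.bs k ≫ μ = S.jo true ≫ T.s := bs_bdDesc _ _ _
  have μt : P.bt k ≫ μ = S.jo false ≫ T.t := bt_bdDesc _ _ _
  have p2 := IsPushout.of_hasPushout (μ ≫ T.b) (P.ι (k + 1))
  obtain ⟨X, f, hf, hX, hiso⟩ := H.fill (pushout (μ ≫ T.b) (P.ι (k + 1)))
  have hf' : P.Cof (n + 1) (pushout.inl (μ ≫ T.b) (P.ι (k + 1)) ≫ f) :=
    ((cof_ι (by omega)).inl _).comp hf
  refine ⟨T.stage H hk.ge (pushout.inl _ _ ≫ f) hf' hX (fun h => ?_),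
    ⟨⟨T.s, T.t, T.po, T.js, T.jt, fun _ => ⟨pushout.inr _ _ ≫ f, ?_, ?_, ?_⟩⟩⟩⟩
  · have h1 := H.uniq.isIso_ι h
    have := hiso ((T.contrB H hk.ge h).of_isIso (pushout.inl (μ ≫ T.b) (P.ι (k + 1))))
    infer_instance
  · change P.σ k ≫ pushout.inr _ _ ≫ f = S.jo true ≫ T.s ≫ T.b ≫ pushout.inl _ _ ≫ f
    rw [← bs_ι, Category.assoc, ← p2.w_assoc, ← reassoc_of% μs]
    simp only [Category.assoc]
  · change P.τ k ≫ pushout.inr _ _ ≫ f = S.jo false ≫ T.t ≫ T.b ≫ pushout.inl _ _ ≫ f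
    rw [← bt_ι, Category.assoc, ← p2.w_assoc, ← reassoc_of% μt]
    simp only [Category.assoc]
  · intro E B q hq l r x φ' h1 h2 h3 h4 h5
    change T.s ≫ (T.b ≫ pushout.inl _ _ ≫ f) ≫ φ' = _ at h3
    change T.t ≫ (T.b ≫ pushout.inl _ _ ≫ f) ≫ φ' = _ at h5
    change ∃ φ : X ⟶ E, T.s ≫ (T.b ≫ pushout.inl _ _ ≫ f) ≫ φ = l ∧ _ ∧
      T.t ≫ (T.b ≫ pushout.inl _ _ ≫ f) ≫ φ = r ∧ _
    have pu := IsPushout.of_hasPushout μ (P.ι (k + 1))
    obtain ⟨w, w1, w2⟩ := IsPushout.ex pu (T.b ≫ pushout.inl _ _ ≫ f) (pushout.inr _ _ ≫ f) (by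
      rw [← Category.assoc (P.ι _), ← p2.w]; simp only [Category.assoc])
    have hw : P.Cof (n + 1) w := by
      refine (cof_iff _).2 fun E B q hq g φ' e => ?_
      have hz : ∀ ε, ∃ y : P.ob (k + 1) ⟶ E, P.ι (k + 1) ≫ y = T.jb ε ≫ pushout.inl _ _ ≫ g ∧
          y ≫ q = T.x ε ≫ pushout.inl _ _ ≫ f ≫ φ' := fun ε =>
        hq.lifts (k := k + 1) (by omega) _ _ (by
          rw [Category.assoc, Category.assoc, e, ← Category.assoc (pushout.inl _ _), w1,
            ← Category.assoc (P.ι _), T.hx]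
          simp only [Category.assoc])
      choose y y1 y2 using hz
      obtain ⟨g1, a1, a2⟩ := T.ex E (pushout.inl _ _ ≫ g) y y1
      obtain ⟨g2, a3, a4⟩ := IsPushout.ex p2 g1 (pushout.inr _ _ ≫ g) (by
        rw [Category.assoc, a1, ← Category.assoc, pu.w, Category.assoc])
      obtain ⟨φ, f1, f2⟩ := hf.lifts hq g2 φ' (p2.hom_ext (T.un _ _ _
        (by rw [← Category.assoc (pushout.inl _ _), a3, ← Category.assoc, a1, Category.assoc, e,
          ← Category.assoc, w1]; simp only [Category.assoc])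
        (fun ε => by rw [← Category.assoc (pushout.inl _ _), a3, ← Category.assoc, a2, y2]))
        (by rw [← Category.assoc, a4, Category.assoc, e, ← Category.assoc, w2, Category.assoc]))
      refine ⟨φ, pu.hom_ext ?_ ?_, f2⟩
      · rw [← Category.assoc, w1, Category.assoc, Category.assoc, f1, a3, a1]
      · rw [← Category.assoc, w2, Category.assoc, f1, a4]
    have hW := attW S hk he' T.po true false μs μt pu
    have hc : P.Contr (n + 1) (pushout μ (P.ι (k + 1))) := by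
      subst hk
      exact H.zig _ _ _ _ _ _ hW
    have htc := H.lemA _ _ w hw (T.cofV.of_cof ((cof_ι (Nat.zero_le _)).inl _)) hc hX
    obtain ⟨g, g1, g2, g3⟩ := hW.ex E x (e ≫ l) (e ≫ r)
      (by rw [h1, ← Category.assoc, he']) (by rw [h2, ← Category.assoc, he'])
    simp only [Category.assoc, cancel_epi] at g2 g3
    obtain ⟨φ, f1, f2⟩ := htc.lifts hq g φ' (pu.hom_ext (T.po.hom_ext
      (by rw [← Category.assoc (pushout.inl _ _) w, w1, h3, ← g2]; simp only [Category.assoc])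
      (by rw [← Category.assoc (pushout.inl _ _) w, w1, h5, ← g3]; simp only [Category.assoc]))
      (by rw [← Category.assoc, g1, ← Category.assoc, w2]; exact h4.symm))
    refine ⟨φ, ?_, ?_, ?_, f2⟩
    · rw [← w1, Category.assoc, f1, g2]
    · exact (congrArg (· ≫ φ) w2).symm.trans (by rw [Category.assoc, f1, g1])
    · rw [← w1, Category.assoc, f1, g3]

theorem next (H : Hyp P N n) {k : ℕ} (S : Stage P N n k) :
    ∃ S' : Stage P N n (k + 1), Nonempty (Link S S') := by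
  rcases lt_trichotomy k n with h | h | h
  · exact next_low H S h
  · exact next_mid H S h
  · exact next_high H S h

end Cyl

end Crest.Agent.R248
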