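import Crest.Agent.R248.Cyl

/-!
# Row 248: construction of the cylinder, assembly
-/

set_option autoImplicit false
set_option linter.unusedSectionVars false
open CategoryTheory CategoryTheory.Limits Opposite Crest.GeometryTopology.Coherator

namespace Crest.Agent.R248

universe u v

variable {𝒟 : Type v} [Category.{u} 𝒟] [HasFiniteColimits 𝒟] [HasFiniteProducts 𝒟]

namespace Cyl

open Crest.Agent.R248.Seq

variable {P : Seq 𝒟} {N n : ℕ}

namespace Link

variable {k : ℕ} {S : Stage P N n k} {S' : Stage P N n (k + 1)} (K : Link S S')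

theorem natσ (ε : Bool) : P.σ k ≫ S'.jo ε = S.jo ε ≫ K.s ≫ S'.i := by
  rw [← bs_ι, Category.assoc, S'.comm, ← Category.assoc, K.js, Category.assoc]

theorem natτ (ε : Bool) : P.τ k ≫ S'.jo ε = S.jo ε ≫ K.t ≫ S'.i := by
  rw [← bt_ι, Category.assoc, S'.comm, ← Category.assoc, K.jt, Category.assoc]

/-- Compatibility of a glued boundary with a cell. -/
theorem compat {Z : 𝒟} {ε : Bool} {d : S'.Bd ⟶ Z} {z : P.ob (k + 1) ⟶ Z}
    (h1 : S.jo ε ≫ K.s ≫ d = P.σ k ≫ z) (h2 : S.jo ε ≫ K.t ≫ d = P.τ k ≫ z) :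
    P.ι (k + 1) ≫ z = S'.jb ε ≫ d :=
  bd_ext (by rw [bs_ι_assoc, ← Category.assoc, K.js, Category.assoc, h1])
    (by rw [bt_ι_assoc, ← Category.assoc, K.jt, Category.assoc, h2])

theorem tc (hk : n < k) : P.TC (n + 1) (K.s ≫ S'.i) := by
  refine (tc_iff _).2 fun E B q hq l g w => ?_
  obtain ⟨z, z1, z2⟩ := hq.lift (k := k) hk (S.jo false ≫ l) (S'.jo false ≫ g) (by
    rw [← Category.assoc, K.natσ, Category.assoc, Category.assoc, Category.assoc, w,
      Category.assoc])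
  obtain ⟨r, r1, r2, r3⟩ := S.extU hk false E B q hq (S.i ≫ l) (P.τ k ≫ z) (K.t ≫ S'.i ≫ g)
    (by rw [← Category.assoc, ← P.ι_σ_τ, Category.assoc, z1, ← Category.assoc, S.comm,
      Category.assoc])
    (by rw [Category.assoc, w, ← K.po.w_assoc]; simp only [Category.assoc])
    (by rw [Category.assoc, z2, ← Category.assoc (P.τ k), K.natτ]; simp only [Category.assoc])
  obtain ⟨d, d1, d2⟩ := IsPushout.ex K.po l r r1.symm
  obtain ⟨φ, f1, -, f3⟩ := S'.extU (by omega) false E B q hq d z g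
    (K.compat (by rw [d1, z1]) (by rw [d2, r2]))
    (K.po.hom_ext (by rw [← Category.assoc _ d, d1, w, Category.assoc])
      (by rw [← Category.assoc _ d, d2, r3])) z2.symm
  exact ⟨φ, by rw [Category.assoc, f1, d1], f3⟩

theorem ext (hk : n ≤ k) (Z : 𝒟) (hZ : P.Contr (n + 1) Z) (l r : S.Ob ⟶ Z)
    (hlr : S.i ≫ l = S.i ≫ r) (z : Bool → (P.ob (k + 1) ⟶ Z))
    (h1 : ∀ ε, S.jo ε ≫ l = P.σ k ≫ z ε) (h2 : ∀ ε, S.jo ε ≫ r = P.τ k ≫ z ε) :
    ∃ φ : S'.Ob ⟶ Z, (K.s ≫ S'.i) ≫ φ = l ∧ (K.t ≫ S'.i) ≫ φ = r ∧ ∀ ε, S'.jo ε ≫ φ = z ε := by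
  obtain ⟨d, d1, d2⟩ := IsPushout.ex K.po l r hlr
  obtain ⟨φ, f1, f2, -⟩ := S'.extB (by omega) Z _ _ hZ d z (terminal.from _)
    (fun ε => K.compat (by rw [d1, h1]) (by rw [d2, h2])) (terminal.hom_ext _ _)
    (fun _ => terminal.hom_ext _ _)
  exact ⟨φ, by rw [Category.assoc, f1, d1], by rw [Category.assoc, f1, d2], f2⟩

theorem tf (hfib : ∀ Z : 𝒟, P.Fib (n + 1) (terminal.from Z)) (hk : n ≤ k) (Z : 𝒟) (ε : Bool)
    (l r : S.Ob ⟶ Z) (hlr : S.i ≫ l = S.i ≫ r) (z : P.ob (k + 1) ⟶ Z)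
    (h1 : S.jo ε ≫ l = P.σ k ≫ z) (h2 : S.jo ε ≫ r = P.τ k ≫ z) :
    ∃ φ : S'.Ob ⟶ Z, (K.s ≫ S'.i) ≫ φ = l ∧ (K.t ≫ S'.i) ≫ φ = r ∧ S'.jo ε ≫ φ = z := by
  obtain ⟨d, d1, d2⟩ := IsPushout.ex K.po l r hlr
  obtain ⟨φ, f1, f2, -⟩ := S'.extU (by omega) ε Z _ _ (hfib Z) d z (terminal.from _)
    (K.compat (by rw [d1, h1]) (by rw [d2, h2])) (terminal.hom_ext _ _) (terminal.hom_ext _ _)
  exact ⟨φ, by rw [Category.assoc, f1, d1], by rw [Category.assoc, f1, d2], f2⟩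

theorem fib (H : Hyp P N n) (hk : n ≤ k) (Z : 𝒟) (l : S.Ob ⟶ Z) (z : Bool → (P.ob (k + 1) ⟶ Z))
    (h1 : ∀ ε, S.jo ε ≫ l = P.σ k ≫ z ε) :
    ∃ φ : S'.Ob ⟶ Z, (K.s ≫ S'.i) ≫ φ = l ∧ ∀ ε, S'.jo ε ≫ φ = z ε := by
  obtain ⟨V1, a1, x0, p1⟩ : ∃ (V1 : 𝒟) (a1 : S.Ob ⟶ V1) (x0 : P.ob (k + 1) ⟶ V1),
      IsPushout (S.jo false) (P.σ k) a1 x0 := ⟨_, _, _, IsPushout.of_hasPushout _ _⟩
  obtain ⟨V2, a2, x1, p2⟩ : ∃ (V2 : 𝒟) (a2 : V1 ⟶ V2) (x1 : P.ob (k + 1) ⟶ V2),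
      IsPushout (S.jo true ≫ a1) (P.σ k) a2 x1 := ⟨_, _, _, IsPushout.of_hasPushout _ _⟩
  have hex : ∀ (Z : 𝒟) (l : S.Ob ⟶ Z) (z : Bool → (P.ob (k + 1) ⟶ Z)),
      (∀ ε, S.jo ε ≫ l = P.σ k ≫ z ε) →
      ∃ g : V2 ⟶ Z, a1 ≫ a2 ≫ g = l ∧ x0 ≫ a2 ≫ g = z false ∧ x1 ≫ g = z true := by
    intro Z l z h
    obtain ⟨g1, e1, e2⟩ := IsPushout.ex p1 l (z false) (h false)
    obtain ⟨g2, e3, e4⟩ := IsPushout.ex p2 g1 (z true) (by rw [Category.assoc, e1, h])
    exact ⟨g2, by rw [e3, e1], by rw [e3, e2], e4⟩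
  have hun : ∀ (Z : 𝒟) (g g' : V2 ⟶ Z), a1 ≫ a2 ≫ g = a1 ≫ a2 ≫ g' →
      x0 ≫ a2 ≫ g = x0 ≫ a2 ≫ g' → x1 ≫ g = x1 ≫ g' → g = g' :=
    fun Z g g' e1 e2 e3 => p2.hom_ext (p1.hom_ext e1 e2) e3
  obtain ⟨w, w1, w2, w3⟩ := hex _ (K.s ≫ S'.i) S'.jo (fun ε => (K.natσ ε).symm)
  have hw : P.Cof (n + 1) w := by
    refine (cof_iff _).2 fun E B q hq g φ' e => ?_
    let y : Bool → (P.ob (k + 1) ⟶ E) := fun ε => bif ε then x1 ≫ g else x0 ≫ a2 ≫ g
    have y1 : ∀ ε, S.jo ε ≫ a1 ≫ a2 ≫ g = P.σ k ≫ y ε := by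
      intro ε
      cases ε
      · exact p1.w_assoc _
      · change _ = _ ≫ x1 ≫ g
        rw [← p2.w_assoc, Category.assoc]
    have y2 : ∀ ε, S'.jo ε ≫ φ' = y ε ≫ q := by
      intro ε
      cases ε
      · change _ = (x0 ≫ a2 ≫ g) ≫ q
        rw [Category.assoc, Category.assoc, e, ← w2]; simp only [Category.assoc]
      · change _ = (x1 ≫ g) ≫ q
        rw [Category.assoc, e, ← w3]; simp only [Category.assoc]
    have hl : K.s ≫ S'.i ≫ φ' = (a1 ≫ a2 ≫ g) ≫ q := by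
      rw [Category.assoc, Category.assoc, e, ← Category.assoc, ← w1]; simp only [Category.assoc]
    obtain ⟨r, r1, r2, r3⟩ := S.extB hk E B q hq (S.i ≫ a1 ≫ a2 ≫ g) (fun ε => P.τ k ≫ y ε)
      (K.t ≫ S'.i ≫ φ')
      (fun ε => by
        rw [← Category.assoc, ← P.ι_σ_τ, Category.assoc, ← y1, ← Category.assoc, S.comm,
          Category.assoc])
      (by rw [← K.po.w_assoc, hl]; simp only [Category.assoc])
      (fun ε => by
        rw [Category.assoc, ← y2, ← Category.assoc (P.τ k), K.natτ]; simp only [Category.assoc])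
    obtain ⟨d, d1, d2⟩ := IsPushout.ex K.po (a1 ≫ a2 ≫ g) r r1.symm
    obtain ⟨φ, f1, f2, f3⟩ := S'.extB (by omega) E B q hq d y φ'
      (fun ε => K.compat (by rw [d1, y1]) (by rw [d2, r2]))
      (K.po.hom_ext (by rw [← Category.assoc _ d, d1, hl]) (by rw [← Category.assoc _ d, d2, r3]))
      y2
    refine ⟨φ, hun _ _ _ ?_ ?_ ?_, f3⟩
    · rw [reassoc_of% w1, f1, d1]
    · rw [reassoc_of% w2, f2]; rfl
    · rw [reassoc_of% w3, f2]; rfl
  have hcof : P.Cofibrant V2 :=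
    (S.cofO.of_cof ((cof_σ (Nat.zero_le k)).of_isPushout p1)).of_cof
      ((cof_σ (Nat.zero_le k)).of_isPushout p2)
  have hc : P.Contr (n + 1) V2 := by
    rcases hk.eq_or_lt with h | h
    · obtain ⟨e, he, he'⟩ := S.mid h.symm
      have hW : P.IsW k false false (e ≫ a1 ≫ a2) (x0 ≫ a2) x1 :=
        { e0 := by
            rw [face_false, ← p1.w_assoc, ← he' false, face_false, Category.assoc]
          e1 := by
            rw [face_false, ← p2.w, ← he' true, face_true]; simp only [Category.assoc]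
          ex := fun Z x' w0 w1 e0 e1 => by
            obtain ⟨g, g1, g2, g3⟩ := hex Z (inv e ≫ x') (fun ε => bif ε then w1 else w0)
              (fun ε => by
                rw [← he' ε, Category.assoc, IsIso.hom_inv_id_assoc]
                cases ε
                · exact e0
                · exact e1)
            exact ⟨g, by simp only [Category.assoc, g1, IsIso.hom_inv_id_assoc],
              by rw [Category.assoc, g2]; rfl, g3⟩
          un := fun Z g g' e0 e1 e2 => hun Z g g'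
            (by simpa only [Category.assoc, cancel_epi] using e0)
            (by simpa only [Category.assoc] using e1) e2 }
      subst h
      exact H.zig _ _ _ _ _ _ hW
    · exact H.fwd _ _ _ (((tc_σ h).of_isPushout p1).comp ((tc_σ h).of_isPushout p2)) S.cofO _
        (S.contr hk)
  have htc := H.lemA _ _ w hw hcof hc (S'.contr (by omega))
  obtain ⟨g, g1, g2, g3⟩ := hex Z l z h1
  obtain ⟨φ, f1⟩ := H.extend htc g
  refine ⟨φ, by rw [← w1, Category.assoc, Category.assoc, f1, g1], fun ε => ?_⟩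
  cases ε
  · rw [← w2, Category.assoc, Category.assoc, f1, g2]
  · rw [← w3, Category.assoc, f1, g3]

theorem uniq (hk : N ≤ k + 1) (Z : 𝒟) (l r : S.Ob ⟶ Z) (hlr : S.i ≫ l = S.i ≫ r) :
    ∃! z : S'.Ob ⟶ Z, (K.s ≫ S'.i) ≫ z = l ∧ (K.t ≫ S'.i) ≫ z = r := by
  have hiso := S'.iso hk
  obtain ⟨d, d1, d2⟩ := IsPushout.ex K.po l r hlr
  refine ⟨inv S'.i ≫ d, ⟨?_, ?_⟩, ?_⟩
  · rw [Category.assoc, IsIso.hom_inv_id_assoc, d1]
  · rw [Category.assoc, IsIso.hom_inv_id_assoc, d2]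
  · rintro y ⟨h1, h2⟩
    rw [IsIso.eq_inv_comp]
    exact K.po.hom_ext (by rw [d1, ← h1, Category.assoc]) (by rw [d2, ← h2, Category.assoc])

end Link

/-- The initial stage. -/
noncomputable def stage0 (H : Hyp P N n) : Stage P N n 0 :=
  if h : 0 < n then lowStage H 0 h else midStage H 0 (by omega)

/-- All stages. -/
noncomputable def stages (H : Hyp P N n) : (k : ℕ) → Stage P N n k
  | 0 => stage0 H
  | k + 1 => (next H (stages H k)).choose

/-- All links. -/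
noncomputable def links (H : Hyp P N n) (k : ℕ) : Link (stages H k) (stages H (k + 1)) :=
  (next H (stages H k)).choose_spec.some

/-- The cylinder. -/
noncomputable def cyl (H : Hyp P N n) : Seq 𝒟 where
  ob k := (stages H k).Ob
  σ k := (links H k).s ≫ (stages H (k + 1)).i
  τ k := (links H k).t ≫ (stages H (k + 1)).i
  σσ k := by simp only [Category.assoc]; rw [(links H (k + 1)).po.w_assoc]
  ττ k := by simp only [Category.assoc]; rw [(links H (k + 1)).po.w_assoc]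

theorem par_cyl (H : Hyp P N n) {Z : 𝒟} : ∀ {k : ℕ} (l r : (stages H k).Ob ⟶ Z),
    (cyl H).Par k l r → (stages H k).i ≫ l = (stages H k).i ≫ r
  | 0, l, r, _ => by
    obtain ⟨-, h⟩ := (stages H 0).lowb (Nat.zero_le n)
    rw [← cancel_epi ((stages H 0).jb false)]
    exact bd_zero_ext _ _
  | k + 1, l, r, h => (links H k).po.hom_ext
      ((Category.assoc _ _ _).symm.trans (h.1.trans (Category.assoc _ _ _)))
      ((Category.assoc _ _ _).symm.trans (h.2.trans (Category.assoc _ _ _)))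

theorem isCyl (H : Hyp P N n) (hfib : ∀ Z : 𝒟, P.Fib (n + 1) (terminal.from Z)) :
    P.IsCyl N n (cyl H) (fun ε k => (stages H k).jo ε) where
  natσ ε k := (links H k).natσ ε
  natτ ε k := (links H k).natτ ε
  low k hk := (stages H k).lowo hk
  mid := by
    obtain ⟨e, he, he'⟩ := (stages H n).mid rfl
    obtain ⟨m, m1, m2, hm⟩ := (links H n).midm rfl
    refine ⟨e, he, he' false, he' true, m, ?_, ?_, ?_⟩
    · exact m1.trans (by rw [← he' true]; exact Category.assoc _ _ _)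
    · exact m2.trans (by rw [← he' false]; exact Category.assoc _ _ _)
    · intro E B q hq w0 x w1 φ' h1 h2 h3 h4 h5
      change e ≫ ((links H n).s ≫ (stages H (n + 1)).i) ≫ φ' = _ at h3
      change e ≫ ((links H n).t ≫ (stages H (n + 1)).i) ≫ φ' = _ at h5
      obtain ⟨φ, f1, f2, f3, f4⟩ := hm E B q hq (inv e ≫ w0) (inv e ≫ w1) x φ'
        (by rw [h1, ← he' true]; simp) (by rw [h2, ← he' false]; simp)
        (by rw [Category.assoc, ← h3]; simp) h4 (by rw [Category.assoc, ← h5]; simp)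
      refine ⟨φ, ?_, f2, ?_, f4⟩
      · change e ≫ ((links H n).s ≫ (stages H (n + 1)).i) ≫ φ = _
        rw [Category.assoc, f1, IsIso.hom_inv_id_assoc]
      · change e ≫ ((links H n).t ≫ (stages H (n + 1)).i) ≫ φ = _
        rw [Category.assoc, f3, IsIso.hom_inv_id_assoc]
  tc k hk := (links H k).tc hk
  ext k hk Z hZ l r hlr z h1 h2 := (links H k).ext hk Z hZ l r (par_cyl H l r hlr) z h1 h2
  tf k hk Z ε l r hlr z h1 h2 := (links H k).tf hfib hk Z ε l r (par_cyl H l r hlr) z h1 h2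
  fib k hk Z l z h1 := (links H k).fib H hk Z l z h1
  uniq k hk Z l r hlr := (links H k).uniq hk Z l r (par_cyl H l r hlr)

end Cyl

/-- The cylinder of level `n` exists, given the results at level `n + 1`. -/
theorem cyl_of {F : Shape ⥤ 𝒟} {N : ℕ} (c : Ctx F N) {n : ℕ} (hn : n < N)
    (hA : (ofF F).LemA (n + 1)) (hF : (ofF F).Fwd (n + 1)) (hZ : (ofF F).Zig n) :
    ∃ (Q : Seq 𝒟) (j : Bool → ∀ k, (ofF F).ob k ⟶ Q.ob k), (ofF F).IsCyl N n Q j :=
  have H : Cyl.Hyp (ofF F) N n :=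
    { hn := hn
      extend := fun hi f => c.extend hi f
      fill := c.exists_fill (n + 1)
      uniq := c.uniq
      disk := c.contr_obj (Shape.globe (n + 1)) le_rfl
      lemA := hA
      fwd := hF
      zig := hZ }
  ⟨_, _, Cyl.isCyl H (c.fib_terminal (n + 1))⟩

end Crest.Agent.R248
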