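import Mathlib
import Crest.Prelude.Def_GlobularCoherator

/-!
# Row 248 (S0382, Henry's pushout conjecture): definitions and interface statements

Plan.  Fix `N ≥ 1` and work in the category `DD C N` of models with unique fillers in dimensions
`≥ N`.  `TF m`/`Fib m` are the maps with the right lifting property against `∂D_k → D_k` /
`σ : D_k → D_{k+1}` for `k ≥ m`; `Cof m`/`TC m` the corresponding left classes.  By downward
induction on `n ≤ N` one proves `Transfer n` (maps in `TC n` out of cofibrant objects are homotopy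
equivalences), building from `Transfer (n+1)` a cylinder `IsCyl n`, hence a path object.
-/

set_option autoImplicit false
open CategoryTheory CategoryTheory.Limits Opposite Crest.GeometryTopology.Coherator

namespace Crest.Agent.R248

universe u v

/-! ## Co-globular objects -/

/-- A co-globular object, as a sequence of objects with source and target faces. -/
structure Seq (𝒟 : Type v) [Category.{u} 𝒟] where
  ob : ℕ → 𝒟
  σ : ∀ k, ob k ⟶ ob (k + 1)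
  τ : ∀ k, ob k ⟶ ob (k + 1)
  σσ : ∀ k, σ k ≫ σ (k + 1) = σ k ≫ τ (k + 1)
  ττ : ∀ k, τ k ≫ σ (k + 1) = τ k ≫ τ (k + 1)

section
variable {𝒟 : Type v} [Category.{u} 𝒟]

theorem shape_σσ (k : ℕ) : Shape.σ k ≫ Shape.σ (k + 1) = Shape.σ k ≫ Shape.τ (k + 1) :=
  ((GlobTheory.globeShapes.map_comp (GlobeObj.σ k) (GlobeObj.σ (k + 1))).symm.trans
    (GlobTheory.globeShapes.map_comp (GlobeObj.σ k) (GlobeObj.τ (k + 1))) :)

theorem shape_ττ (k : ℕ) : Shape.τ k ≫ Shape.σ (k + 1) = Shape.τ k ≫ Shape.τ (k + 1) :=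
  ((GlobTheory.globeShapes.map_comp (GlobeObj.τ k) (GlobeObj.σ (k + 1))).symm.trans
    (GlobTheory.globeShapes.map_comp (GlobeObj.τ k) (GlobeObj.τ (k + 1))) :)

/-- The co-globular object of a functor on shapes. -/
@[reducible] noncomputable def ofF (Ψ : Shape ⥤ 𝒟) : Seq 𝒟 where
  ob k := Ψ.obj (Shape.globe k)
  σ k := Ψ.map (Shape.σ k)
  τ k := Ψ.map (Shape.τ k)
  σσ k := by rw [← Ψ.map_comp, ← Ψ.map_comp, shape_σσ]
  ττ k := by rw [← Ψ.map_comp, ← Ψ.map_comp, shape_ττ]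

/-- The functor sends the designated gluing squares to pushouts. -/
def Sums (Ψ : Shape ⥤ 𝒟) : Prop :=
  ∀ (S : Shape) (b h : ℕ) (hb : b < S.last) (hh : b < h),
    IsPushout (Ψ.map (S.hinge hb)) (Ψ.map (Shape.faceMap hh false))
      (Ψ.map (S.inLeft b h hb hh)) (Ψ.map (S.inRight b h hb hh))

namespace Seq

variable (P : Seq 𝒟)

/-- Parallel `k`-cells of `Z` (maps `P.ob k ⟶ Z`). -/
def Par {Z : 𝒟} : (k : ℕ) → (P.ob k ⟶ Z) → (P.ob k ⟶ Z) → Prop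
  | 0, _, _ => True
  | k + 1, a, b => P.σ k ≫ a = P.σ k ≫ b ∧ P.τ k ≫ a = P.τ k ≫ b

/-- Unique fillers in dimensions `≥ N`, in every object. -/
def UniqueFill (N : ℕ) : Prop :=
  ∀ k, N ≤ k + 1 → ∀ (Z : 𝒟) (a b : P.ob k ⟶ Z), P.Par k a b →
    ∃! z : P.ob (k + 1) ⟶ Z, P.σ k ≫ z = a ∧ P.τ k ≫ z = b

/-- The face `σ` (for `false`) or `τ` (for `true`). -/
def face (ε : Bool) (k : ℕ) : P.ob k ⟶ P.ob (k + 1) := bif ε then P.τ k else P.σ k

/-- `U` is the edge `x` with a whisker `w0` attached at its source (along the face `f0` of the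
whisker) and a whisker `w1` attached at its target (along the face `f1`). -/
structure IsW (n : ℕ) (f0 f1 : Bool) {U : 𝒟} (x w0 w1 : P.ob (n + 1) ⟶ U) : Prop where
  e0 : P.σ n ≫ x = P.face f0 n ≫ w0
  e1 : P.τ n ≫ x = P.face f1 n ≫ w1
  ex : ∀ (Z : 𝒟) (x' w0' w1' : P.ob (n + 1) ⟶ Z), P.σ n ≫ x' = P.face f0 n ≫ w0' →
    P.τ n ≫ x' = P.face f1 n ≫ w1' → ∃ g : U ⟶ Z, x ≫ g = x' ∧ w0 ≫ g = w0' ∧ w1 ≫ g = w1'
  un : ∀ (Z : 𝒟) (g g' : U ⟶ Z), x ≫ g = x ≫ g' → w0 ≫ g = w0 ≫ g' → w1 ≫ g = w1 ≫ g' → g = g'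

variable [HasFiniteColimits 𝒟]

/-- Boundary objects with their inclusions. -/
noncomputable def bdData : (k : ℕ) →
    Σ' (B : 𝒟) (i : B ⟶ P.ob k), i ≫ P.σ k = i ≫ P.τ k
  | 0 => ⟨⊥_ 𝒟, initial.to _, initial.hom_ext _ _⟩
  | k + 1 => ⟨pushout (bdData k).2.1 (bdData k).2.1,
      pushout.desc (P.σ k) (P.τ k) (bdData k).2.2, by
        apply pushout.hom_ext
        · rw [pushout.inl_desc_assoc, pushout.inl_desc_assoc, P.σσ]
        · rw [pushout.inr_desc_assoc, pushout.inr_desc_assoc, P.ττ]⟩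

/-- The boundary of the `k`-disk. -/
noncomputable def bd (k : ℕ) : 𝒟 := (P.bdData k).1

/-- The boundary inclusion. -/
noncomputable def ι (k : ℕ) : P.bd k ⟶ P.ob k := (P.bdData k).2.1

/-- Boundary inclusions of dimension `≥ m`. -/
def Ibd (m : ℕ) : MorphismProperty 𝒟 :=
  MorphismProperty.ofHoms (fun k : {k : ℕ // m ≤ k} => P.ι k.1)

/-- Source inclusions of dimension `≥ m`. -/
def Isrc (m : ℕ) : MorphismProperty 𝒟 :=
  MorphismProperty.ofHoms (fun k : {k : ℕ // m ≤ k} => P.σ k.1)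

/-- Trivial fibrations in dimensions `≥ m`. -/
def TF (m : ℕ) : MorphismProperty 𝒟 := (P.Ibd m).rlp
/-- Cofibrations with cells of dimensions `≥ m`. -/
def Cof (m : ℕ) : MorphismProperty 𝒟 := (P.Ibd m).rlp.llp
/-- Fibrations in dimensions `≥ m`. -/
def Fib (m : ℕ) : MorphismProperty 𝒟 := (P.Isrc m).rlp
/-- Trivial cofibrations of level `≥ m`. -/
def TC (m : ℕ) : MorphismProperty 𝒟 := (P.Isrc m).rlp.llp

/-- Cofibrant objects. -/
def Cofibrant (X : 𝒟) : Prop := P.Cof 0 (initial.to X)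

/-- `f` is "homotopic to the identity". -/
def HId {X : 𝒟} (f : X ⟶ X) : Prop :=
  ∃ (W : 𝒟) (H : X ⟶ W) (p0 p1 : W ⟶ X), P.TF 0 p0 ∧ P.TF 0 p1 ∧ H ≫ p0 = f ∧ H ≫ p1 = 𝟙 X

/-- Trivial cofibrations of level `n` out of cofibrant objects are homotopy equivalences. -/
def Transfer (n : ℕ) : Prop :=
  ∀ (X Y : 𝒟) (j : X ⟶ Y), P.TC n j → P.Cofibrant X →
    ∃ ψ : Y ⟶ X, P.HId (j ≫ ψ) ∧ P.HId (ψ ≫ j)

variable [HasFiniteProducts 𝒟]

/-- All spheres with filler dimension `≥ m` are filled. -/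
def Contr (m : ℕ) (Z : 𝒟) : Prop := P.TF m (terminal.from Z)

/-- A functorial path object of level `n`. -/
def PathObj (n : ℕ) : Prop :=
  ∃ (W : 𝒟 ⥤ 𝒟) (p : Bool → (W ⟶ 𝟭 𝒟)), (∀ ε Z, P.TF 0 ((p ε).app Z)) ∧
    ∀ Z, P.Fib n (prod.lift ((p false).app Z) ((p true).app Z))

/-- Contractibility moves forward along `TC n`. -/
def Fwd (n : ℕ) : Prop :=
  ∀ (X Y : 𝒟) (j : X ⟶ Y), P.TC n j → P.Cofibrant X → ∀ m, P.Contr m X → P.Contr m Y

/-- Cofibrations between contractible objects are trivial. -/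
def LemA (n : ℕ) : Prop :=
  ∀ (U V : 𝒟) (j : U ⟶ V), P.Cof n j → P.Cofibrant U → P.Contr n U → P.Contr n V → P.TC n j

/-- Zig-zags of three edges are contractible. -/
def Zig (n : ℕ) : Prop :=
  ∀ (f0 f1 : Bool) (U : 𝒟) (x w0 w1 : P.ob (n + 1) ⟶ U), P.IsW n f0 f1 x w0 w1 →
    P.Contr (n + 1) U

/-- A cylinder of level `n` on the co-globular object `P`: `Q` with two inclusions `j`. -/
structure IsCyl (N n : ℕ) (Q : Seq 𝒟) (j : Bool → ∀ k, P.ob k ⟶ Q.ob k) : Prop where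
  natσ : ∀ ε k, P.σ k ≫ j ε (k + 1) = j ε k ≫ Q.σ k
  natτ : ∀ ε k, P.τ k ≫ j ε (k + 1) = j ε k ≫ Q.τ k
  low : ∀ k, k < n → j false k = j true k ∧ IsIso (j false k)
  mid : ∃ e : P.ob (n + 1) ⟶ Q.ob n, IsIso e ∧ P.σ n ≫ e = j false n ∧ P.τ n ≫ e = j true n ∧
    ∃ m : P.ob (n + 1) ⟶ Q.ob (n + 1), P.σ n ≫ m = P.τ n ≫ e ≫ Q.σ n ∧
      P.τ n ≫ m = P.σ n ≫ e ≫ Q.τ n ∧
      ∀ (E B : 𝒟) (q : E ⟶ B), P.Fib (n + 1) q → ∀ (w0 x w1 : P.ob (n + 1) ⟶ E)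
        (φ' : Q.ob (n + 1) ⟶ B), P.σ n ≫ x = P.τ n ≫ w0 → P.τ n ≫ x = P.σ n ≫ w1 →
        e ≫ Q.σ n ≫ φ' = w0 ≫ q → m ≫ φ' = x ≫ q → e ≫ Q.τ n ≫ φ' = w1 ≫ q →
        ∃ φ : Q.ob (n + 1) ⟶ E, e ≫ Q.σ n ≫ φ = w0 ∧ m ≫ φ = x ∧ e ≫ Q.τ n ≫ φ = w1 ∧
          φ ≫ q = φ'
  tc : ∀ k, n < k → P.TC (n + 1) (Q.σ k)
  ext : ∀ k, n ≤ k → ∀ (Z : 𝒟), P.Contr (n + 1) Z → ∀ (l r : Q.ob k ⟶ Z), Q.Par k l r →
    ∀ z : Bool → (P.ob (k + 1) ⟶ Z), (∀ ε, j ε k ≫ l = P.σ k ≫ z ε) →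
      (∀ ε, j ε k ≫ r = P.τ k ≫ z ε) →
      ∃ φ : Q.ob (k + 1) ⟶ Z, Q.σ k ≫ φ = l ∧ Q.τ k ≫ φ = r ∧ ∀ ε, j ε (k + 1) ≫ φ = z ε
  tf : ∀ k, n ≤ k → ∀ (Z : 𝒟) (ε : Bool) (l r : Q.ob k ⟶ Z), Q.Par k l r →
    ∀ z : P.ob (k + 1) ⟶ Z, j ε k ≫ l = P.σ k ≫ z → j ε k ≫ r = P.τ k ≫ z →
      ∃ φ : Q.ob (k + 1) ⟶ Z, Q.σ k ≫ φ = l ∧ Q.τ k ≫ φ = r ∧ j ε (k + 1) ≫ φ = z
  fib : ∀ k, n ≤ k → ∀ (Z : 𝒟) (l : Q.ob k ⟶ Z) (z : Bool → (P.ob (k + 1) ⟶ Z)),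
    (∀ ε, j ε k ≫ l = P.σ k ≫ z ε) →
      ∃ φ : Q.ob (k + 1) ⟶ Z, Q.σ k ≫ φ = l ∧ ∀ ε, j ε (k + 1) ≫ φ = z ε
  uniq : Q.UniqueFill N

end Seq

/-- The filler-extension property needed to make `Φ` act through the operations. -/
def ExtProp (F Φ : Shape ⥤ 𝒟) (j : Bool → (F ⟶ Φ)) : Prop :=
  ∀ (A : Shape) (k : ℕ), A.dim ≤ k + 1 →
    ∀ (l r : Φ.obj (Shape.globe k) ⟶ Φ.obj A), (ofF Φ).Par k l r →
    ∀ z : F.obj (Shape.globe (k + 1)) ⟶ F.obj A,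
      (∀ ε, (j ε).app _ ≫ l = F.map (Shape.σ k) ≫ z ≫ (j ε).app A) →
      (∀ ε, (j ε).app _ ≫ r = F.map (Shape.τ k) ≫ z ≫ (j ε).app A) →
      ∃ φ : Φ.obj (Shape.globe (k + 1)) ⟶ Φ.obj A, Φ.map (Shape.σ k) ≫ φ = l ∧
        Φ.map (Shape.τ k) ≫ φ = r ∧ ∀ ε, (j ε).app _ ≫ φ = z ≫ (j ε).app A

/-- Cylinders on shapes with the extension property give path functors. -/
def PathPrinciple (F : Shape ⥤ 𝒟) (N : ℕ) : Prop :=
  ∀ (Φ : Shape ⥤ 𝒟) (j : Bool → (F ⟶ Φ)), Sums Φ → ExtProp F Φ j → (ofF Φ).UniqueFill N →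
    ∃ (W : 𝒟 ⥤ 𝒟) (p : Bool → (W ⟶ 𝟭 𝒟))
      (e : ∀ (Z : 𝒟) (k : ℕ), (F.obj (Shape.globe k) ⟶ W.obj Z) ≃ (Φ.obj (Shape.globe k) ⟶ Z)),
      (∀ Z k (x : F.obj (Shape.globe (k + 1)) ⟶ W.obj Z),
        e Z k (F.map (Shape.σ k) ≫ x) = Φ.map (Shape.σ k) ≫ e Z (k + 1) x) ∧
      (∀ Z k (x : F.obj (Shape.globe (k + 1)) ⟶ W.obj Z),
        e Z k (F.map (Shape.τ k) ≫ x) = Φ.map (Shape.τ k) ≫ e Z (k + 1) x) ∧
      ∀ Z k (x : F.obj (Shape.globe k) ⟶ W.obj Z) (ε : Bool),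
        x ≫ (p ε).app Z = (j ε).app _ ≫ e Z k x

/-- Co-globular objects extend to functors on shapes preserving the gluing squares. -/
def ExtStmt (𝒟 : Type v) [Category.{u} 𝒟] : Prop :=
  ∀ P : Seq 𝒟, ∃ Ψ : Shape ⥤ 𝒟, Sums Ψ ∧ ofF Ψ = P

/-- Maps of co-globular objects extend to natural transformations. -/
def NatStmt (𝒟 : Type v) [Category.{u} 𝒟] : Prop :=
  ∀ (Ψ Ψ' : Shape ⥤ 𝒟), Sums Ψ →
    ∀ α : ∀ k, Ψ.obj (Shape.globe k) ⟶ Ψ'.obj (Shape.globe k),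
      (∀ k, Ψ.map (Shape.σ k) ≫ α (k + 1) = α k ≫ Ψ'.map (Shape.σ k)) →
      (∀ k, Ψ.map (Shape.τ k) ≫ α (k + 1) = α k ≫ Ψ'.map (Shape.τ k)) →
      ∃ β : Ψ ⟶ Ψ', ∀ k, β.app (Shape.globe k) = α k

/-- The abstract setting. -/
structure Ctx [HasFiniteColimits 𝒟] [HasFiniteProducts 𝒟] (F : Shape ⥤ 𝒟) (N : ℕ) : Prop where
  hN : 1 ≤ N
  sums : Sums F
  contr : ∀ (S : Shape) (k : ℕ), S.dim ≤ k + 1 →
    ∀ a b : F.obj (Shape.globe k) ⟶ F.obj S, (ofF F).Par k a b →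
      ∃ z : F.obj (Shape.globe (k + 1)) ⟶ F.obj S,
        F.map (Shape.σ k) ≫ z = a ∧ F.map (Shape.τ k) ≫ z = b
  uniq : (ofF F).UniqueFill N
  factTF : ∀ m, ((ofF F).Cof m).HasFactorization ((ofF F).TF m)
  factFib : ∀ m, ((ofF F).TC m).HasFactorization ((ofF F).Fib m)
  path : PathPrinciple F N

end

/-! ## The tower of a coherator -/

/-- Recursion principle of a theory with a tower: a sum-preserving functor on shapes extends to the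
operations, along any relation `R` that is closed under the structure and lifts fillers. -/
def LiftStmt (C : GlobTheory.{u}) (𝒜 : Type v) [Category.{u} 𝒜] : Prop :=
  ∀ (Φ : Shape ⥤ 𝒜), Sums Φ →
    ∀ R : ∀ S T : Shape, C.arr S T → (Φ.obj S ⟶ Φ.obj T) → Prop,
      (∀ (S T : Shape) (f : S ⟶ T), R S T (C.ofShape f) (Φ.map f)) →
      (∀ (S T U : Shape) (g : C.arr S T) (g' : C.arr T U) (φ : Φ.obj S ⟶ Φ.obj T)
        (φ' : Φ.obj T ⟶ Φ.obj U), R S T g φ → R T U g' φ' → R S U (C.seq g g') (φ ≫ φ')) →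
      (∀ (S : Shape) (b h : ℕ) (hb : b < S.last) (hh : b < h) (T : Shape)
        (g : C.arr (S.glue b h hb hh) T) (φ : Φ.obj (S.glue b h hb hh) ⟶ Φ.obj T),
        R S T (C.seq (C.ofShape (S.inLeft b h hb hh)) g) (Φ.map (S.inLeft b h hb hh) ≫ φ) →
        R (Shape.globe h) T (C.seq (C.ofShape (S.inRight b h hb hh)) g)
          (Φ.map (S.inRight b h hb hh) ≫ φ) → R _ T g φ) →
      (∀ (A : Shape) (k : ℕ), A.dim ≤ k + 1 → ∀ (z : C.arr (Shape.globe (k + 1)) A)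
        (l r : Φ.obj (Shape.globe k) ⟶ Φ.obj A), (ofF Φ).Par k l r →
        R _ A (C.seq (C.ofShape (Shape.σ k)) z) l → R _ A (C.seq (C.ofShape (Shape.τ k)) z) r →
        ∃ φ : Φ.obj (Shape.globe (k + 1)) ⟶ Φ.obj A, Φ.map (Shape.σ k) ≫ φ = l ∧
          Φ.map (Shape.τ k) ≫ φ = r ∧ R _ A z φ) →
      ∃ G : ∀ S T : Shape, C.arr S T → (Φ.obj S ⟶ Φ.obj T),
        (∀ (S T : Shape) (f : S ⟶ T), G S T (C.ofShape f) = Φ.map f) ∧
        (∀ (S T U : Shape) (g : C.arr S T) (g' : C.arr T U),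
          G S U (C.seq g g') = G S T g ≫ G T U g') ∧
        ∀ (S T : Shape) (g : C.arr S T), R S T g (G S T g)

/-! ## The concrete category of truncated models -/

section
variable (C : GlobTheory.{u}) (N : ℕ)

/-- Presheaves on the theory. -/
abbrev PSh : Type (u + 1) := C.Obᵒᵖ ⥤ Type u

/-- The presheaf is a model. -/
def IsModel (Z : PSh C) : Prop :=
  ∀ (S : Shape) (b h : ℕ) (hb : b < S.last) (hh : b < h),
    IsPullback (Z.map (C.incl.map (S.inLeft b h hb hh)).op)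
      (Z.map (C.incl.map (S.inRight b h hb hh)).op)
      (Z.map (C.incl.map (S.hinge hb)).op)
      (Z.map (C.incl.map (Shape.faceMap hh false)).op)

/-- The underlying globular set of a presheaf. -/
noncomputable abbrev cellsOf (Z : PSh C) : GlobSet.{u} :=
  GlobPsh.toGlobSet (C.globes.op ⋙ Z)

/-- Models with unique fillers in dimensions `≥ N`. -/
def Good : ObjectProperty (PSh C) := fun Z =>
  IsModel C Z ∧ ∀ k, N ≤ k + 1 → ∀ a b : (cellsOf C Z).cell k, (cellsOf C Z).AreParallel k a b →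
    ∃! z : (cellsOf C Z).cell (k + 1), (cellsOf C Z).src k z = a ∧ (cellsOf C Z).tgt k z = b

/-- The category of truncated models. -/
abbrev DD : Type (u + 1) := (Good C N).FullSubcategory

variable {C N}

/-- The model underlying an object of `DD`. -/
def toModel (Z : DD C N) : C.GlobModel := ⟨Z.obj, Z.property.1⟩

/-- The map of models underlying a map of `DD`. -/
def toModelMap {Z Z' : DD C N} (f : Z ⟶ Z') : toModel Z ⟶ toModel Z' := f.hom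

/-- Free truncated models on objects of the theory. -/
noncomputable abbrev FC (L : PSh C ⥤ DD C N) : C.Ob ⥤ DD C N := yoneda ⋙ L

/-- Free truncated models on shapes. -/
noncomputable abbrev FF (L : PSh C ⥤ DD C N) : Shape ⥤ DD C N := C.incl ⋙ FC L

/-- The unit of the reflection does not change the cells of dimension `< N` of a model. -/
def CoskStmt {L : PSh C ⥤ DD C N} (adj : L ⊣ (Good C N).ι) : Prop :=
  ∀ (X : C.GlobModel) (k : ℕ), k < N →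
    Function.Bijective ((adj.unit.app X.functor).app (op (⟨Shape.globe k⟩ : C.Ob)))

end

end Crest.Agent.R248
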