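import Crest.Agent.R248.Basic

/-!
# Row 248: extending co-globular objects to functors on shapes
-/

set_option autoImplicit false
open CategoryTheory CategoryTheory.Limits Opposite Crest.GeometryTopology.Coherator

namespace Crest.Agent.R248

universe u v

namespace Ext

variable {𝒟 : Type v} [Category.{u} 𝒟]

/-- universe lift of globular sets -/
def U : GlobPsh.{0} ⥤ GlobPsh.{u} :=
  (Functor.whiskeringRight _ _ _).obj uliftFunctor.{u, 0}

instance : PreservesColimitsOfShape WalkingSpan U.{u} := by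
  unfold U; infer_instance

/-- the nerve of a functor on globes -/
def Nv (G : GlobeObj ⥤ 𝒟) : 𝒟 ⥤ GlobPsh.{u} :=
  yoneda ⋙ (Functor.whiskeringLeft _ _ _).obj G.op

/-- `η` exhibits `A` as the realization of `X` -/
def Rep (G : GlobeObj ⥤ 𝒟) {X : GlobPsh.{0}} {A : 𝒟} (η : U.obj X ⟶ (Nv G).obj A) : Prop :=
  ∀ Z : 𝒟, Function.Bijective fun φ : A ⟶ Z => η ≫ (Nv G).map φ

variable {G : GlobeObj ⥤ 𝒟}

theorem Rep.ext {X : GlobPsh.{0}} {A : 𝒟} {η : U.obj X ⟶ (Nv G).obj A} (h : Rep G η) {Z : 𝒟}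
    {φ φ' : A ⟶ Z} (e : η ≫ (Nv G).map φ = η ≫ (Nv G).map φ') : φ = φ' := (h Z).1 e

/-- the induced map -/
noncomputable def Rep.lift {X : GlobPsh.{0}} {A : 𝒟} {η : U.obj X ⟶ (Nv G).obj A} (h : Rep G η)
    {Z : 𝒟} (θ : U.obj X ⟶ (Nv G).obj Z) : A ⟶ Z := ((h Z).2 θ).choose

@[reassoc]
theorem Rep.fac {X : GlobPsh.{0}} {A : 𝒟} {η : U.obj X ⟶ (Nv G).obj A} (h : Rep G η)
    {Z : 𝒟} (θ : U.obj X ⟶ (Nv G).obj Z) : η ≫ (Nv G).map (h.lift θ) = θ :=
  ((h Z).2 θ).choose_spec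

/-- evaluation at the identity -/
def ev {g : GlobeObj} {Z : 𝒟} (θ : U.obj (yoneda.obj g) ⟶ (Nv G).obj Z) : G.obj g ⟶ Z :=
  θ.app (op g) (ULift.up (𝟙 g))

theorem ev_bij (g : GlobeObj) (Z : 𝒟) :
    Function.Bijective (ev : (U.obj (yoneda.obj g) ⟶ (Nv G).obj Z) → (G.obj g ⟶ Z)) :=
  (uliftYonedaEquiv.{u} (X := g) (F := (Nv G).obj Z)).bijective

theorem ev_comp {g : GlobeObj} {Z Z' : 𝒟} (θ : U.obj (yoneda.obj g) ⟶ (Nv G).obj Z)
    (φ : Z ⟶ Z') : ev (θ ≫ (Nv G).map φ) = ev θ ≫ φ := rfl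

theorem ev_map {g g' : GlobeObj} (a : g ⟶ g') {Z : 𝒟}
    (θ : U.obj (yoneda.obj g') ⟶ (Nv G).obj Z) :
    ev (U.map (yoneda.map a) ≫ θ) = G.map a ≫ ev θ :=
  (uliftYonedaEquiv_naturality.{u} (F := (Nv G).obj Z) (X := op g') θ a.op).symm

theorem rep_globe {g : GlobeObj} (η : U.obj (yoneda.obj g) ⟶ (Nv G).obj (G.obj g))
    (h : ev η = 𝟙 _) : Rep G η := by
  intro Z
  refine Function.Bijective.of_comp_left ?_ (ev_bij g Z).1
  have : (ev ∘ fun φ : G.obj g ⟶ Z => η ≫ (Nv G).map φ) = id := by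
    funext φ
    simp only [Function.comp, ev_comp, h, Category.id_comp, id]
  rw [this]; exact Function.bijective_id

theorem rep_pushout {X₀ X₁ X₂ X : GlobPsh.{0}} {x₁ : X₀ ⟶ X₁} {x₂ : X₀ ⟶ X₂} {y₁ : X₁ ⟶ X}
    {y₂ : X₂ ⟶ X} (hX : IsPushout x₁ x₂ y₁ y₂) {A₀ A₁ A₂ A : 𝒟} {f₁ : A₀ ⟶ A₁} {f₂ : A₀ ⟶ A₂}
    {i₁ : A₁ ⟶ A} {i₂ : A₂ ⟶ A} (hA : IsPushout f₁ f₂ i₁ i₂)
    {η₀ : U.obj X₀ ⟶ (Nv G).obj A₀} {η₁ : U.obj X₁ ⟶ (Nv G).obj A₁}
    {η₂ : U.obj X₂ ⟶ (Nv G).obj A₂} {η : U.obj X ⟶ (Nv G).obj A}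
    (h₀ : Rep G η₀) (h₁ : Rep G η₁) (h₂ : Rep G η₂)
    (e₁ : η₀ ≫ (Nv G).map f₁ = U.map x₁ ≫ η₁) (e₂ : η₀ ≫ (Nv G).map f₂ = U.map x₂ ≫ η₂)
    (d₁ : η₁ ≫ (Nv G).map i₁ = U.map y₁ ≫ η) (d₂ : η₂ ≫ (Nv G).map i₂ = U.map y₂ ≫ η) :
    Rep G η := by
  have hU := hX.map U.{u}
  intro Z
  constructor
  · intro φ φ' e
    simp only at e
    apply hA.hom_ext
    · apply h₁.ext
      rw [Functor.map_comp, Functor.map_comp, reassoc_of% d₁, reassoc_of% d₁, e]
    · apply h₂.ext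
      rw [Functor.map_comp, Functor.map_comp, reassoc_of% d₂, reassoc_of% d₂, e]
  · intro θ
    have w : f₁ ≫ h₁.lift (U.map y₁ ≫ θ) = f₂ ≫ h₂.lift (U.map y₂ ≫ θ) := by
      apply h₀.ext
      rw [Functor.map_comp, Functor.map_comp, reassoc_of% e₁, reassoc_of% e₂, h₁.fac, h₂.fac,
        hU.w_assoc]
    refine ⟨hA.desc _ _ w, ?_⟩
    apply hU.hom_ext
    · simp only
      rw [← reassoc_of% d₁, ← Functor.map_comp, hA.inl_desc, h₁.fac]
    · simp only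
      rw [← reassoc_of% d₂, ← Functor.map_comp, hA.inr_desc, h₂.fac]

variable (G)

/-- the unit on a globe -/
noncomputable def ηg (g : GlobeObj) : U.obj (yoneda.obj g) ⟶ (Nv G).obj (G.obj g) :=
  ((ev_bij g (G.obj g)).2 (𝟙 _)).choose

theorem ev_ηg (g : GlobeObj) : ev (ηg G g) = 𝟙 _ := ((ev_bij g (G.obj g)).2 (𝟙 _)).choose_spec

theorem rep_ηg (g : GlobeObj) : Rep G (ηg G g) := rep_globe _ (ev_ηg G g)

theorem ηg_nat {g g' : GlobeObj} (a : g ⟶ g') :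
    ηg G g ≫ (Nv G).map (G.map a) = U.map (yoneda.map a) ≫ ηg G g' := by
  apply (ev_bij g _).1
  rw [ev_comp, ev_map, ev_ηg, ev_ηg, Category.id_comp, Category.comp_id]

/-- a realization of a globular set -/
structure Real (X : GlobPsh.{0}) where
  ob : 𝒟
  η : U.obj X ⟶ (Nv G).obj ob
  rep : Rep G η

variable {G}

/-- the realization of a map -/
noncomputable def Real.map {X Y : GlobPsh.{0}} (A : Real G X) (B : Real G Y) (f : X ⟶ Y) :
    A.ob ⟶ B.ob := A.rep.lift (U.map f ≫ B.η)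

@[reassoc]
theorem Real.fac {X Y : GlobPsh.{0}} (A : Real G X) (B : Real G Y) (f : X ⟶ Y) :
    A.η ≫ (Nv G).map (A.map B f) = U.map f ≫ B.η := A.rep.fac _

theorem Real.map_id {X : GlobPsh.{0}} (A : Real G X) : A.map A (𝟙 X) = 𝟙 A.ob := by
  apply A.rep.ext
  rw [Real.fac, (Nv G).map_id, U.map_id, Category.comp_id, Category.id_comp]

theorem Real.map_comp {X Y Z : GlobPsh.{0}} (A : Real G X) (B : Real G Y) (C : Real G Z)
    (f : X ⟶ Y) (g : Y ⟶ Z) : A.map C (f ≫ g) = A.map B f ≫ B.map C g := by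
  apply A.rep.ext
  rw [Real.fac, (Nv G).map_comp, Real.fac_assoc, Real.fac, U.map_comp, Category.assoc]

theorem Real.w [HasFiniteColimits 𝒟] {X₀ X₁ X₂ : GlobPsh.{0}} (x₁ : X₀ ⟶ X₁) (x₂ : X₀ ⟶ X₂)
    (A₀ : Real G X₀) (A₁ : Real G X₁) (A₂ : Real G X₂) :
    U.map x₁ ≫ A₁.η ≫ (Nv G).map (pushout.inl (A₀.map A₁ x₁) (A₀.map A₂ x₂)) =
      U.map x₂ ≫ A₂.η ≫ (Nv G).map (pushout.inr (A₀.map A₁ x₁) (A₀.map A₂ x₂)) := by
  rw [← Real.fac_assoc A₀, ← Real.fac_assoc A₀, ← Functor.map_comp, ← Functor.map_comp,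
    pushout.condition]

/-- the realization of a pushout -/
noncomputable def Real.push [HasFiniteColimits 𝒟] {X₀ X₁ X₂ : GlobPsh.{0}} (x₁ : X₀ ⟶ X₁)
    (x₂ : X₀ ⟶ X₂) (A₀ : Real G X₀) (A₁ : Real G X₁) (A₂ : Real G X₂) :
    Real G (pushout x₁ x₂) where
  ob := pushout (A₀.map A₁ x₁) (A₀.map A₂ x₂)
  η := ((IsPushout.of_hasPushout x₁ x₂).map U.{u}).desc _ _ (Real.w x₁ x₂ A₀ A₁ A₂)
  rep := rep_pushout (IsPushout.of_hasPushout x₁ x₂) (IsPushout.of_hasPushout _ _) A₀.rep A₁.rep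
    A₂.rep (A₀.fac _ _) (A₀.fac _ _) (IsPushout.inl_desc _ _ _ _).symm
    (IsPushout.inr_desc _ _ _ _).symm

theorem Real.map_inl [HasFiniteColimits 𝒟] {X₀ X₁ X₂ : GlobPsh.{0}} (x₁ : X₀ ⟶ X₁)
    (x₂ : X₀ ⟶ X₂) (A₀ : Real G X₀) (A₁ : Real G X₁) (A₂ : Real G X₂) :
    A₁.map (Real.push x₁ x₂ A₀ A₁ A₂) (pushout.inl x₁ x₂) =
      pushout.inl (A₀.map A₁ x₁) (A₀.map A₂ x₂) := by
  apply A₁.rep.ext
  rw [Real.fac]
  exact IsPushout.inl_desc _ _ _ _

theorem Real.map_inr [HasFiniteColimits 𝒟] {X₀ X₁ X₂ : GlobPsh.{0}} (x₁ : X₀ ⟶ X₁)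
    (x₂ : X₀ ⟶ X₂) (A₀ : Real G X₀) (A₁ : Real G X₁) (A₂ : Real G X₂) :
    A₂.map (Real.push x₁ x₂ A₀ A₁ A₂) (pushout.inr x₁ x₂) =
      pushout.inr (A₀.map A₁ x₁) (A₀.map A₂ x₂) := by
  apply A₂.rep.ext
  rw [Real.fac]
  exact IsPushout.inr_desc _ _ _ _

variable (G)

/-- the realization of a globe -/
noncomputable def realGlobe (h : ℕ) : Real G (GlobPsh.globeRep h) :=
  ⟨G.obj ⟨h⟩, ηg G ⟨h⟩, rep_ηg G ⟨h⟩⟩

/-- the realization of a pasting scheme -/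
noncomputable def realP [HasFiniteColimits 𝒟] : {n : ℕ} → (p : Pasting n) → Real G p.build.1
  | _, .single h => realGlobe G h
  | _, .glue p b h hb hh =>
    Real.push (GlobPsh.globeRepFace hb true ≫ p.build.2) (GlobPsh.globeRepFace hh false)
      (realGlobe G b) (realP p) (realGlobe G h)

/-- the extension of `G` to shapes -/
noncomputable def ext [HasFiniteColimits 𝒟] : Shape ⥤ 𝒟 where
  obj S := (realP G S.pasting).ob
  map {S T} f := (realP G S.pasting).map (realP G T.pasting) f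
  map_id _ := Real.map_id _
  map_comp f g := Real.map_comp _ _ _ f g

theorem ext_sums [HasFiniteColimits 𝒟] : Sums (ext G) := by
  intro S b h hb hh
  have h1 := Real.map_inl (GlobPsh.globeRepFace hb true ≫ S.pasting.build.2)
    (GlobPsh.globeRepFace hh false) (realGlobe G b) (realP G S.pasting) (realGlobe G h)
  have h2 := Real.map_inr (GlobPsh.globeRepFace hb true ≫ S.pasting.build.2)
    (GlobPsh.globeRepFace hh false) (realGlobe G b) (realP G S.pasting) (realGlobe G h)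
  have h3 := IsPushout.of_hasPushout ((realGlobe G b).map (realP G S.pasting)
    (GlobPsh.globeRepFace hb true ≫ S.pasting.build.2))
    ((realGlobe G b).map (realGlobe G h) (GlobPsh.globeRepFace hh false))
  rw [← h1, ← h2] at h3
  exact h3

theorem ext_face [HasFiniteColimits 𝒟] {m n : ℕ} (h : m < n) (ε : Bool) :
    (ext G).map (Shape.faceMap h ε) = G.map (GlobeObj.faceArrow h ε) := by
  apply (rep_ηg G ⟨m⟩).ext
  exact (Real.fac (realGlobe G m) (realGlobe G n) _).trans (ηg_nat G _).symm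

/-! ### The functor on globes given by a co-globular object -/

variable (P : Seq 𝒟)

/-- iterated faces -/
def pole {m n : ℕ} (h : m < n) (ε : Bool) : P.ob m ⟶ P.ob n :=
  P.face ε m ≫ Functor.OfSequence.map P.σ (m + 1) n h

theorem face_face (ε ε' : Bool) (m : ℕ) :
    P.face ε m ≫ P.face ε' (m + 1) = P.face ε m ≫ P.σ (m + 1) := by
  cases ε <;> cases ε' <;> simp [P.σσ, P.ττ]

theorem pole_face {m n : ℕ} (h : m < n) (ε ε' : Bool) :
    pole P h ε ≫ P.face ε' n = pole P h ε ≫ P.σ n := by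
  unfold pole
  rcases Nat.eq_or_lt_of_le (Nat.succ_le_of_lt h) with rfl | h'
  · simp only [Nat.succ_eq_add_one, Functor.OfSequence.map_id, Category.comp_id, face_face]
  · obtain ⟨n, rfl⟩ : ∃ k, n = k + 1 := ⟨n - 1, by omega⟩
    rw [Functor.OfSequence.map_comp P.σ (m + 1) n (n + 1) (by omega) (by omega),
      Functor.OfSequence.map_le_succ]
    have := face_face P false ε' n
    simp only [Seq.face_false] at this
    simp only [Category.assoc, this]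

theorem pole_pole {m n k : ℕ} (h : m < n) (h' : n < k) (ε ε' : Bool) :
    pole P h ε ≫ pole P h' ε' = pole P (h.trans h') ε := by
  rw [pole.eq_1 P h', ← Category.assoc, pole_face]
  unfold pole
  rw [Functor.OfSequence.map_comp P.σ (m + 1) n k h h'.le,
    Functor.OfSequence.map_comp P.σ n (n + 1) k (by omega) h', Functor.OfSequence.map_le_succ]
  simp only [Category.assoc]

/-- action on arrows -/
def arr : {m n : ℕ} → GlobeObj.Arrow m n → (P.ob m ⟶ P.ob n)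
  | _, _, .refl _ => 𝟙 _
  | _, _, .pole h ε => pole P h ε

/-- the functor on globes -/
def toFun : GlobeObj ⥤ 𝒟 where
  obj g := P.ob g.dim
  map f := arr P f
  map_id _ := rfl
  map_comp {a b c} f g := by
    obtain ⟨a⟩ := a; obtain ⟨b⟩ := b; obtain ⟨c⟩ := c
    change GlobeObj.Arrow a b at f
    change GlobeObj.Arrow b c at g
    cases f with
    | refl => exact (Category.id_comp _).symm
    | pole h ε =>
      cases g with
      | refl => exact (Category.comp_id _).symm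
      | pole h' ε' => exact (pole_pole P h h' ε ε').symm

theorem toFun_face (ε : Bool) (k : ℕ) :
    (toFun P).map (GlobeObj.faceArrow (Nat.lt_succ_self k) ε) = P.face ε k := by
  change pole P _ ε = _
  simp only [pole, Nat.succ_eq_add_one, Functor.OfSequence.map_id, Category.comp_id]

theorem seq_ext (σ' τ' : ∀ k, P.ob k ⟶ P.ob (k + 1)) (h1 : ∀ k, σ' k ≫ σ' (k + 1) = σ' k ≫ τ' (k + 1))
    (h2 : ∀ k, τ' k ≫ σ' (k + 1) = τ' k ≫ τ' (k + 1)) (e1 : σ' = P.σ) (e2 : τ' = P.τ) :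
    Seq.mk P.ob σ' τ' h1 h2 = P := by
  subst e1 e2; rfl

/-! ### The canonical unit of a functor on shapes -/

/-- the canonical unit -/
noncomputable def ηs (Ψ : Shape ⥤ 𝒟) (S : Shape) :
    U.obj S.psh ⟶ (Nv (GlobTheory.globeShapes ⋙ Ψ)).obj (Ψ.obj S) where
  app g := TypeCat.ofHom fun x =>
    Ψ.map (X := Shape.globe g.unop.dim) (Y := S) (yonedaEquiv.symm x.down)
  naturality g g' a := by
    ext x
    change Ψ.map _ = Ψ.map _ ≫ Ψ.map _
    rw [← Ψ.map_comp]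
    congr 1
    exact (yonedaEquiv_symm_map a x.down :)

theorem ηs_nat (Ψ : Shape ⥤ 𝒟) {S T : Shape} (f : S ⟶ T) :
    ηs Ψ S ≫ (Nv _).map (Ψ.map f) = U.map f ≫ ηs Ψ T := by
  ext g x
  change Ψ.map _ ≫ Ψ.map _ = Ψ.map _
  rw [← Ψ.map_comp]
  congr 1
  exact (yonedaEquiv_symm_naturality_right g.unop f x.down :)

theorem ev_ηs (Ψ : Shape ⥤ 𝒟) (k : ℕ) :
    ev (G := GlobTheory.globeShapes ⋙ Ψ) (g := ⟨k⟩) (ηs Ψ (Shape.globe k)) = 𝟙 _ := by
  change Ψ.map _ = 𝟙 (Ψ.obj (Shape.globe k))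
  rw [← Ψ.map_id]
  congr 1
  exact (yonedaEquiv.symm_apply_eq.2 rfl :
    yonedaEquiv.symm (𝟙 (GlobeObj.mk k)) = 𝟙 (yoneda.obj (GlobeObj.mk k)))

theorem rep_ηs {Ψ : Shape ⥤ 𝒟} (h : Sums Ψ) (S : Shape) : Rep _ (ηs Ψ S) := by
  induction S using shape_induction with
  | h0 n => exact rep_globe (g := ⟨n⟩) _ (ev_ηs Ψ n)
  | h1 S b k hb hk ih =>
    exact rep_pushout (IsPushout.of_hasPushout _ _) (h S b k hb hk)
      (rep_globe (g := ⟨b⟩) _ (ev_ηs Ψ b)) ih (rep_globe (g := ⟨k⟩) _ (ev_ηs Ψ k))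
      (ηs_nat Ψ (S.hinge hb)) (ηs_nat Ψ (Shape.faceMap hk false))
      (ηs_nat Ψ (S.inLeft b k hb hk)) (ηs_nat Ψ (S.inRight b k hb hk))

end Ext

open Ext

theorem extStmt (𝒟 : Type v) [Category.{u} 𝒟] [HasFiniteColimits 𝒟] : ExtStmt 𝒟 := by
  intro P
  refine ⟨ext (toFun P), ext_sums _, seq_ext P _ _ _ _ ?_ ?_⟩
  · funext k
    exact (ext_face _ _ false).trans (toFun_face P false k)
  · funext k
    exact (ext_face _ _ true).trans (toFun_face P true k)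

theorem natStmt (𝒟 : Type v) [Category.{u} 𝒟] : NatStmt 𝒟 := by
  intro Ψ Ψ' hΨ α hσ hτ
  have hface : ∀ (m n : ℕ) (h : m < n) (ε : Bool),
      Ψ.map (Shape.faceMap h ε) ≫ α n = α m ≫ Ψ'.map (Shape.faceMap h ε) := by
    intro m n h ε
    induction n with
    | zero => omega
    | succ n ih =>
      rcases Nat.eq_or_lt_of_le (Nat.le_of_lt_succ h) with rfl | h'
      · cases ε
        · exact hσ m
        · exact hτ m
      · have e := faceMap_comp h' (Nat.lt_succ_self n) ε false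
        have e2 := hσ n
        unfold Shape.σ at e2
        rw [← e, Ψ.map_comp, Ψ'.map_comp, Category.assoc, e2, reassoc_of% (ih h')]
  let α' : GlobTheory.globeShapes ⋙ Ψ ⟶ GlobTheory.globeShapes ⋙ Ψ' :=
    { app := fun g => α g.dim
      naturality := by
        rintro ⟨m⟩ ⟨n⟩ a
        change GlobeObj.Arrow m n at a
        cases a with
        | refl =>
          have e1 := (GlobTheory.globeShapes ⋙ Ψ).map_id ⟨m⟩
          have e2 := (GlobTheory.globeShapes ⋙ Ψ').map_id ⟨m⟩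
          exact (congrArg (· ≫ α m) e1).trans ((Category.id_comp _).trans
            ((Category.comp_id _).symm.trans (congrArg (α m ≫ ·) e2.symm)))
        | pole h ε => exact hface m n h ε }
  let ν : Nv (GlobTheory.globeShapes ⋙ Ψ') ⟶ Nv (GlobTheory.globeShapes ⋙ Ψ) :=
    Functor.whiskerLeft yoneda ((Functor.whiskeringLeft _ _ _).map (NatTrans.op α'))
  refine ⟨{ app := fun S => (rep_ηs hΨ S).lift (ηs Ψ' S ≫ ν.app _), naturality := ?_ }, ?_⟩
  · intro S T f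
    apply (rep_ηs hΨ S).ext
    rw [Functor.map_comp, Functor.map_comp, reassoc_of% (ηs_nat Ψ f), Rep.fac, Rep.fac_assoc,
      ← reassoc_of% (ηs_nat Ψ' f), Category.assoc, ν.naturality]
  · intro k
    apply (rep_ηs hΨ _).ext
    rw [Rep.fac]
    apply (ev_bij (G := GlobTheory.globeShapes ⋙ Ψ) ⟨k⟩ _).1
    change α k ≫ ev (G := GlobTheory.globeShapes ⋙ Ψ') (g := ⟨k⟩) (ηs Ψ' (Shape.globe k)) =
      ev (G := GlobTheory.globeShapes ⋙ Ψ) (g := ⟨k⟩) (ηs Ψ (Shape.globe k)) ≫ α k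
    rw [ev_ηs, ev_ηs]
    exact (Category.comp_id _).trans (Category.id_comp _).symm

end Crest.Agent.R248
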