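import Crest.Agent.R248.Conc

/-!
# Row 248: from the transfer statement in truncated models to the pushout conjecture
-/

set_option autoImplicit false
set_option linter.unusedSectionVars false
open CategoryTheory CategoryTheory.Limits Opposite Crest.GeometryTopology.Coherator

namespace Crest.Agent.R248

universe u

namespace Final

/-! ## Base-point free weak equivalences of globular sets -/

section glob
variable {G G' G'' : GlobSet.{u}}

/-- Homotopic cells. -/
def Ho (G : GlobSet.{u}) (k : ℕ) (x y : G.cell k) : Prop := Relation.EqvGen (G.Step k) x y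

theorem bdry_succ_eq_iff {k : ℕ} (x : G.cell (k + 1)) (s : G.Sphere (k + 1)) :
    G.bdry (k + 1) x = s ↔ G.src k x = s.1.1 ∧ G.tgt k x = s.1.2 := by
  constructor
  · rintro rfl
    exact ⟨rfl, rfl⟩
  · rintro ⟨h1, h2⟩
    exact Subtype.ext (Prod.ext h1 h2)

theorem sphere_zero_eq (s s' : G.Sphere 0) : s = s' := rfl

theorem par_iff_bdry : ∀ {k : ℕ} (x y : G.cell k), G.AreParallel k x y ↔ G.bdry k x = G.bdry k y
  | 0, _, _ => ⟨fun _ => rfl, fun _ => trivial⟩
  | k + 1, x, y => (bdry_succ_eq_iff x (G.bdry (k + 1) y)).symm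

theorem bdry_map (f : G.Map G') : ∀ (k : ℕ) (x : G.cell k),
    G'.bdry k (f.app k x) = f.sphere k (G.bdry k x)
  | 0, _ => rfl
  | k + 1, x => (bdry_succ_eq_iff _ _).2 ⟨(f.app_src k x).symm, (f.app_tgt k x).symm⟩

theorem step_bdry {k : ℕ} {x y : G.cell k} (h : G.Step k x y) : G.bdry k x = G.bdry k y := by
  obtain ⟨c, rfl, rfl⟩ := h
  exact (par_iff_bdry _ _).1 (G.bdry (k + 1) c).2

theorem Ho.bdry {k : ℕ} {x y : G.cell k} (h : Ho G k x y) : G.bdry k x = G.bdry k y := by
  induction h with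
  | rel _ _ h => exact step_bdry h
  | refl _ => rfl
  | symm _ _ _ ih => exact ih.symm
  | trans _ _ _ _ _ ih ih' => exact ih.trans ih'

theorem step_map (f : G.Map G') {k : ℕ} {x y : G.cell k} (h : G.Step k x y) :
    G'.Step k (f.app k x) (f.app k y) := by
  obtain ⟨c, rfl, rfl⟩ := h
  exact ⟨f.app (k + 1) c, (f.app_src k c).symm, (f.app_tgt k c).symm⟩

theorem Ho.map (f : G.Map G') {k : ℕ} {x y : G.cell k} (h : Ho G k x y) :
    Ho G' k (f.app k x) (f.app k y) := by
  induction h with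
  | rel _ _ h => exact Relation.EqvGen.rel _ _ (step_map f h)
  | refl _ => exact Relation.EqvGen.refl _
  | symm _ _ _ ih => exact Relation.EqvGen.symm _ _ ih
  | trans _ _ _ _ _ ih ih' => exact Relation.EqvGen.trans _ _ _ ih ih'

theorem Ho.refl {k : ℕ} (x : G.cell k) : Ho G k x x := Relation.EqvGen.refl _

theorem Ho.symm {k : ℕ} {x y : G.cell k} (h : Ho G k x y) : Ho G k y x :=
  Relation.EqvGen.symm _ _ h

theorem Ho.trans {k : ℕ} {x y z : G.cell k} (h : Ho G k x y) (h' : Ho G k y z) : Ho G k x z :=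
  Relation.EqvGen.trans _ _ _ h h'

/-- Injectivity on homotopy classes of parallel `k`-cells. -/
def Inj (f : G.Map G') (k : ℕ) : Prop :=
  ∀ x y : G.cell k, G.bdry k x = G.bdry k y → Ho G' k (f.app k x) (f.app k y) → Ho G k x y

/-- Surjectivity on homotopy classes of `k`-cells with given boundary. -/
def Sur (f : G.Map G') (k : ℕ) : Prop :=
  ∀ (s : G.Sphere k) (y : G'.cell k), G'.bdry k y = f.sphere k s →
    ∃ x : G.cell k, G.bdry k x = s ∧ Ho G' k (f.app k x) y

/-- Strict lifting of `k`-cells with given boundary. -/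
def Lift (f : G.Map G') (k : ℕ) : Prop :=
  ∀ (s : G.Sphere k) (y : G'.cell k), G'.bdry k y = f.sphere k s →
    ∃ x : G.cell k, G.bdry k x = s ∧ f.app k x = y

/-- `h` is the composite of `f` and `g`. -/
def IsComp (f : G.Map G') (g : G'.Map G'') (h : G.Map G'') : Prop :=
  ∀ k x, h.app k x = g.app k (f.app k x)

theorem IsComp.sphere {f : G.Map G'} {g : G'.Map G''} {h : G.Map G''} (c : IsComp f g h) :
    ∀ (k : ℕ) (s : G.Sphere k), h.sphere k s = g.sphere k (f.sphere k s)
  | 0, _ => rfl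
  | k + 1, s => Subtype.ext (Prod.ext (c k s.1.1) (c k s.1.2))

theorem sphere_id {h : G.Map G} (c : ∀ k x, h.app k x = x) :
    ∀ (k : ℕ) (s : G.Sphere k), h.sphere k s = s
  | 0, _ => rfl
  | k + 1, s => Subtype.ext (Prod.ext (c k s.1.1) (c k s.1.2))

theorem inj_id {h : G.Map G} (c : ∀ k x, h.app k x = x) (k : ℕ) : Inj h k := by
  intro x y _ hxy
  rwa [c, c] at hxy

theorem sur_id {h : G.Map G} (c : ∀ k x, h.app k x = x) (k : ℕ) : Sur h k := by
  intro s y hy
  rw [sphere_id c] at hy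
  exact ⟨y, hy, by rw [c]; exact Ho.refl _⟩

variable {f : G.Map G'} {g : G'.Map G''} {h : G.Map G''} {k : ℕ}

theorem IsComp.inj_left (c : IsComp f g h) (hh : Inj h k) : Inj f k := by
  intro x y hb hxy
  refine hh x y hb ?_
  rw [c, c]
  exact hxy.map g

theorem IsComp.inj (c : IsComp f g h) (hf : Inj f k) (hg : Inj g k) : Inj h k := by
  intro x y hb hxy
  rw [c, c] at hxy
  exact hf x y hb (hg _ _ (by rw [bdry_map, bdry_map, hb]) hxy)

theorem IsComp.sur (c : IsComp f g h) (hf : Sur f k) (hg : Sur g k) : Sur h k := by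
  intro s y hy
  rw [c.sphere] at hy
  obtain ⟨x', hx', h1⟩ := hg _ y hy
  obtain ⟨x, hx, h2⟩ := hf s x' hx'
  exact ⟨x, hx, by rw [c]; exact (h2.map g).trans h1⟩

theorem IsComp.sur_left (c : IsComp f g h) (hh : Sur h k) (hg : Inj g k) : Sur f k := by
  intro s y hy
  obtain ⟨x, hx, h1⟩ := hh s (g.app k y) (by rw [bdry_map, hy, c.sphere])
  rw [c] at h1
  exact ⟨x, hx, hg _ _ (by rw [bdry_map, hx, hy]) h1⟩

theorem Lift.sur (hf : Lift f k) : Sur f k := by
  intro s y hy
  obtain ⟨x, hx, rfl⟩ := hf s y hy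
  exact ⟨x, hx, Ho.refl _⟩

theorem Lift.inj (hf : Lift f k) (hf' : Lift f (k + 1)) (hr : ∀ u, G'.Step k u u) :
    Inj f k := by
  have step : ∀ x y : G.cell k, G.bdry k x = G.bdry k y →
      G'.Step k (f.app k x) (f.app k y) → Ho G k x y := by
    rintro x y hb ⟨c, h1, h2⟩
    obtain ⟨z, hz, -⟩ := hf' ⟨(x, y), (par_iff_bdry _ _).2 hb⟩ c
      ((bdry_succ_eq_iff _ _).2 ⟨h1, h2⟩)
    exact Relation.EqvGen.rel _ _ ⟨z, (bdry_succ_eq_iff _ _).1 hz⟩
  have key : ∀ u v : G'.cell k, Ho G' k u v → ∀ x y : G.cell k, G.bdry k x = G.bdry k y →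
      f.app k x = u → f.app k y = v → Ho G k x y := by
    intro u v huv
    induction huv with
    | rel _ _ h =>
      rintro x y hb rfl rfl
      exact step x y hb h
    | refl u =>
      intro x y hb h1 h2
      exact step x y hb (by rw [h1, h2]; exact hr u)
    | symm _ _ _ ih =>
      intro x y hb h1 h2
      exact (ih y x hb.symm h2 h1).symm
    | trans u v w huv _ ih ih' =>
      intro x y hb h1 h2
      obtain ⟨x', hx', h3⟩ := hf (G.bdry k x) v
        (by rw [← bdry_map, h1]; exact (Ho.bdry huv).symm)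
      exact (ih x x' hx'.symm h1 h3).trans (ih' x' y (hx'.trans hb) h3 h2)
  intro x y hb hxy
  exact key _ _ hxy x y hb rfl rfl

theorem lift_of_bij {N : ℕ} (hb : ∀ k, k < N → Function.Bijective (f.app k)) :
    ∀ k, k < N → Lift f k
  | 0, hk => fun _ y _ => by
    obtain ⟨x, hx⟩ := (hb 0 hk).2 y
    exact ⟨x, rfl, hx⟩
  | k + 1, hk => fun s y hy => by
    obtain ⟨x, rfl⟩ := (hb (k + 1) hk).2 y
    obtain ⟨h1, h2⟩ := (bdry_succ_eq_iff _ _).1 hy
    refine ⟨x, (bdry_succ_eq_iff _ _).2 ⟨(hb k (by omega)).1 ?_, (hb k (by omega)).1 ?_⟩, rfl⟩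
    · rw [f.app_src]; exact h1
    · rw [f.app_tgt]; exact h2

end glob

/-- Restricting a generated equivalence relation to an invariant subtype. -/
theorem eqvGen_subtype {α : Type*} {r : α → α → Prop} {p : α → Prop}
    (hp : ∀ x y, Relation.EqvGen r x y → p x → p y) {x y : α} (h : Relation.EqvGen r x y) :
    ∀ (hx : p x) (hy : p y),
      Relation.EqvGen (fun a b : Subtype p => r a.1 b.1) ⟨x, hx⟩ ⟨y, hy⟩ := by
  induction h with
  | rel _ _ h => exact fun _ _ => Relation.EqvGen.rel _ _ h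
  | refl _ => exact fun _ _ => Relation.EqvGen.refl _
  | symm _ _ _ ih => exact fun hx hy => Relation.EqvGen.symm _ _ (ih hy hx)
  | trans a b c hab _ ih ih' =>
    exact fun hx hy => Relation.EqvGen.trans _ _ _ (ih hx (hp a b hab hx)) (ih' _ hy)

theorem eqvGen_val {α : Type*} {r : α → α → Prop} {p : α → Prop} {a b : Subtype p}
    (h : Relation.EqvGen (fun a b : Subtype p => r a.1 b.1) a b) : Relation.EqvGen r a.1 b.1 := by
  induction h with
  | rel _ _ h => exact Relation.EqvGen.rel _ _ h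
  | refl _ => exact Relation.EqvGen.refl _
  | symm _ _ _ ih => exact Relation.EqvGen.symm _ _ ih
  | trans _ _ _ _ _ ih ih' => exact Relation.EqvGen.trans _ _ _ ih ih'

/-! ## Models -/

section models
open GlobTheory GlobTheory.GlobModel

variable {C : GlobTheory.{u}}

theorem isComp_cellsMap {X Y Z : C.GlobModel} (f : X ⟶ Y) (g : Y ⟶ Z) :
    IsComp (cellsMap f) (cellsMap g) (cellsMap (f ≫ g)) := fun _ _ => rfl

theorem cellsMap_id (X : C.GlobModel) (k : ℕ) (x : X.cells.cell k) :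
    (cellsMap (𝟙 X)).app k x = x := rfl

theorem src_act (X : C.GlobModel) {k : ℕ} {T : Shape} (o : C.arr (Shape.globe (k + 1)) T)
    (x : X.functor.obj (op (⟨T⟩ : C.Ob))) :
    X.cells.src k (X.act o x) = X.act (C.seq (C.ofShape (Shape.σ k)) o) x :=
  (types_congr_hom (X.functor.map_comp
    (Quiver.Hom.op (X := (⟨Shape.globe (k + 1)⟩ : C.Ob)) (Y := (⟨T⟩ : C.Ob)) o)
    (C.incl.map (Shape.σ k)).op) x).symm

theorem tgt_act (X : C.GlobModel) {k : ℕ} {T : Shape} (o : C.arr (Shape.globe (k + 1)) T)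
    (x : X.functor.obj (op (⟨T⟩ : C.Ob))) :
    X.cells.tgt k (X.act o x) = X.act (C.seq (C.ofShape (Shape.τ k)) o) x :=
  (types_congr_hom (X.functor.map_comp
    (Quiver.Hom.op (X := (⟨Shape.globe (k + 1)⟩ : C.Ob)) (Y := (⟨T⟩ : C.Ob)) o)
    (C.incl.map (Shape.τ k)).op) x).symm

theorem act_one (X : C.GlobModel) {T : Shape} (x : X.functor.obj (op (⟨T⟩ : C.Ob))) :
    X.act (C.one T) x = x :=
  types_congr_hom (X.functor.map_id (op (⟨T⟩ : C.Ob))) x

theorem step_refl (e : C.UnitChoice) (X : C.GlobModel) (k : ℕ) (x : X.cells.cell k) :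
    X.cells.Step k x x := by
  refine ⟨X.unitCell e k x, ?_, ?_⟩
  · exact (src_act X (e.unit k) x).trans (by rw [e.src_unit]; exact act_one X x)
  · exact (tgt_act X (e.unit k) x).trans (by rw [e.tgt_unit]; exact act_one X x)

theorem map_basePoint {X Y : C.GlobModel} (f : X ⟶ Y) (e : C.UnitChoice) (x : X.cells.cell 0)
    (k : ℕ) : (cellsMap f).app k (X.basePoint e x k) = Y.basePoint e ((cellsMap f).app 0 x) k := by
  induction k with
  | zero => rfl
  | succ k ih =>
    have h := types_congr_hom (f.naturality (Quiver.Hom.op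
      (X := (⟨Shape.globe (k + 1)⟩ : C.Ob)) (Y := (⟨Shape.globe k⟩ : C.Ob)) (e.unit k)))
      (X.basePoint e x k)
    change (cellsMap f).app (k + 1) (X.unitCell e k (X.basePoint e x k)) =
      Y.unitCell e k ((cellsMap f).app k (X.basePoint e x k)) at h
    rw [ih] at h
    exact h

theorem loop_inv (G : GlobSet.{u}) (k : ℕ) (a : G.cell k) (x y : G.cell (k + 1))
    (h : Relation.EqvGen (G.Step (k + 1)) x y) (hx : G.src k x = a ∧ G.tgt k x = a) :
    G.src k y = a ∧ G.tgt k y = a := by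
  obtain ⟨h1, h2⟩ := (bdry_succ_eq_iff _ _).1 (Ho.bdry h)
  exact ⟨h1.symm.trans hx.1, h2.symm.trans hx.2⟩

theorem isWeakEquiv_of (e : C.UnitChoice) {X Y : C.GlobModel} (f : X ⟶ Y)
    (hi : ∀ k, Inj (cellsMap f) k) (hs : ∀ k, Sur (cellsMap f) k) : IsWeakEquiv e f := by
  refine ⟨⟨?_, ?_⟩, fun x n => ⟨?_, ?_⟩⟩
  · intro a b
    induction a using Quot.ind with | _ a => ?_
    induction b using Quot.ind with | _ b => ?_
    intro hab
    exact Quot.eqvGen_sound (hi 0 a b rfl (Quot.eqvGen_exact hab))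
  · intro b
    induction b using Quot.ind with | _ b => ?_
    obtain ⟨a, -, ha⟩ := hs 0 PUnit.unit b rfl
    exact ⟨Quot.mk _ a, Quot.eqvGen_sound ha⟩
  · intro a b
    induction a using Quot.ind with | _ a => ?_
    induction b using Quot.ind with | _ b => ?_
    intro hab
    have h1 := eqvGen_val (Quot.eqvGen_exact hab)
    have h2 := hi (n + 1) a.1 b.1 ((bdry_succ_eq_iff _ _).2
      ⟨a.2.1.trans b.2.1.symm, a.2.2.trans b.2.2.symm⟩) h1
    exact Quot.eqvGen_sound (eqvGen_subtype (loop_inv _ n _) h2 a.2 b.2)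
  · intro b
    induction b using Quot.ind with | _ b => ?_
    obtain ⟨a, ha, hab⟩ := hs (n + 1)
      ⟨(X.basePoint e x n, X.basePoint e x n), (par_iff_bdry _ _).2 rfl⟩ b.1
      ((bdry_succ_eq_iff _ _).2 ⟨b.2.1.trans (map_basePoint f e x n).symm,
        b.2.2.trans (map_basePoint f e x n).symm⟩)
    refine ⟨Quot.mk _ ⟨a, (bdry_succ_eq_iff _ _).1 ha⟩, Quot.eqvGen_sound ?_⟩
    exact eqvGen_subtype (loop_inv _ n _) hab
      (loopsMap f e x n ⟨a, (bdry_succ_eq_iff _ _).1 ha⟩).2 b.2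

/-- Cell attachments lift against maps with boundary lifting. -/
theorem lifts_attaching {X Y E B : C.GlobModel} {f : X ⟶ Y} (hf : IsAttaching f) {q : E ⟶ B}
    (hq : ∀ k, Lift (cellsMap q) k) : Lifts f q := by
  intro u v w
  have hz : ∀ κ : hf.ι, ∃ z : E.cells.cell (hf.dimOf κ),
      E.cells.bdry _ z = (cellsMap u).sphere _ (hf.sphere κ) ∧
        (cellsMap q).app _ z = (cellsMap v).app _ (hf.newCell κ) := fun κ =>
    hq _ _ _ (by
      rw [bdry_map, hf.newCell_bdry, ← (isComp_cellsMap f v).sphere, ← w,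
        (isComp_cellsMap u q).sphere])
  choose z hz1 hz2 using hz
  obtain ⟨l, ⟨hl1, hl2⟩, -⟩ := hf.universal E u z hz1
  refine ⟨l, hl1, ?_⟩
  obtain ⟨m, -, hm⟩ := hf.universal B (f ≫ v) (fun κ => (cellsMap v).app _ (hf.newCell κ))
    (fun κ => by rw [bdry_map, hf.newCell_bdry, (isComp_cellsMap f v).sphere])
  rw [hm (l ≫ q) ⟨by rw [← Category.assoc, hl1, w], fun κ => by
      rw [isComp_cellsMap l q, hl2, hz2]⟩, hm v ⟨rfl, fun _ => rfl⟩]

/-- Cellular models lift against maps with boundary lifting. -/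
theorem lift_cellular {X E B : C.GlobModel} (hX : X.IsCellularModel) {q : E ⟶ B}
    (hq : ∀ k, Lift (cellsMap q) k) (g : X ⟶ B) : ∃ l : X ⟶ E, l ≫ q = g := by
  obtain ⟨P⟩ := hX
  let _ := P.linOrd
  let _ := P.bot
  let _ := P.succ
  have := P.wf
  have := P.chain.isWellOrderContinuous
  have h1 : HasLiftingProperty (P.chain.incl.app ⊥) q :=
    HasLiftingProperty.transfiniteComposition.hasLiftingProperty_ι_app_bot
      (c := Cocone.mk X P.chain.incl) P.chain.isColimit
      (fun j hj => (lifts_iff _ _).1 (lifts_attaching (P.attach j hj) hq))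
  have hinit : IsInitial (P.chain.F.obj ⊥) := P.startIsInitial.ofIso P.chain.isoBot.symm
  obtain ⟨l, -, hl⟩ := (lifts_iff _ _).2 h1 (hinit.to E) g (hinit.hom_ext _ _)
  exact ⟨l, hl⟩

variable {N : ℕ} {L : PSh C ⥤ DD C N} (adj : L ⊣ (Good C N).ι) [HasFiniteColimits (DD C N)]
include adj

theorem lift_of_tf {E B : DD C N} {q : E ⟶ B} (hq : (ofF (FF L)).TF 0 q) :
    ∀ k, Lift (cellsMap (toModelMap q)) k
  | 0 => fun _ y _ => by
    obtain ⟨x, hx⟩ := (Seq.lifts_ι_zero q).1 (hq.lifts le_rfl) ((cE adj 0 B).symm y)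
    refine ⟨cE adj 0 E x, rfl, ?_⟩
    rw [← cE_comp, hx, Equiv.apply_symm_apply]
  | k + 1 => fun s y hy => by
    obtain ⟨h1, h2⟩ := (bdry_succ_eq_iff _ _).1 hy
    obtain ⟨x, hx1, hx2, hx3⟩ := hq.lift (Nat.zero_le _) ((cE adj k E).symm s.1.1)
      ((cE adj k E).symm s.1.2)
      ((par_iff_areParallel adj _ _).2 (by
        rw [Equiv.apply_symm_apply, Equiv.apply_symm_apply]; exact s.2))
      ((cE adj (k + 1) B).symm y)
      ((cE adj k B).injective (by
        rw [cE_σ, cE_comp, Equiv.apply_symm_apply, Equiv.apply_symm_apply]; exact h1))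
      ((cE adj k B).injective (by
        rw [cE_τ, cE_comp, Equiv.apply_symm_apply, Equiv.apply_symm_apply]; exact h2))
    refine ⟨cE adj (k + 1) E x, (bdry_succ_eq_iff _ _).2 ⟨?_, ?_⟩, ?_⟩
    · exact (cE_σ adj x).symm.trans (by rw [hx1, Equiv.apply_symm_apply])
    · exact (cE_τ adj x).symm.trans (by rw [hx2, Equiv.apply_symm_apply])
    · rw [← cE_comp, hx3, Equiv.apply_symm_apply]

omit adj [HasFiniteColimits (DD C N)] in
theorem isComp_toModelMap {X Y Z : DD C N} (f : X ⟶ Y) (g : Y ⟶ Z) :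
    IsComp (cellsMap (toModelMap f)) (cellsMap (toModelMap g)) (cellsMap (toModelMap (f ≫ g))) :=
  fun _ _ => rfl

theorem hid_we (e : C.UnitChoice) {X : DD C N} {f : X ⟶ X} (hf : (ofF (FF L)).HId f) (k : ℕ) :
    Inj (cellsMap (toModelMap f)) k ∧ Sur (cellsMap (toModelMap f)) k := by
  obtain ⟨W, H, p0, p1, h0, h1, rfl, hH⟩ := hf
  have l0 := lift_of_tf adj h0
  have l1 := lift_of_tf adj h1
  have i0 := (l0 k).inj (l0 (k + 1)) (step_refl e _ k)
  have i1 := (l1 k).inj (l1 (k + 1)) (step_refl e _ k)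
  have c1 := isComp_toModelMap H p1
  rw [hH] at c1
  have hid : ∀ k x, (cellsMap (toModelMap (𝟙 X))).app k x = x := fun _ _ => rfl
  exact ⟨(isComp_toModelMap H p0).inj (c1.inj_left (inj_id hid k)) i0,
    (isComp_toModelMap H p0).sur (c1.sur_left (sur_id hid k) i1) (l0 k).sur⟩

theorem cofibrant_L {X : C.GlobModel} (hX : X.IsCellularModel) :
    (ofF (FF L)).Cofibrant (L.obj X.functor) := by
  refine (Seq.cofibrant_iff _).2 fun E B q hq g => ?_
  obtain ⟨l, hl⟩ := lift_cellular hX (lift_of_tf adj hq)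
    (show X ⟶ toModel B from adj.homEquiv _ _ g)
  refine ⟨(adj.homEquiv X.functor E).symm l, (adj.homEquiv _ _).injective ?_⟩
  rw [adj.homEquiv_naturality_right, Equiv.apply_symm_apply]
  exact hl

theorem tc_L {X : C.GlobModel} {n : ℕ} {a : diskModel C n ⟶ X} {Y : C.GlobModel} {i : X ⟶ Y}
    {b : diskModel C (n + 1) ⟶ Y} (sq : IsPushout a (sourceIncl C n) i b) :
    (ofF (FF L)).TC n (L.map (X := X.functor) (Y := Y.functor) i) := by
  refine (Seq.tc_iff _).2 fun E B q hq => ?_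
  have h1 : Lifts (sourceIncl C n) (toModelMap q) := by
    intro u v w
    obtain ⟨x, hx1, hx2⟩ := hq.lift le_rfl
      ((adj.homEquiv (diskModel C n).functor E).symm u)
      ((adj.homEquiv (diskModel C (n + 1)).functor B).symm v) (by
        refine Eq.trans ?_ (adj.homEquiv_naturality_right_symm _ _)
        refine Eq.trans (adj.homEquiv_naturality_left_symm (sourceIncl C n) _).symm ?_
        exact congrArg _ w.symm)
    refine ⟨adj.homEquiv (diskModel C (n + 1)).functor E x, ?_, ?_⟩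
    · refine Eq.trans (adj.homEquiv_naturality_left (sourceIncl C n) x).symm ?_
      exact (congrArg _ hx1).trans (Equiv.apply_symm_apply _ _)
    · refine Eq.trans (adj.homEquiv_naturality_right x q).symm ?_
      exact (congrArg _ hx2).trans (Equiv.apply_symm_apply _ _)
  have h2 : Lifts i (toModelMap q) := by
    intro u v w
    obtain ⟨l, hl1, hl2⟩ := h1 (a ≫ u) (b ≫ v) (by
      rw [Category.assoc, w, ← Category.assoc, sq.w, Category.assoc])
    obtain ⟨m, hm1, hm2⟩ := IsPushout.ex sq u l hl1.symm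
    exact ⟨m, hm1, sq.hom_ext (by rw [← Category.assoc, hm1, w])
      (by rw [← Category.assoc, hm2, hl2])⟩
  intro u v w
  obtain ⟨l, hl1, hl2⟩ := h2 (adj.homEquiv X.functor E u) (adj.homEquiv Y.functor B v) (by
    refine Eq.trans (adj.homEquiv_naturality_right u q).symm ?_
    rw [w]
    exact adj.homEquiv_naturality_left i v)
  refine ⟨(adj.homEquiv Y.functor E).symm l, ?_, ?_⟩
  · refine Eq.trans (adj.homEquiv_naturality_left_symm i l).symm ?_
    exact (congrArg _ hl1).trans (Equiv.symm_apply_apply _ _)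
  · refine Eq.trans (adj.homEquiv_naturality_right_symm l q).symm ?_
    exact (congrArg _ hl2).trans (Equiv.symm_apply_apply _ _)

end models

end Final

open Final GlobTheory GlobTheory.GlobModel in
theorem final_of (C : GlobTheory.{u}) (e : C.UnitChoice)
    (h : ∀ N, 1 ≤ N → ∃ (L : PSh C ⥤ DD C N) (adj : L ⊣ (Good C N).ι)
      (_ : HasFiniteColimits (DD C N)), CoskStmt adj ∧ ∀ n, (ofF (FF L)).Transfer n)
    (X : C.GlobModel) (hX : X.IsCellularModel) (n : ℕ)
    (a : GlobTheory.GlobModel.diskModel C n ⟶ X) (Y : C.GlobModel) (i : X ⟶ Y)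
    (b : GlobTheory.GlobModel.diskModel C (n + 1) ⟶ Y)
    (sq : IsPushout a (GlobTheory.GlobModel.sourceIncl C n) i b) :
    GlobTheory.GlobModel.IsWeakEquiv e i := by
  have key : ∀ k, Inj (cellsMap i) k ∧ Sur (cellsMap i) k := by
    intro k
    obtain ⟨L, adj, _, hc, hT⟩ := h (k + 2) (by omega)
    obtain ⟨ψ, h1, h2⟩ := hT n _ _ _ (tc_L adj sq) (cofibrant_L adj hX)
    set j := L.map (X := X.functor) (Y := Y.functor) i with hj
    obtain ⟨i1, s1⟩ := hid_we adj e h1 k
    obtain ⟨i2, -⟩ := hid_we adj e h2 k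
    have ij : Inj (cellsMap (toModelMap j)) k := (isComp_toModelMap j ψ).inj_left i1
    have sj : Sur (cellsMap (toModelMap j)) k :=
      (isComp_toModelMap j ψ).sur_left s1 ((isComp_toModelMap ψ j).inj_left i2)
    let η : ∀ Z : C.GlobModel, Z ⟶ toModel (L.obj Z.functor) := fun Z => adj.unit.app Z.functor
    have lη : ∀ Z : C.GlobModel, ∀ m, m < k + 2 → Lift (cellsMap (η Z)) m := fun Z =>
      lift_of_bij (fun m hm => hc Z m hm)
    have iη : ∀ Z : C.GlobModel, Inj (cellsMap (η Z)) k := fun Z =>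
      (lη Z k (by omega)).inj (lη Z (k + 1) (by omega)) (step_refl e _ k)
    have hnat : i ≫ η Y = η X ≫ toModelMap j := adj.unit.naturality i
    have c1 := isComp_cellsMap i (η Y)
    rw [hnat] at c1
    have c2 := isComp_cellsMap (η X) (toModelMap j)
    exact ⟨c1.inj_left (c2.inj (iη X) ij),
      c1.sur_left (c2.sur (lη X k (by omega)).sur sj) (iη Y)⟩
  exact isWeakEquiv_of e i (fun k => (key k).1) (fun k => (key k).2)

end Crest.Agent.R248
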