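import Crest.Agent.R248.Defs

/-!
# Row 248: the recursion principle of a theory with a tower (`LiftStmt`)
-/

set_option autoImplicit false
open CategoryTheory CategoryTheory.Limits Opposite Crest.GeometryTopology.Coherator

namespace Crest.Agent.R248

universe u v

namespace Lift

open GlobTheory

theorem map_par {C D : GlobTheory.{u}} (G : TheoryMap C D) {S : Shape} (n : ℕ)
    (f g : C.arr (Shape.globe n) S) (h : C.OpsParallel n f g) :
    D.OpsParallel n (G.map f) (G.map g) := by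
  cases n with
  | zero => trivial
  | succ n =>
    obtain ⟨h1, h2⟩ := h
    constructor
    · rw [← G.map_ofShape, ← G.map_seq, ← G.map_seq, h1]
    · rw [← G.map_ofShape, ← G.map_seq, ← G.map_seq, h2]

/-- A theory map onto a theory with a tower that lifts fillers has a section. -/
theorem exists_section {C E : GlobTheory.{u}} (T : C.Tower) (π : TheoryMap E C)
    (hlift : ∀ (A : Shape) (k : ℕ), A.dim ≤ k + 1 → ∀ (z : C.arr (Shape.globe (k + 1)) A)
      (l r : E.arr (Shape.globe k) A), E.OpsParallel k l r →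
      C.seq (C.ofShape (Shape.σ k)) z = π.map l → C.seq (C.ofShape (Shape.τ k)) z = π.map r →
      ∃ w : E.arr (Shape.globe (k + 1)) A, E.seq (E.ofShape (Shape.σ k)) w = l ∧
        E.seq (E.ofShape (Shape.τ k)) w = r ∧ π.map w = z) :
    ∃ s : TheoryMap C E, s.comp π = TheoryMap.id C := by
  have step : ∀ (r : ℕ) (G : TheoryMap (T.stage r) E), G.comp π = T.toEnd r →
      ∃ G' : TheoryMap (T.stage (r + 1)) E, (T.next r).comp G' = G ∧
        G'.comp π = T.toEnd (r + 1) := by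
    intro r G hG
    have hz : ∀ g, IsFillerAlong (T.toEnd r) (T.prob r g) ((T.toEnd (r + 1)).map (T.fill r g)) := by
      intro g
      obtain ⟨h1, h2⟩ := (T.free r).1 g
      constructor
      · rw [← (T.toEnd (r + 1)).map_ofShape, ← (T.toEnd (r + 1)).map_seq, h1, ← T.toEnd_comm r]
        rfl
      · rw [← (T.toEnd (r + 1)).map_ofShape, ← (T.toEnd (r + 1)).map_seq, h2, ← T.toEnd_comm r]
        rfl
    have hw : ∀ g, ∃ w : E.arr (Shape.globe ((T.prob r g).n + 1)) (T.prob r g).shape,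
        IsFillerAlong G (T.prob r g) w ∧ π.map w = (T.toEnd (r + 1)).map (T.fill r g) := by
      intro g
      obtain ⟨w, h1, h2, h3⟩ := hlift _ _ (T.prob r g).dim_le ((T.toEnd (r + 1)).map (T.fill r g))
        (G.map (T.prob r g).lower) (G.map (T.prob r g).upper) (map_par G _ _ _ (T.prob r g).parallel)
        (by rw [(hz g).1, ← hG]; rfl) (by rw [(hz g).2, ← hG]; rfl)
      exact ⟨w, ⟨h1, h2⟩, h3⟩
    choose w hw1 hw2 using hw
    obtain ⟨G', ⟨hG1, hG2⟩, -⟩ := (T.free r).2 E G w hw1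
    refine ⟨G', hG1, ?_⟩
    refine ((T.free r).2 C (T.toEnd r) _ hz).unique ⟨?_, fun g => ?_⟩ ⟨T.toEnd_comm r, fun g => rfl⟩
    · rw [← hG, ← hG1]; rfl
    · change π.map (G'.map (T.fill r g)) = _
      rw [hG2, hw2]
  choose nxt hn1 hn2 using step
  obtain ⟨u0⟩ := T.stage_zero E
  obtain ⟨u1⟩ := T.stage_zero C
  let G : ∀ r, {G : TheoryMap (T.stage r) E // G.comp π = T.toEnd r} := fun r =>
    Nat.rec ⟨u0.default, (u1.uniq _).trans (u1.uniq _).symm⟩
      (fun r G => ⟨nxt r G.1 G.2, hn2 r G.1 G.2⟩) r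
  obtain ⟨s, hs, -⟩ := T.colim E (fun r => (G r).1) (fun r => hn1 r (G r).1 (G r).2)
  refine ⟨s, (T.colim C T.toEnd T.toEnd_comm).unique (fun r => ?_) (fun r => rfl)⟩
  exact (congrArg (fun F => TheoryMap.comp F π) (hs r)).trans (G r).2

theorem sums_ex (C : GlobTheory.{u}) (S : Shape) (b h : ℕ) (hb : b < S.last) (hh : b < h)
    (T : Shape) (a : C.arr S T) (c : C.arr (Shape.globe h) T)
    (e : C.seq (C.ofShape (S.hinge hb)) a = C.seq (C.ofShape (Shape.faceMap hh false)) c) :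
    ∃ g : C.arr (S.glue b h hb hh) T, C.seq (C.ofShape (S.inLeft b h hb hh)) g = a ∧
      C.seq (C.ofShape (S.inRight b h hb hh)) g = c :=
  ⟨(C.respectsSums S b h hb hh).desc (W := (⟨T⟩ : C.Ob)) a c e,
    (C.respectsSums S b h hb hh).inl_desc (W := (⟨T⟩ : C.Ob)) a c e,
    (C.respectsSums S b h hb hh).inr_desc (W := (⟨T⟩ : C.Ob)) a c e⟩

theorem sums_un (C : GlobTheory.{u}) (S : Shape) (b h : ℕ) (hb : b < S.last) (hh : b < h)
    (T : Shape) (g g' : C.arr (S.glue b h hb hh) T)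
    (e1 : C.seq (C.ofShape (S.inLeft b h hb hh)) g = C.seq (C.ofShape (S.inLeft b h hb hh)) g')
    (e2 : C.seq (C.ofShape (S.inRight b h hb hh)) g = C.seq (C.ofShape (S.inRight b h hb hh)) g') :
    g = g' :=
  (C.respectsSums S b h hb hh).hom_ext (W := (⟨T⟩ : C.Ob)) e1 e2

theorem sums_of (P : PreTheory.{u})
    (w : ∀ (S : Shape) (b h : ℕ) (hb : b < S.last) (hh : b < h),
      P.seq (P.ofShape (S.hinge hb)) (P.ofShape (S.inLeft b h hb hh)) =
        P.seq (P.ofShape (Shape.faceMap hh false)) (P.ofShape (S.inRight b h hb hh)))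
    (ex : ∀ (S : Shape) (b h : ℕ) (hb : b < S.last) (hh : b < h)
      (T : Shape) (a : P.arr S T) (c : P.arr (Shape.globe h) T),
      P.seq (P.ofShape (S.hinge hb)) a = P.seq (P.ofShape (Shape.faceMap hh false)) c →
      ∃ g : P.arr (S.glue b h hb hh) T, P.seq (P.ofShape (S.inLeft b h hb hh)) g = a ∧
        P.seq (P.ofShape (S.inRight b h hb hh)) g = c)
    (un : ∀ (S : Shape) (b h : ℕ) (hb : b < S.last) (hh : b < h)
      (T : Shape) (g g' : P.arr (S.glue b h hb hh) T),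
      P.seq (P.ofShape (S.inLeft b h hb hh)) g = P.seq (P.ofShape (S.inLeft b h hb hh)) g' →
      P.seq (P.ofShape (S.inRight b h hb hh)) g = P.seq (P.ofShape (S.inRight b h hb hh)) g' →
      g = g') : P.RespectsSums := by
  intro S b h hb hh
  choose d d1 d2 using ex S b h hb hh
  exact ⟨⟨w S b h hb hh⟩, ⟨PushoutCocone.IsColimit.mk _
    (fun s => d s.pt.shape s.inl s.inr s.condition)
    (fun s => d1 s.pt.shape s.inl s.inr s.condition)
    (fun s => d2 s.pt.shape s.inl s.inr s.condition)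
    (fun s m e1 e2 => un S b h hb hh s.pt.shape m _
      (e1.trans (d1 s.pt.shape s.inl s.inr s.condition).symm)
      (e2.trans (d2 s.pt.shape s.inl s.inr s.condition).symm))⟩⟩

variable {C : GlobTheory.{u}} {𝒜 : Type v} [Category.{u} 𝒜] (Φ : Shape ⥤ 𝒜)
  (R : ∀ S T : Shape, C.arr S T → (Φ.obj S ⟶ Φ.obj T) → Prop)
  (h1 : ∀ (S T : Shape) (f : S ⟶ T), R S T (C.ofShape f) (Φ.map f))
  (h2 : ∀ (S T U : Shape) (g : C.arr S T) (g' : C.arr T U) (φ : Φ.obj S ⟶ Φ.obj T)
    (φ' : Φ.obj T ⟶ Φ.obj U), R S T g φ → R T U g' φ' → R S U (C.seq g g') (φ ≫ φ'))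

/-- The pre-theory of related pairs. -/
noncomputable def pre : PreTheory.{u} where
  arr S T := {p : C.arr S T × (Φ.obj S ⟶ Φ.obj T) // R S T p.1 p.2}
  one S := ⟨(C.one S, 𝟙 _), by
    have := h1 S S (𝟙 S)
    rwa [C.ofShape_id, Φ.map_id] at this⟩
  seq f g := ⟨(C.seq f.1.1 g.1.1, f.1.2 ≫ g.1.2), h2 _ _ _ _ _ _ _ f.2 g.2⟩
  one_seq f := Subtype.ext (Prod.ext (C.one_seq _) (Category.id_comp _))
  seq_one f := Subtype.ext (Prod.ext (C.seq_one _) (Category.comp_id _))
  seq_assoc f g h := Subtype.ext (Prod.ext (C.seq_assoc _ _ _) (Category.assoc _ _ _))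
  ofShape f := ⟨(C.ofShape f, Φ.map f), h1 _ _ f⟩
  ofShape_id S := Subtype.ext (Prod.ext (C.ofShape_id S) (Φ.map_id S))
  ofShape_comp f g := Subtype.ext (Prod.ext (C.ofShape_comp f g) (Φ.map_comp f g))

theorem pre_sums (hΦ : Sums Φ)
    (h3 : ∀ (S : Shape) (b h : ℕ) (hb : b < S.last) (hh : b < h) (T : Shape)
      (g : C.arr (S.glue b h hb hh) T) (φ : Φ.obj (S.glue b h hb hh) ⟶ Φ.obj T),
      R S T (C.seq (C.ofShape (S.inLeft b h hb hh)) g) (Φ.map (S.inLeft b h hb hh) ≫ φ) →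
      R (Shape.globe h) T (C.seq (C.ofShape (S.inRight b h hb hh)) g)
        (Φ.map (S.inRight b h hb hh) ≫ φ) → R _ T g φ) :
    (pre Φ R h1 h2).RespectsSums := by
  refine sums_of _ (fun S b h hb hh => ?_) (fun S b h hb hh T a c e => ?_)
    (fun S b h hb hh T g g' e1 e2 => ?_)
  · exact Subtype.ext (Prod.ext (C.respectsSums S b h hb hh).w (hΦ S b h hb hh).w)
  · have pA := hΦ S b h hb hh
    obtain ⟨g, g1, g2⟩ := sums_ex C S b h hb hh T a.1.1 c.1.1 (congrArg (fun p => p.1.1) e)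
    have c2 : Φ.map (S.hinge hb) ≫ a.1.2 = Φ.map (Shape.faceMap hh false) ≫ c.1.2 :=
      congrArg (fun p => p.1.2) e
    refine ⟨⟨(g, pA.desc _ _ c2), h3 S b h hb hh _ _ _ ?_ ?_⟩,
      Subtype.ext (Prod.ext g1 (pA.inl_desc _ _ c2)), Subtype.ext (Prod.ext g2 (pA.inr_desc _ _ c2))⟩
    · rw [g1, pA.inl_desc]
      exact a.2
    · rw [g2, pA.inr_desc]
      exact c.2
  · exact Subtype.ext (Prod.ext
      (sums_un C S b h hb hh T g.1.1 g'.1.1 (congrArg (fun p => p.1.1) e1)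
        (congrArg (fun p => p.1.1) e2))
      ((hΦ S b h hb hh).hom_ext (congrArg (fun p => p.1.2) e1) (congrArg (fun p => p.1.2) e2)))

end Lift

open GlobTheory in
theorem liftStmt (C : GlobTheory.{u}) (hT : Nonempty C.Tower) (𝒜 : Type v) [Category.{u} 𝒜] :
    LiftStmt C 𝒜 := by
  intro Φ hΦ R h1 h2 h3 h4
  obtain ⟨T⟩ := hT
  let E : GlobTheory.{u} := ⟨Lift.pre Φ R h1 h2, Lift.pre_sums Φ R h1 h2 hΦ h3⟩
  let π : TheoryMap E C :=
    { map := fun p => p.1.1
      map_one := fun _ => rfl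
      map_seq := fun _ _ => rfl
      map_ofShape := fun _ => rfl }
  obtain ⟨s, hs⟩ := Lift.exists_section T π (fun A k hA z l r hp hl hr => by
    have hp' : (ofF Φ).Par k l.1.2 r.1.2 := by
      cases k with
      | zero => trivial
      | succ k => exact ⟨congrArg (fun p => p.1.2) hp.1, congrArg (fun p => p.1.2) hp.2⟩
    obtain ⟨φ, e1, e2, hR⟩ := h4 A k hA z l.1.2 r.1.2 hp' (by rw [hl]; exact l.2)
      (by rw [hr]; exact r.2)
    exact ⟨⟨(z, φ), hR⟩, Subtype.ext (Prod.ext hl e1), Subtype.ext (Prod.ext hr e2), rfl⟩)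
  refine ⟨fun S T g => (s.map g).1.2, fun S T f => ?_, fun S T U g g' => ?_, fun S T g => ?_⟩
  · exact congrArg (fun p => p.1.2) (s.map_ofShape f)
  · exact congrArg (fun p => p.1.2) (s.map_seq g g')
  · have e : (s.map g).1.1 = g := congrArg (fun F : TheoryMap C C => F.map g) hs
    have := (s.map g).2
    rwa [e] at this

end Crest.Agent.R248
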