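import Crest.Agent.R248.Basic

/-!
# Row 248: from a cylinder to a path object
-/

set_option autoImplicit false
set_option linter.unusedSectionVars false
open CategoryTheory CategoryTheory.Limits Opposite Crest.GeometryTopology.Coherator

namespace Crest.Agent.R248

universe u v

variable {𝒟 : Type v} [Category.{u} 𝒟] [HasFiniteColimits 𝒟] [HasFiniteProducts 𝒟]
  {F : Shape ⥤ 𝒟} {N : ℕ}

namespace SumP

open Shape

theorem map_face (Φ : Shape ⥤ 𝒟) {a b c : ℕ} (h : a < b) (h' : b < c) (ε ε' : Bool) :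
    Φ.map (faceMap h ε) ≫ Φ.map (faceMap h' ε') = Φ.map (faceMap (h.trans h') ε) := by
  rw [← Φ.map_comp, faceMap_comp]

theorem map_hinge (Φ : Shape ⥤ 𝒟) (S : Shape) {b : ℕ} (hb : b < S.last) :
    Φ.map (S.hinge hb) = Φ.map (faceMap hb true) ≫ Φ.map (apx S) := by
  rw [← Φ.map_comp, hinge_eq]

/-- attaching one cell -/
theorem att1 (hs : Sums F) {n : ℕ} {G : Shape} {X C Y P : 𝒟} {b : F.obj G ⟶ X}
    (hb : (ofF F).TC n b) {b' h' : ℕ} (h1 : b' < G.last) (h2 : b' < h') {u : C ⟶ X} {g : C ⟶ Y}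
    {iX : X ⟶ P} {iY : Y ⟶ P} (sq : IsPushout u g iX iY) (c : F.obj (globe b') ⟶ C) [IsIso c]
    (y : F.obj (globe h') ⟶ Y) [IsIso y] (e1 : F.map (G.hinge h1) ≫ b = c ≫ u)
    (e2 : F.map (faceMap h2 false) ≫ y = c ≫ g) :
    ∃ p : F.obj (G.glue b' h' h1 h2) ⟶ P, (ofF F).TC n p ∧
      F.map (G.inRight b' h' h1 h2) ≫ p = y ≫ iY := by
  have s := hs G b' h' h1 h2
  obtain ⟨p, p1, p2⟩ := IsPushout.ex s (b ≫ iX) (y ≫ iY)
    (by rw [reassoc_of% e1, reassoc_of% e2, sq.w])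
  refine ⟨p, (Seq.tc_iff _).2 fun E B q hq f φ w => ?_, p2⟩
  obtain ⟨l, l1, l2⟩ := hb.lifts hq (F.map (G.inLeft b' h' h1 h2) ≫ f) (iX ≫ φ)
    (by rw [Category.assoc, w, reassoc_of% p1])
  obtain ⟨L, L1, L2⟩ := IsPushout.ex sq l (inv y ≫ F.map (G.inRight b' h' h1 h2) ≫ f) (by
    rw [← cancel_epi c, ← reassoc_of% e1, ← reassoc_of% e2, l1, IsIso.hom_inv_id_assoc,
      s.w_assoc])
  refine ⟨L, s.hom_ext ?_ ?_, sq.hom_ext ?_ ?_⟩
  · rw [reassoc_of% p1, L1, l1]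
  · rw [reassoc_of% p2, L2, IsIso.hom_inv_id_assoc]
  · rw [reassoc_of% L1, l2]
  · rw [reassoc_of% L2, w, reassoc_of% p2, IsIso.inv_hom_id_assoc]

variable {Φ : Shape ⥤ 𝒟} {n : ℕ}

theorem tc_up (htc : ∀ k, n < k → (ofF F).TC (n + 1) (Φ.map (σ k))) {b : ℕ} (hb : n < b) :
    ∀ {h : ℕ} (hh : b < h), (ofF F).TC (n + 1) (Φ.map (faceMap hh false))
  | 0, hh => absurd hh (Nat.not_lt_zero _)
  | h + 1, hh => by
    rcases Nat.lt_succ_iff_lt_or_eq.1 hh with h' | rfl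
    · rw [← map_face Φ h' (Nat.lt_succ_self h) false false]
      exact (tc_up htc hb h').comp (htc h (by omega))
    · exact htc _ hb

theorem exists_up (htc : ∀ k, n < k → (ofF F).TC (n + 1) (Φ.map (σ k))) {h : ℕ} (hh : n < h) :
    ∃ up : Φ.obj (globe (n + 1)) ⟶ Φ.obj (globe h), (ofF F).TC (n + 1) up ∧
      Φ.map (σ n) ≫ up = Φ.map (faceMap hh false) ∧
      Φ.map (τ n) ≫ up = Φ.map (faceMap hh true) := by
  rcases (Nat.succ_le_of_lt hh).lt_or_eq with h' | rfl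
  · exact ⟨_, tc_up htc (Nat.lt_succ_self n) h', map_face Φ _ _ _ _, map_face Φ _ _ _ _⟩
  · exact ⟨𝟙 _, Seq.tc_of_isIso _ _, Category.comp_id _, Category.comp_id _⟩

/-- the middle data of a cylinder -/
structure Mid (F Φ : Shape ⥤ 𝒟) (n : ℕ) (e : F.obj (globe (n + 1)) ⟶ Φ.obj (globe n))
    (m : F.obj (globe (n + 1)) ⟶ Φ.obj (globe (n + 1))) : Prop where
  m0 : F.map (σ n) ≫ m = F.map (τ n) ≫ e ≫ Φ.map (σ n)
  m1 : F.map (τ n) ≫ m = F.map (σ n) ≫ e ≫ Φ.map (τ n)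
  lift : ∀ (E B : 𝒟) (q : E ⟶ B), (ofF F).Fib (n + 1) q →
    ∀ (w0 x w1 : F.obj (globe (n + 1)) ⟶ E) (φ' : Φ.obj (globe (n + 1)) ⟶ B),
      F.map (σ n) ≫ x = F.map (τ n) ≫ w0 → F.map (τ n) ≫ x = F.map (σ n) ≫ w1 →
      e ≫ Φ.map (σ n) ≫ φ' = w0 ≫ q → m ≫ φ' = x ≫ q → e ≫ Φ.map (τ n) ≫ φ' = w1 ≫ q →
      ∃ φ : Φ.obj (globe (n + 1)) ⟶ E, e ≫ Φ.map (σ n) ≫ φ = w0 ∧ m ≫ φ = x ∧
        e ≫ Φ.map (τ n) ≫ φ = w1 ∧ φ ≫ q = φ'
  tc : ∀ k, n < k → (ofF F).TC (n + 1) (Φ.map (σ k))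

/-- attaching two cells -/
theorem att2 (hs : Sums F) {e : F.obj (globe (n + 1)) ⟶ Φ.obj (globe n)} [IsIso e]
    {m : F.obj (globe (n + 1)) ⟶ Φ.obj (globe (n + 1))} (hm : Mid F Φ n e m)
    {G : Shape} {X P : 𝒟} {b : F.obj G ⟶ X} (hb : (ofF F).TC (n + 1) b) (h1 : n < G.last)
    {h' : ℕ} (h2 : n < h') {u : Φ.obj (globe n) ⟶ X} {iX : X ⟶ P} {iY : Φ.obj (globe h') ⟶ P}
    (sq : IsPushout u (Φ.map (faceMap h2 false)) iX iY) (w : F.obj (globe (n + 1)) ⟶ F.obj G)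
    (e1 : F.map (τ n) ≫ w = F.map (G.hinge h1)) (e2 : w ≫ b = e ≫ u) :
    ∃ p : F.obj ((G.glue n (n + 1) h1 n.lt_succ_self).glue n (n + 1) n.lt_succ_self
        n.lt_succ_self) ⟶ P, (ofF F).TC (n + 1) p ∧
      F.map (inRight _ n (n + 1) _ _) ≫ p = e ≫ Φ.map (faceMap h2 true) ≫ iY := by
  obtain ⟨up, hup, u0, u1⟩ := exists_up hm.tc h2
  have s : IsPushout (F.map (τ n) ≫ w) (F.map (σ n)) (F.map (G.inLeft n (n + 1) h1 n.lt_succ_self))
      (F.map (G.inRight n (n + 1) h1 n.lt_succ_self)) := e1 ▸ hs G n (n + 1) h1 n.lt_succ_self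
  have s' : IsPushout (F.map (τ n) ≫ F.map (G.inRight n (n + 1) h1 n.lt_succ_self)) (F.map (σ n))
      (F.map (inLeft (G.glue n (n + 1) h1 n.lt_succ_self) n (n + 1) n.lt_succ_self n.lt_succ_self))
      (F.map (inRight _ n (n + 1) n.lt_succ_self n.lt_succ_self)) := by
    rw [← F.map_comp]
    exact hs (G.glue n (n + 1) h1 n.lt_succ_self) n (n + 1) n.lt_succ_self n.lt_succ_self
  generalize F.map (G.inLeft n (n + 1) h1 n.lt_succ_self) = a1 at s s'
  generalize F.map (G.inRight n (n + 1) h1 n.lt_succ_self) = a2 at s s'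
  generalize F.map (inLeft (G.glue n (n + 1) h1 n.lt_succ_self) n (n + 1) _ _) = a3 at s'
  generalize F.map (inRight (G.glue n (n + 1) h1 n.lt_succ_self) n (n + 1) _ _) = a4 at s' ⊢
  obtain ⟨p', p1, p2⟩ := IsPushout.ex s (b ≫ iX) (m ≫ up ≫ iY) (by
    rw [Category.assoc, reassoc_of% e2, sq.w, reassoc_of% hm.m0, reassoc_of% u0])
  obtain ⟨p, p3, p4⟩ := IsPushout.ex s' p' (e ≫ Φ.map (faceMap h2 true) ≫ iY) (by
    rw [Category.assoc, p2, reassoc_of% hm.m1, reassoc_of% u1])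
  refine ⟨p, (Seq.tc_iff _).2 fun E B q hq f φ w' => ?_, p4⟩
  obtain ⟨l, l1, l2⟩ := hb.lifts hq (a1 ≫ a3 ≫ f) (iX ≫ φ)
    (by rw [Category.assoc, Category.assoc, w', reassoc_of% p3, reassoc_of% p1])
  obtain ⟨ψ, ψ0, ψ1, ψ2, ψ3⟩ := hm.lift E B q hq (w ≫ a1 ≫ a3 ≫ f) (a2 ≫ a3 ≫ f) (a4 ≫ f)
    (up ≫ iY ≫ φ) (by rw [← s.w_assoc, Category.assoc]) (by rw [← s'.w_assoc, Category.assoc])
    (by rw [reassoc_of% u0, ← sq.w_assoc, ← reassoc_of% e2, ← l1, ← l2, Category.assoc,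
      Category.assoc])
    (by rw [Category.assoc, Category.assoc, w', reassoc_of% p3, reassoc_of% p2])
    (by rw [Category.assoc, w', reassoc_of% p4, reassoc_of% u1])
  obtain ⟨χ, χ1, χ2⟩ := hup.lifts hq ψ (iY ≫ φ) ψ3
  obtain ⟨L, L1, L2⟩ := IsPushout.ex sq l χ (by
    rw [← cancel_epi e, ← reassoc_of% e2, l1, ← u0, Category.assoc, χ1, ψ0])
  refine ⟨L, s'.hom_ext ?_ ?_, sq.hom_ext ?_ ?_⟩
  · rw [reassoc_of% p3]
    refine s.hom_ext ?_ ?_
    · rw [reassoc_of% p1, L1, l1]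
    · rw [reassoc_of% p2, L2, χ1, ψ1]
  · rw [reassoc_of% p4, L2, ← u1, Category.assoc, χ1, ψ2]
  · rw [reassoc_of% L1, l2]
  · rw [reassoc_of% L2, χ2]

/-- an object with a marked last globe is reached from a small shape -/
def Inv (jj : Bool → (F ⟶ Φ)) (e : F.obj (globe (n + 1)) ⟶ Φ.obj (globe n)) (X : 𝒟) (h : ℕ)
    (a : Φ.obj (globe h) ⟶ X) : Prop :=
  ∃ (G : Shape) (b : F.obj G ⟶ X), G.dim ≤ n + 1 ∧ (ofF F).TC (n + 1) b ∧
    (∀ m (hm : m < h), m < n → ∃ hm' : m < G.last,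
      F.map (G.hinge hm') ≫ b = (jj false).app _ ≫ Φ.map (faceMap hm true) ≫ a) ∧
    ∀ hn : n < h, ∃ (hn' : n < G.last) (w : F.obj (globe (n + 1)) ⟶ F.obj G),
      F.map (τ n) ≫ w = F.map (G.hinge hn') ∧ w ≫ b = e ≫ Φ.map (faceMap hn true) ≫ a

variable {jj : Bool → (F ⟶ Φ)} {e : F.obj (globe (n + 1)) ⟶ Φ.obj (globe n)}

/-- `x` is the last globe of `G` -/
def Last (G : Shape) {h : ℕ} (x : globe h ⟶ G) : Prop :=
  ∀ m (hm : m < h), ∃ hm' : m < G.last, G.hinge hm' = faceMap hm true ≫ x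

theorem last_globe (h : ℕ) : Last (globe h) (𝟙 _) := fun _ hm => ⟨hm, rfl⟩

theorem last_glue (S : Shape) (b h : ℕ) (hb : b < S.last) (hh : b < h) :
    Last (S.glue b h hb hh) (S.inRight b h hb hh) := fun _ hm => ⟨hm, rfl⟩

theorem dim_le {S : Shape} {b h k : ℕ} (hb : b < S.last) (hh : b < h) (h1 : S.dim ≤ k)
    (h2 : h ≤ k) : (S.glue b h hb hh).dim ≤ k := max_le h1 h2

theorem inv_low {X : 𝒟} {h : ℕ} (hh : h < n) {a : Φ.obj (globe h) ⟶ X} {G : Shape}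
    (hP : G.dim ≤ n + 1) {p : F.obj G ⟶ X} (hp : (ofF F).TC (n + 1) p)
    {x : globe h ⟶ G} (hx : Last G x) (e1 : F.map x ≫ p = (jj false).app _ ≫ a) :
    Inv jj e X h a := by
  refine ⟨G, p, hP, hp, fun m hm _ => (hx m hm).imp fun _ k => ?_, fun hn => by omega⟩
  rw [k, F.map_comp, Category.assoc, e1, NatTrans.naturality_assoc]

theorem face_e (he : F.map (σ n) ≫ e = (jj false).app _) {m : ℕ} (hm : m < n) (ε : Bool) :
    F.map (faceMap (hm.trans n.lt_succ_self) ε) ≫ e =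
      (jj false).app _ ≫ Φ.map (faceMap hm ε) := by
  rw [← map_face F hm n.lt_succ_self ε false, Category.assoc, ← NatTrans.naturality, ← he]
  rfl

theorem inv_high (he : F.map (σ n) ≫ e = (jj false).app _) {X : 𝒟} {h : ℕ}
    {a : Φ.obj (globe h) ⟶ X} {G : Shape}
    (hP : G.dim ≤ n + 1) {p : F.obj G ⟶ X} (hp : (ofF F).TC (n + 1) p)
    {x : globe (n + 1) ⟶ G} (hx : Last G x) (t : Φ.obj (globe n) ⟶ X)
    (e1 : F.map x ≫ p = e ≫ t)
    (e2 : ∀ m (hm : m < h) (hm' : m < n),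
      Φ.map (faceMap hm' true) ≫ t = Φ.map (faceMap hm true) ≫ a)
    (e3 : ∀ hn : n < h, t = Φ.map (faceMap hn true) ≫ a) : Inv jj e X h a := by
  refine ⟨G, p, hP, hp, fun m hm hm' => (hx m (hm'.trans n.lt_succ_self)).imp fun _ k => ?_,
    fun hn => (hx n n.lt_succ_self).imp fun _ k => ⟨F.map x, ?_, by rw [e1, e3 hn]⟩⟩
  · rw [k, F.map_comp, Category.assoc, e1, reassoc_of% face_e he hm', e2 m hm hm']
  · rw [k, F.map_comp]; rfl

theorem inv_two (hs : Sums F) [IsIso e] (he : F.map (σ n) ≫ e = (jj false).app _)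
    {m : F.obj (globe (n + 1)) ⟶ Φ.obj (globe (n + 1))} (hm : Mid F Φ n e m)
    {G : Shape} (hG : G.dim ≤ n + 1) {X P : 𝒟} {b : F.obj G ⟶ X} (hb : (ofF F).TC (n + 1) b)
    (h1 : n < G.last) {h' : ℕ} (h2 : n < h') {u : Φ.obj (globe n) ⟶ X} {iX : X ⟶ P}
    {iY : Φ.obj (globe h') ⟶ P} (sq : IsPushout u (Φ.map (faceMap h2 false)) iX iY)
    (w : F.obj (globe (n + 1)) ⟶ F.obj G)
    (e1 : F.map (τ n) ≫ w = F.map (G.hinge h1)) (e2 : w ≫ b = e ≫ u) : Inv jj e P h' iY := by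
  obtain ⟨p, hp, e3⟩ := att2 hs hm hb h1 h2 sq w e1 e2
  exact inv_high he (dim_le _ _ (dim_le _ _ hG le_rfl) le_rfl) hp (last_glue _ _ _ _ _) _ e3
    (fun m hm hm' => by rw [reassoc_of% map_face Φ hm' h2]) fun _ => rfl

theorem inv_all (hs : Sums F) (hΦ : Sums Φ) [IsIso e] (he : F.map (σ n) ≫ e = (jj false).app _)
    {m : F.obj (globe (n + 1)) ⟶ Φ.obj (globe (n + 1))} (hm : Mid F Φ n e m)
    (hlow : ∀ k, k < n → IsIso ((jj false).app (globe k))) (A : Shape) :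
    Inv jj e (Φ.obj A) A.last (Φ.map (apx A)) := by
  induction A using shape_induction with
  | h0 h =>
    change Inv jj e _ h (Φ.map (𝟙 (globe h)))
    rw [Φ.map_id]
    rcases lt_trichotomy h n with hh | rfl | hh
    · have := hlow h hh
      exact inv_low hh (G := globe h) (hh.le.trans n.le_succ) (Seq.tc_of_isIso _ ((jj false).app _))
        (last_globe h) (by simp)
    · exact inv_high he (G := globe (h + 1)) le_rfl (Seq.tc_of_isIso _ e) (last_globe _)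
        (𝟙 _) (by simp) (fun _ _ _ => rfl) fun hn => by omega
    · exact inv_two hs he hm (G := globe (n + 1)) le_rfl (b := e) (Seq.tc_of_isIso _ _)
        n.lt_succ_self hh (u := 𝟙 _) (iX := Φ.map (faceMap hh false))
        (IsPushout.of_horiz_isIso ⟨by simp⟩) (𝟙 _) (Category.comp_id _)
        (by simp)
  | h1 S b h hb hh ih =>
    change Inv jj e _ h (Φ.map (S.inRight b h hb hh))
    have sq := hΦ S b h hb hh
    rw [map_hinge] at sq
    obtain ⟨G, β, hG, hβ, H1, H2⟩ := ih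
    rcases lt_trichotomy b n with hbn | rfl | hbn
    · have := hlow b hbn
      obtain ⟨hb', e1⟩ := H1 b hb hbn
      rcases lt_trichotomy h n with hn | rfl | hn
      · have := hlow h hn
        obtain ⟨p, hp, e2⟩ := att1 hs hβ hb' hh sq _ ((jj false).app _) e1
          ((jj false).naturality _)
        exact inv_low hn (dim_le _ _ hG (by omega)) hp (last_glue _ _ _ _ _) e2
      · obtain ⟨p, hp, e2⟩ := att1 hs hβ hb' _ sq _ e e1 (face_e he hh false)
        exact inv_high he (dim_le _ _ hG le_rfl) hp (last_glue _ _ _ _ _) _ e2 (fun _ _ _ => rfl)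
          fun hn => by omega
      · have sq1 := IsPushout.of_hasPushout (Φ.map (faceMap hb true) ≫ Φ.map (apx S))
          (Φ.map (faceMap hbn false))
        obtain ⟨p, hp, e2⟩ := att1 hs hβ hb' _ sq1 _ e e1 (face_e he hbn false)
        rw [← map_face Φ hbn hn false false] at sq
        obtain ⟨iX, i1, i2⟩ := IsPushout.ex sq1 _ (Φ.map (faceMap hn false) ≫ _)
          (sq.w.trans (Category.assoc _ _ _))
        rw [← i1] at sq
        exact inv_two hs he hm (dim_le _ _ hG le_rfl) hp n.lt_succ_self hn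
          (IsPushout.of_top sq i2 sq1) _ (F.map_comp _ _).symm e2
    · obtain ⟨hb', w, e1, e2⟩ := H2 hb
      exact inv_two hs he hm hG hβ hb' hh sq w e1 e2
    · have k : ∀ m (h1 : m < b), Φ.map (faceMap (h1.trans hh) true) ≫ Φ.map (S.inRight b h hb hh) =
          Φ.map (faceMap (h1.trans hb) true) ≫ Φ.map (apx S) ≫ Φ.map (S.inLeft b h hb hh) := by
        intro m h1
        rw [← map_face Φ h1 hh true false, Category.assoc, ← sq.w, Category.assoc,
          reassoc_of% map_face Φ h1 hb]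
      refine ⟨G, β ≫ Φ.map (S.inLeft b h hb hh), hG,
        hβ.comp ((tc_up hm.tc hbn hh).of_isPushout sq), fun m h1 h2 => ?_, fun _ => ?_⟩
      · obtain ⟨h3, e1⟩ := H1 m (by omega) h2
        exact ⟨h3, by rw [reassoc_of% e1, k m (by omega)]⟩
      · obtain ⟨h3, w, e1, e2⟩ := H2 (by omega)
        exact ⟨h3, w, e1, by rw [reassoc_of% e2, k n hbn]⟩

theorem jj_eq (hs : Sums F) (hlow : ∀ k, k < n → (jj false).app (globe k) = (jj true).app (globe k))
    (A : Shape) (hA : A.dim < n) : (jj false).app A = (jj true).app A := by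
  induction A using shape_induction with
  | h0 h => exact hlow h hA
  | h1 S b h hb hh ih =>
    rw [dim_glue, max_lt_iff] at hA
    refine (hs S b h hb hh).hom_ext ?_ ?_
    · rw [NatTrans.naturality, NatTrans.naturality, ih hA.1]
    · rw [NatTrans.naturality, NatTrans.naturality, hlow h hA.2]

end SumP

open SumP Shape in
theorem path_of_cyl (c : Ctx F N) {n : ℕ} (hF : (ofF F).Fwd (n + 1)) (hE : ExtStmt 𝒟)
    (hNat : NatStmt 𝒟) {Q : Seq 𝒟} {j : Bool → ∀ k, (ofF F).ob k ⟶ Q.ob k}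
    (h : (ofF F).IsCyl N n Q j) : (ofF F).PathObj n := by
  obtain ⟨Φ, hΦ, rfl⟩ := hE Q
  choose jj hjj using fun ε => hNat F Φ c.sums (j ε) (h.natσ ε) (h.natτ ε)
  obtain rfl : j = fun ε k => (jj ε).app (globe k) := by
    funext ε k
    exact (hjj ε k).symm
  obtain ⟨e, hei, e0, e1, m, m0, m1, ml⟩ := h.mid
  have hm : Mid F Φ n e m := ⟨m0, m1, ml, h.tc⟩
  have hl : ∀ k, k < n → ∀ ε, (jj ε).app (globe k) = (jj false).app (globe k) := fun k hk ε => by
    cases ε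
    · rfl
    · exact (h.low k hk).1.symm
  have hi : ∀ k, k < n → ∀ ε, IsIso ((jj ε).app (globe k)) := fun k hk ε =>
    hl k hk ε ▸ (h.low k hk).2
  have hee : ∀ ε, (jj ε).app (globe n) ≫ inv e = (ofF F).face ε n := fun ε => by
    rw [IsIso.comp_inv_eq]
    cases ε
    · exact e0.symm
    · exact e1.symm
  have contr : ∀ A, (ofF F).Contr (n + 1) (Φ.obj A) := fun A => by
    obtain ⟨G, b, hG, hb, -⟩ := inv_all c.sums hΦ e0 hm (fun k hk => hi k hk false) A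
    exact hF _ _ b hb (c.cofibrant_obj G) _ (c.contr_obj G hG)
  have ext : ExtProp F Φ jj := by
    intro A k hA l r hlr z hzl hzr
    rcases le_or_gt n k with hk | hk
    · exact h.ext k hk _ (contr A) l r hlr (fun ε => z ≫ (jj ε).app A) hzl hzr
    have := hi k hk false
    suffices ∃ φ : Φ.obj (globe (k + 1)) ⟶ Φ.obj A, ∀ ε, (jj ε).app _ ≫ φ = z ≫ (jj ε).app A by
      obtain ⟨φ, hφ⟩ := this
      refine ⟨φ, ?_, ?_, hφ⟩
      · rw [← cancel_epi ((jj false).app _), ← NatTrans.naturality_assoc, hφ, hzl]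
      · rw [← cancel_epi ((jj false).app _), ← NatTrans.naturality_assoc, hφ, hzr]
    rcases (Nat.succ_le_of_lt hk).lt_or_eq with hk' | rfl
    · have := hi _ hk' false
      refine ⟨inv ((jj false).app _) ≫ z ≫ (jj false).app A, fun ε => ?_⟩
      rw [hl _ hk', IsIso.hom_inv_id_assoc]
      cases ε
      · rfl
      · rw [jj_eq c.sums (fun k hk => (h.low k hk).1) A (by omega)]
    · obtain ⟨x, x0, x1⟩ := (contr A).fill le_rfl (z ≫ (jj false).app A) (z ≫ (jj true).app A)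
        ⟨(hzl false).symm.trans (hl k hk true ▸ hzl true),
          (hzr false).symm.trans (hl k hk true ▸ hzr true)⟩
      refine ⟨inv e ≫ x, fun ε => ?_⟩
      rw [reassoc_of% hee ε]
      cases ε
      · exact x0
      · exact x1
  obtain ⟨W, p, E, Eσ, Eτ, Ep⟩ := c.path Φ jj hΦ ext h.uniq
  have sec : ∀ k, k ≤ n → ∀ (ε : Bool) (Z : 𝒟) (y : F.obj (globe k) ⟶ Z),
      ∃ φ : Φ.obj (globe k) ⟶ Z, (jj ε).app _ ≫ φ = y := by
    intro k hk ε Z y
    rcases hk.lt_or_eq with hk | rfl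
    · have := hi k hk ε
      exact ⟨inv ((jj ε).app _) ≫ y, IsIso.hom_inv_id_assoc _ _⟩
    · obtain ⟨w, w0, w1⟩ := c.exists_unit k
      refine ⟨inv e ≫ w ≫ y, ?_⟩
      rw [reassoc_of% hee ε]
      cases ε
      · exact (reassoc_of% w0) y
      · exact (reassoc_of% w1) y
  refine ⟨W, p, fun ε Z => (Seq.tf_iff_lifts _).2 fun k _ => ?_,
    fun Z => (Seq.fib_iff _).2 fun k hk a y w => ?_⟩
  · cases k with
    | zero =>
      refine (Seq.lifts_ι_zero _).2 fun y => ?_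
      obtain ⟨φ, hφ⟩ := sec 0 n.zero_le ε Z y
      exact ⟨(E Z 0).symm φ, by rw [Ep, Equiv.apply_symm_apply, hφ]⟩
    | succ k =>
      refine (Seq.lifts_ι_succ _ k).2 fun a b hab y ha hb => ?_
      rw [Ep] at ha hb
      suffices ∃ φ : Φ.obj (globe (k + 1)) ⟶ Z, Φ.map (σ k) ≫ φ = E Z k a ∧
          Φ.map (τ k) ≫ φ = E Z k b ∧ (jj ε).app _ ≫ φ = y by
        obtain ⟨φ, φ0, φ1, φ2⟩ := this
        refine ⟨(E Z _).symm φ, (E Z k).injective ?_, (E Z k).injective ?_, ?_⟩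
        · rw [Eσ, Equiv.apply_symm_apply, φ0]
        · rw [Eτ, Equiv.apply_symm_apply, φ1]
        · rw [Ep, Equiv.apply_symm_apply, φ2]
      rcases le_or_gt n k with hk | hk
      · refine h.tf k hk Z ε _ _ ?_ y ha.symm hb.symm
        cases k with
        | zero => trivial
        | succ k => exact ⟨by rw [← Eσ, ← Eσ, hab.1], by rw [← Eτ, ← Eτ, hab.2]⟩
      · obtain ⟨φ, hφ⟩ := sec (k + 1) hk ε Z y
        have := hi k hk ε
        refine ⟨φ, ?_, ?_, hφ⟩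
        · rw [← cancel_epi ((jj ε).app _), ← NatTrans.naturality_assoc, hφ, ha]
        · rw [← cancel_epi ((jj ε).app _), ← NatTrans.naturality_assoc, hφ, hb]
  · obtain ⟨φ, φ0, φ1⟩ := h.fib k hk Z (E Z k a) (fun ε => bif ε then y ≫ prod.snd else y ≫ prod.fst)
      fun ε => by
        rw [← Ep]
        cases ε
        · have := w =≫ prod.fst
          rwa [Category.assoc, prod.lift_fst, Category.assoc] at this
        · have := w =≫ prod.snd
          rwa [Category.assoc, prod.lift_snd, Category.assoc] at this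
    refine ⟨(E Z _).symm φ, (E Z k).injective ?_, prod.hom_ext ?_ ?_⟩
    · rw [Eσ, Equiv.apply_symm_apply, φ0]
    · rw [Category.assoc, prod.lift_fst, Ep, Equiv.apply_symm_apply]
      exact φ1 false
    · rw [Category.assoc, prod.lift_snd, Ep, Equiv.apply_symm_apply]
      exact φ1 true

end Crest.Agent.R248
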