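import Crest.Agent.R248.Basic

/-!
# Row 248: transfer, forward contractibility, Lemma A, base path object, zig-zags
-/

set_option autoImplicit false
set_option linter.unusedSectionVars false
open CategoryTheory CategoryTheory.Limits Opposite Crest.GeometryTopology.Coherator

namespace Crest.Agent.R248

universe u v

variable {𝒟 : Type v} [Category.{u} 𝒟] [HasFiniteColimits 𝒟] [HasFiniteProducts 𝒟]
  {F : Shape ⥤ 𝒟} {N : ℕ}

theorem transfer_of_path (c : Ctx F N) {n : ℕ} (h : (ofF F).PathObj n) : (ofF F).Transfer n := by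
  obtain ⟨W, p, hTF, hFib⟩ := h
  intro X Y j hj hX
  obtain ⟨HX, hHX⟩ := hX.lift (hTF true X) (𝟙 X)
  obtain ⟨ψ, hψ⟩ := c.extend hj (HX ≫ (p false).app X)
  refine ⟨ψ, ⟨W.obj X, HX, (p false).app X, (p true).app X, hTF _ _, hTF _ _, hψ.symm, hHX⟩, ?_⟩
  have nat : ∀ ε, W.map j ≫ (p ε).app Y = (p ε).app X ≫ j := fun ε => (p ε).naturality j
  obtain ⟨HY, -, hHY⟩ := hj.lifts (hFib Y) (HX ≫ W.map j) (prod.lift (ψ ≫ j) (𝟙 Y)) (by
    apply Limits.prod.hom_ext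
    · simp only [Category.assoc, prod.lift_fst, nat]
      rw [← Category.assoc, ← hψ, Category.assoc]
    · simp only [Category.assoc, prod.lift_snd, nat]
      rw [← Category.assoc, hHX]
      exact (Category.id_comp _).trans (Category.comp_id _).symm)
  refine ⟨W.obj Y, HY, (p false).app Y, (p true).app Y, hTF _ _, hTF _ _, ?_, ?_⟩
  · have := hHY =≫ prod.fst
    simpa only [Category.assoc, prod.lift_fst] using this
  · have := hHY =≫ prod.snd
    simpa only [Category.assoc, prod.lift_snd] using this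

theorem fwd_of_transfer {P : Seq 𝒟} {n : ℕ} (h : P.Transfer n) : P.Fwd n := by
  intro X Y j hj hX m hm
  obtain ⟨ψ, -, W, H, p0, p1, h0, -, hH0, hH1⟩ := h X Y j hj hX
  refine (Seq.contr_iff Y).2 fun k hk t => ?_
  obtain ⟨x, hx⟩ := (Seq.contr_iff X).1 hm k hk (t ≫ ψ)
  obtain ⟨l, hl, -⟩ := h0.lifts (Nat.zero_le k) (t ≫ H) (x ≫ j) (by
    rw [Category.assoc, hH0, ← Category.assoc, ← hx, Category.assoc])
  exact ⟨l ≫ p1, by rw [← Category.assoc, hl, Category.assoc, hH1, Category.comp_id]⟩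

theorem lemA_of (c : Ctx F N) {n : ℕ} (h : (ofF F).Fwd n) : (ofF F).LemA n := by
  intro U V j hj hU hcU hcV
  obtain ⟨d⟩ := (c.factFib n).nonempty_mapFactorizationData j
  have ha : (ofF F).TC n d.i := d.hi
  have hq : (ofF F).Fib n d.p := d.hp
  have hZ := h _ _ _ ha hU n hcU
  have hq' : (ofF F).TF n d.p := by
    refine (Seq.tf_iff_lifts _).2 fun k hk s y w => ?_
    obtain ⟨x, hx⟩ := (Seq.contr_iff _).1 hZ k hk s
    obtain ⟨z, hz1, hz2⟩ := hcV.fill (hk.trans (Nat.le_succ k)) (x ≫ d.p) y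
      ((Seq.ι_eq_iff _ _).1 (by rw [← Category.assoc, hx, w]))
    obtain ⟨w', hw1, hw2⟩ := hq.lift hk x z hz1
    refine ⟨(ofF F).τ k ≫ w', ?_, ?_⟩
    · rw [← Category.assoc, ← Seq.ι_σ_τ, Category.assoc, hw1, hx]
    · rw [Category.assoc, hw2, hz2]
  obtain ⟨l, hl1, hl2⟩ := hj.lifts hq' d.i (𝟙 V) (by rw [d.fac, Category.comp_id])
  refine (Seq.tc_iff _).2 fun E B p hp f g w => ?_
  obtain ⟨m, hm1, hm2⟩ := ha.lifts hp f (d.p ≫ g) (by rw [w, ← Category.assoc, d.fac])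
  exact ⟨l ≫ m, by rw [← Category.assoc, hl1, hm1],
    by rw [Category.assoc, hm2, ← Category.assoc, hl2, Category.id_comp]⟩

theorem path_base (c : Ctx F N) {n : ℕ} (hn : N ≤ n) : (ofF F).PathObj n := by
  refine ⟨𝟭 𝒟, fun _ => 𝟙 _, fun ε Z => Seq.tf_of_isIso _ _, fun Z => ?_⟩
  refine (Seq.fib_iff _).2 fun k hk => ?_
  have hN := c.hN
  obtain ⟨k, rfl⟩ : ∃ k', k = k' + 1 := ⟨k - 1, by omega⟩
  have h1 : IsIso ((ofF F).ι (k + 1)) := c.uniq.isIso_ι (by omega)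
  have h2 : IsIso ((ofF F).ι (k + 2)) := c.uniq.isIso_ι (by omega)
  have h3 : IsIso ((ofF F).bs (k + 1)) := ((ofF F).isPushout_bd (k + 1)).isIso_inl_of_isIso
  have h4 : IsIso ((ofF F).σ (k + 1)) := by
    rw [← Seq.bs_ι]; infer_instance
  intro f g w
  exact ⟨inv ((ofF F).σ (k + 1)) ≫ f, by rw [IsIso.hom_inv_id_assoc],
    by rw [Category.assoc, w, IsIso.inv_hom_id_assoc]⟩

namespace Transfer

theorem cof_flip (P : Seq 𝒟) (n : ℕ) :
    P.Cof (n + 1) (Seq.bdDesc (P.τ n) (P.σ n)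
      (by simpa using (Seq.par_σ_τ (P := P) (k := n) (𝟙 _)).symm)) := by
  refine (Seq.cof_iff _).2 fun E X q hq f g w => ?_
  obtain ⟨x, h1, h2, h3⟩ := hq.lift le_rfl (P.bt n ≫ f) (P.bs n ≫ f) (Seq.par_bs_bt f).symm g
    (by rw [Category.assoc, w, Seq.bt_bdDesc_assoc]) (by rw [Category.assoc, w, Seq.bs_bdDesc_assoc])
  exact ⟨x, Seq.bd_ext (by rw [Seq.bs_bdDesc_assoc, h2]) (by rw [Seq.bt_bdDesc_assoc, h1]), h3⟩

theorem exists_tc (P : Seq 𝒟) {n : ℕ} {J : 𝒟} (cc : Bool → (P.ob (n + 1) ⟶ J))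
    (hcc : ∀ ε, P.TC (n + 1) (cc ε)) (y0 : P.ob n ⟶ J) (hy : ∀ ε, P.face ε n ≫ cc ε = y0)
    {f0 f1 : Bool} {U : 𝒟} {x w0 w1 : P.ob (n + 1) ⟶ U} (h : P.IsW n f0 f1 x w0 w1) :
    ∃ g : U ⟶ pushout (P.τ n ≫ pushout.inl (P.σ n) y0) y0, P.TC (n + 1) g := by
  obtain ⟨g, hg1, hg2, hg3⟩ := h.ex (pushout (P.τ n ≫ pushout.inl (P.σ n) y0) y0)
    (pushout.inl _ _ ≫ pushout.inl _ _) (cc f0 ≫ pushout.inr _ _ ≫ pushout.inl _ _)
    (cc f1 ≫ pushout.inr _ _)
    (by rw [pushout.condition_assoc, ← Category.assoc (P.face f0 n), hy])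
    (by rw [← Category.assoc, pushout.condition, ← Category.assoc (P.face f1 n), hy])
  refine ⟨g, (Seq.tc_iff _).2 fun E B q hq u v w => ?_⟩
  obtain ⟨l0, h01, h02⟩ := (hcc f0).lifts hq (w0 ≫ u) (pushout.inr _ _ ≫ pushout.inl _ _ ≫ v)
    (by rw [Category.assoc, w, ← Category.assoc, hg2]; simp only [Category.assoc])
  obtain ⟨l1, h11, h12⟩ := (hcc f1).lifts hq (w1 ≫ u) (pushout.inr _ _ ≫ v)
    (by rw [Category.assoc, w, ← Category.assoc, hg3]; simp only [Category.assoc])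
  have e0 : P.σ n ≫ x ≫ u = y0 ≫ l0 := by
    rw [← Category.assoc, h.e0, ← hy f0, Category.assoc, Category.assoc, h01]
  have e1 : (P.τ n ≫ pushout.inl (P.σ n) y0) ≫ pushout.desc (x ≫ u) l0 e0 = y0 ≫ l1 := by
    rw [Category.assoc, pushout.inl_desc, ← Category.assoc, h.e1, ← hy f1, Category.assoc,
      Category.assoc, h11]
  refine ⟨pushout.desc (pushout.desc (x ≫ u) l0 e0) l1 e1, ?_, ?_⟩
  · refine h.un _ _ _ ?_ ?_ ?_
    · rw [← Category.assoc, hg1, Category.assoc, pushout.inl_desc, pushout.inl_desc]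
    · rw [← Category.assoc, hg2, Category.assoc, Category.assoc, pushout.inl_desc,
        pushout.inr_desc, h01]
    · rw [← Category.assoc, hg3, Category.assoc, pushout.inr_desc, h11]
  · apply pushout.hom_ext
    · rw [pushout.inl_desc_assoc]
      apply pushout.hom_ext
      · rw [pushout.inl_desc_assoc, Category.assoc, w, ← Category.assoc, hg1, Category.assoc]
      · rw [pushout.inr_desc_assoc, h02]
    · rw [pushout.inr_desc_assoc, h12]

theorem isW_std (hS : Sums F) (n : ℕ) : ∃ (S : Shape) (x w0 w1 : (ofF F).ob (n + 1) ⟶ F.obj S),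
    S.dim ≤ n + 1 ∧ (ofF F).IsW n true false x w0 w1 := by
  have hn := Nat.lt_succ_self n
  let S1 := (Shape.globe (n + 1)).glue n (n + 1) hn hn
  have s1 := hS (Shape.globe (n + 1)) n (n + 1) hn hn
  have s2 := hS S1 n (n + 1) hn hn
  have e1 : F.map ((Shape.globe (n + 1)).hinge hn) = (ofF F).τ n :=
    congrArg F.map (Category.comp_id (Shape.τ n))
  have e2 : F.map (S1.hinge hn) =
      (ofF F).τ n ≫ F.map ((Shape.globe (n + 1)).inRight n (n + 1) hn hn) :=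
    F.map_comp (Shape.τ n) ((Shape.globe (n + 1)).inRight n (n + 1) hn hn)
  have e3 : F.map (Shape.faceMap hn false) = (ofF F).σ n := rfl
  rw [e1, e3] at s1
  rw [e2, e3] at s2
  refine ⟨S1.glue n (n + 1) hn hn,
    F.map ((Shape.globe (n + 1)).inRight n (n + 1) hn hn) ≫ F.map (S1.inLeft n (n + 1) hn hn),
    F.map ((Shape.globe (n + 1)).inLeft n (n + 1) hn hn) ≫ F.map (S1.inLeft n (n + 1) hn hn),
    F.map (S1.inRight n (n + 1) hn hn), (max_le (max_le le_rfl le_rfl) le_rfl :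
      max (max (n + 1) (n + 1)) (n + 1) ≤ n + 1), ?_, ?_, ?_, ?_⟩
  · rw [Seq.face_true, ← Category.assoc, ← s1.w, Category.assoc]
  · rw [Seq.face_false, ← Category.assoc, s2.w]
  · intro Z x' w0' w1' h0 h1
    obtain ⟨a, ha1, ha2⟩ := IsPushout.ex s1 w0' x' h0.symm
    obtain ⟨b, hb1, hb2⟩ := IsPushout.ex s2 a w1' (by rw [Category.assoc, ha2]; exact h1)
    exact ⟨b, by rw [Category.assoc, hb1, ha2], by rw [Category.assoc, hb1, ha1], hb2⟩
  · intro Z g g' h1 h2 h3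
    refine s2.hom_ext (s1.hom_ext ?_ ?_) h3
    · simpa only [Category.assoc] using h2
    · simpa only [Category.assoc] using h1

end Transfer

theorem zig_of (c : Ctx F N) {n : ℕ} (hA : (ofF F).LemA (n + 1)) (hF : (ofF F).Fwd (n + 1)) :
    (ofF F).Zig n := by
  have hflip := Transfer.cof_flip (ofF F) n
  set ι' := Seq.bdDesc ((ofF F).τ n) ((ofF F).σ n)
    (by simpa using (Seq.par_σ_τ (P := ofF F) (k := n) (𝟙 _)).symm) with hι'
  obtain ⟨J, f, hf, hJ, -⟩ := c.exists_fill (n + 1) (pushout ((ofF F).ι (n + 1)) ι')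
  have hA0 : (ofF F).Contr (n + 1) ((ofF F).ob (n + 1)) :=
    c.contr_obj (Shape.globe (n + 1)) le_rfl
  let cc : Bool → ((ofF F).ob (n + 1) ⟶ J) := fun ε =>
    bif ε then pushout.inr _ _ ≫ f else pushout.inl _ _ ≫ f
  have hcc : ∀ ε, (ofF F).TC (n + 1) (cc ε) := by
    rintro (_ | _)
    · exact hA _ _ _ ((hflip.inl _).comp hf) (Seq.cofibrant_ob _) hA0 hJ
    · exact hA _ _ _ (((Seq.cof_ι le_rfl).inr _).comp hf) (Seq.cofibrant_ob _) hA0 hJ
  have hy : ∀ ε, (ofF F).face ε n ≫ cc ε = (ofF F).σ n ≫ cc false := by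
    rintro (_ | _)
    · rfl
    · have := (ofF F).bs n ≫= (pushout.condition (f := (ofF F).ι (n + 1)) (g := ι'))
      rw [Seq.bs_ι_assoc, hι', Seq.bs_bdDesc_assoc] at this
      change (ofF F).τ n ≫ pushout.inr _ _ ≫ f = (ofF F).σ n ≫ pushout.inl _ _ ≫ f
      rw [← Category.assoc, ← Category.assoc]
      exact congrArg (· ≫ f) this.symm
  obtain ⟨S, x, w0, w1, hS, hW⟩ := Transfer.isW_std c.sums n
  obtain ⟨g0, hg0⟩ := Transfer.exists_tc (ofF F) cc hcc _ hy hW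
  have hT := hF _ _ _ hg0 (c.cofibrant_obj S) _ (c.contr_obj S hS)
  intro f0 f1 U x w0 w1 h
  obtain ⟨g, hg⟩ := Transfer.exists_tc (ofF F) cc hcc _ hy h
  exact c.contr_back hg hT

end Crest.Agent.R248
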