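import Crest.Agent.R248.Cyl2
import Crest.Agent.R248.Transfer
import Crest.Agent.R248.Sum
import Crest.Agent.R248.Ext

/-!
# Row 248: the downward induction
-/

set_option autoImplicit false
set_option linter.unusedSectionVars false
open CategoryTheory CategoryTheory.Limits Opposite Crest.GeometryTopology.Coherator

namespace Crest.Agent.R248

universe u v

variable {𝒟 : Type v} [Category.{u} 𝒟] [HasFiniteColimits 𝒟] [HasFiniteProducts 𝒟]
  {F : Shape ⥤ 𝒟} {N : ℕ}

theorem transfer_all (c : Ctx F N) (n : ℕ) : (ofF F).Transfer n := by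
  suffices h : ∀ d n, N ≤ n + d → (ofF F).Transfer n from h N n (Nat.le_add_left _ _)
  intro d
  induction d with
  | zero => exact fun n hn => transfer_of_path c (path_base c hn)
  | succ d ih =>
    intro n hn
    by_cases h : N ≤ n
    · exact transfer_of_path c (path_base c h)
    have hF := fwd_of_transfer (ih (n + 1) (by omega))
    have hA := lemA_of c hF
    obtain ⟨Q, j, hQ⟩ := cyl_of c (not_le.1 h) hA hF (zig_of c hA hF)
    exact transfer_of_path c (path_of_cyl c hF (extStmt 𝒟) (natStmt 𝒟) hQ)

end Crest.Agent.R248
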