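import Crest.Agent.R248.Conc

/-!
# Row 248: path functors from cylinders on shapes
-/

set_option autoImplicit false
set_option linter.unusedSectionVars false
open CategoryTheory CategoryTheory.Limits Opposite Crest.GeometryTopology.Coherator

namespace Crest.Agent.R248

universe u

namespace PathAux

variable {C : GlobTheory.{u}} {N : ℕ}

/-- The presheaf of maps out of a functor on the theory. -/
abbrev psh (Φ' : C.Ob ⥤ DD C N) (Z : DD C N) : PSh C := Φ'.op ⋙ yoneda.obj Z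

theorem par_iff (Φ' : C.Ob ⥤ DD C N) (Z : DD C N) :
    ∀ (k : ℕ) (a b : (ofF (C.incl ⋙ Φ')).ob k ⟶ Z),
      (cellsOf C (psh Φ' Z)).AreParallel k a b ↔ (ofF (C.incl ⋙ Φ')).Par k a b
  | 0, _, _ => Iff.rfl
  | _ + 1, _, _ => Iff.rfl

theorem good (Φ' : C.Ob ⥤ DD C N) (hS : Sums (C.incl ⋙ Φ'))
    (hU : (ofF (C.incl ⋙ Φ')).UniqueFill N) (Z : DD C N) : Good C N (psh Φ' Z) :=
  ⟨fun S b h hb hh => ((hS S b h hb hh).op.map (yoneda.obj Z)).flip,
    fun k hk a b hab => hU k hk Z a b ((par_iff Φ' Z k a b).1 hab)⟩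

/-- The path functor. -/
def W (Φ' : C.Ob ⥤ DD C N) (hS : Sums (C.incl ⋙ Φ'))
    (hU : (ofF (C.incl ⋙ Φ')).UniqueFill N) : DD C N ⥤ DD C N where
  obj Z := ⟨psh Φ' Z, good Φ' hS hU Z⟩
  map f := ObjectProperty.homMk (Functor.whiskerLeft Φ'.op (yoneda.map f))
  map_id Z := by
    apply ObjectProperty.hom_ext
    simp
  map_comp f g := by
    apply ObjectProperty.hom_ext
    simp

variable {L : PSh C ⥤ DD C N} (adj : L ⊣ (Good C N).ι)

/-- The projection, on presheaves. -/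
noncomputable def projApp {Φ' : C.Ob ⥤ DD C N} (j : FC L ⟶ Φ') (Z : DD C N) :
    psh Φ' Z ⟶ Z.obj where
  app S := ↾fun (φ : Φ'.obj S.unop ⟶ Z) => cellEquiv adj S.unop Z (j.app S.unop ≫ φ)
  naturality S T g := by
    ext (φ : Φ'.obj S.unop ⟶ Z)
    change cellEquiv adj T.unop Z (j.app T.unop ≫ Φ'.map g.unop ≫ φ) =
      Z.obj.map g (cellEquiv adj S.unop Z (j.app S.unop ≫ φ))
    rw [← j.naturality_assoc, cellEquiv_map]
    rfl

theorem projApp_app {Φ' : C.Ob ⥤ DD C N} (j : FC L ⟶ Φ') (Z : DD C N) (S : C.Ob)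
    (φ : Φ'.obj S ⟶ Z) :
    (projApp adj j Z).app (op S) φ = cellEquiv adj S Z (j.app S ≫ φ) := rfl

/-- The projection. -/
noncomputable def proj {Φ' : C.Ob ⥤ DD C N} (hS : Sums (C.incl ⋙ Φ'))
    (hU : (ofF (C.incl ⋙ Φ')).UniqueFill N) (j : FC L ⟶ Φ') : W Φ' hS hU ⟶ 𝟭 (DD C N) where
  app Z := ObjectProperty.homMk (projApp adj j Z)
  naturality Z Z' f := by
    apply ObjectProperty.hom_ext
    ext S (φ : Φ'.obj S.unop ⟶ Z)
    change cellEquiv adj S.unop Z' (j.app S.unop ≫ φ ≫ f) =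
      f.hom.app S (cellEquiv adj S.unop Z (j.app S.unop ≫ φ))
    rw [← Category.assoc, cellEquiv_comp]

include adj in
theorem main (Φ' : C.Ob ⥤ DD C N) (hS : Sums (C.incl ⋙ Φ'))
    (hU : (ofF (C.incl ⋙ Φ')).UniqueFill N) (j : Bool → (FC L ⟶ Φ')) :
    ∃ (W : DD C N ⥤ DD C N) (p : Bool → (W ⟶ 𝟭 (DD C N)))
      (e : ∀ (Z : DD C N) (S : C.Ob), ((FC L).obj S ⟶ W.obj Z) ≃ (Φ'.obj S ⟶ Z)),
      (∀ Z (S T : C.Ob) (g : S ⟶ T) (x : (FC L).obj T ⟶ W.obj Z),
        e Z S ((FC L).map g ≫ x) = Φ'.map g ≫ e Z T x) ∧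
      ∀ Z S (x : (FC L).obj S ⟶ W.obj Z) (ε : Bool),
        x ≫ (p ε).app Z = (j ε).app _ ≫ e Z S x := by
  refine ⟨W Φ' hS hU, fun ε => proj adj hS hU (j ε),
    fun Z S => cellEquiv adj S ((W Φ' hS hU).obj Z), fun Z S T g x => ?_, fun Z S x ε => ?_⟩
  · exact cellEquiv_map adj g x
  · apply (cellEquiv adj S Z).injective
    exact cellEquiv_comp adj x _

/-- The action of an operation on free models. -/
noncomputable def act (L : PSh C ⥤ DD C N) {S T : Shape} (g : C.arr S T) :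
    (FF L).obj S ⟶ (FF L).obj T :=
  (FC L).map (X := (⟨S⟩ : C.Ob)) (Y := (⟨T⟩ : C.Ob)) g

theorem act_seq {S T U : Shape} (g : C.arr S T) (g' : C.arr T U) :
    act L (C.seq g g') = act L g ≫ act L g' :=
  (FC L).map_comp (X := ⟨S⟩) (Y := ⟨T⟩) (Z := ⟨U⟩) g g'

theorem act_ofShape {S T : Shape} (f : S ⟶ T) : act L (C.ofShape f) = (FF L).map f := rfl

end PathAux

open PathAux in
theorem pathStmt {C : GlobTheory.{u}} {N : ℕ} {L : PSh C ⥤ DD C N} (adj : L ⊣ (Good C N).ι)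
    (hL : LiftStmt C (DD C N)) : PathPrinciple (FF L) N := by
  intro Φ j hS hE hU
  obtain ⟨G, hG1, hG2, hG3⟩ := hL Φ hS
    (fun S T g φ => ∀ ε, (j ε).app S ≫ φ = act L g ≫ (j ε).app T)
    (fun S T f ε => ((j ε).naturality f).symm)
    (fun S T U g g' φ φ' h h' ε => by
      rw [← Category.assoc, h ε, Category.assoc, h' ε, act_seq, Category.assoc])
    (fun S b h hb hh T g φ h1 h2 ε => by
      apply (sums_FF adj S b h hb hh).hom_ext
      · rw [(j ε).naturality_assoc, h1 ε, act_seq, act_ofShape, Category.assoc]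
      · rw [(j ε).naturality_assoc, h2 ε, act_seq, act_ofShape, Category.assoc])
    (fun A k hA z l r hlr h1 h2 =>
      hE A k hA l r hlr (act L z)
        (fun ε => by rw [h1 ε, act_seq, act_ofShape, Category.assoc])
        (fun ε => by rw [h2 ε, act_seq, act_ofShape, Category.assoc]))
  let Φ' : C.Ob ⥤ DD C N :=
    { obj := fun S => Φ.obj S.shape
      map := fun {S T} g => G S.shape T.shape g
      map_id := fun S => by
        have := hG1 S.shape S.shape (𝟙 _)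
        rw [C.ofShape_id, Φ.map_id] at this
        exact this
      map_comp := fun {S T U} g g' => hG2 _ _ _ g g' }
  have hΦ : C.incl ⋙ Φ' = Φ :=
    CategoryTheory.Functor.hext (fun _ => rfl) (fun S T f => heq_of_eq (hG1 S T f))
  let j' : Bool → (FC L ⟶ Φ') := fun ε =>
    { app := fun S => (j ε).app S.shape
      naturality := fun S T g => (hG3 S.shape T.shape g ε).symm }
  obtain ⟨W, p, e, h1, h2⟩ := PathAux.main adj Φ' (hΦ ▸ hS) (hΦ ▸ hU) j'
  refine ⟨W, p, fun Z k => e Z ⟨Shape.globe k⟩, fun Z k x => ?_, fun Z k x => ?_,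
    fun Z k x ε => h2 Z ⟨Shape.globe k⟩ x ε⟩
  · rw [← hG1]
    exact h1 Z _ _ (C.incl.map (Shape.σ k)) x
  · rw [← hG1]
    exact h1 Z _ _ (C.incl.map (Shape.τ k)) x

end Crest.Agent.R248
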