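import Crest.Agent.R248.Basic

/-!
# Row 248: reflection onto truncated models, and the small object argument
-/

set_option autoImplicit false
set_option linter.unusedSectionVars false
open CategoryTheory CategoryTheory.Limits Opposite Crest.GeometryTopology.Coherator

namespace Crest.Agent.R248

universe u v

attribute [local instance] Cardinal.fact_isRegular_aleph0 Cardinal.orderBotAleph0OrdToType

namespace Ref

section
variable {𝒟 : Type v} [Category.{u} 𝒟]

theorem fp_pushout {A B D E : 𝒟} {f : A ⟶ B} {g : A ⟶ D} {i : B ⟶ E} {j : D ⟶ E}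
    (h : IsPushout f g i j) (hA : IsFinitelyPresentable.{u} A) (hB : IsFinitelyPresentable.{u} B)
    (hD : IsFinitelyPresentable.{u} D) : IsFinitelyPresentable.{u} E := by
  have : ∀ k, IsCardinalPresentable ((span f g).obj k) Cardinal.aleph0.{u} := by
    rintro (_ | _ | _)
    · exact hA
    · exact hB
    · exact hD
  exact isCardinalPresentable_of_isColimit' _ h.isColimit _
    ((hasCardinalLT_aleph0_iff _).2 inferInstance)

theorem fp_initial {A : 𝒟} (h : IsInitial A) : IsFinitelyPresentable.{u} A := by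
  have : ∀ k, IsCardinalPresentable ((Functor.empty.{0} 𝒟).obj k) Cardinal.aleph0.{u} :=
    fun k => k.as.elim
  exact isCardinalPresentable_of_isColimit' _ h _ ((hasCardinalLT_aleph0_iff _).2 inferInstance)

theorem fp_bd [HasFiniteColimits 𝒟] (P : Seq 𝒟) (h : ∀ k, IsFinitelyPresentable.{u} (P.ob k)) :
    ∀ k, IsFinitelyPresentable.{u} (P.bd k)
  | 0 => fp_initial P.isInitialBdZero
  | k + 1 => fp_pushout (P.isPushout_bd k) (fp_bd P h k) (h k) (h k)

theorem fact_of [HasColimitsOfSize.{u, u} 𝒟] {ι : Type} {A B : ι → 𝒟} (f : ∀ i, A i ⟶ B i)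
    (hA : ∀ i, IsFinitelyPresentable.{u} (A i)) :
    (MorphismProperty.ofHoms f).rlp.llp.HasFactorization (MorphismProperty.ofHoms f).rlp := by
  have : HasFiniteColimits 𝒟 := hasFiniteColimits_of_hasColimitsOfSize.{u, u} 𝒟
  have : (MorphismProperty.ofHoms f).IsCardinalForSmallObjectArgument Cardinal.aleph0.{u} :=
    { isSmall := MorphismProperty.isSmall_ofHoms _
      preservesColimit := by
        rintro _ _ X Y _ ⟨i⟩ g hg
        have := hA i
        infer_instance }
  have := SmallObject.hasFunctorialFactorization (MorphismProperty.ofHoms f) Cardinal.aleph0.{u}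
  infer_instance

end

variable (C : GlobTheory.{u}) (N : ℕ)

theorem fp_yoneda (X : C.Ob) : IsFinitelyPresentable.{u} (yoneda.obj X : PSh C) where
  preservesColimitOfShape J _ _ := by
    let e : coyoneda.obj (op (yoneda.obj X : PSh C)) ≅ (evaluation _ _).obj (op X) :=
      NatIso.ofComponents (fun P => Equiv.toIso yonedaEquiv)
    exact preservesColimitsOfShape_of_natIso e.symm

/-- the representables on shapes -/
noncomputable abbrev YY : Shape ⥤ PSh C := C.incl ⋙ yoneda

/-- indices of the gluing squares -/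
def Glu : Type := Σ' (S : Shape) (b h : ℕ), b < S.last ∧ b < h

/-- the comparison map of a gluing square -/
noncomputable def cmp (g : Glu) :
    pushout ((YY C).map (g.1.hinge g.2.2.2.1)) ((YY C).map (Shape.faceMap g.2.2.2.2 false)) ⟶
      (YY C).obj (g.1.glue g.2.1 g.2.2.1 g.2.2.2.1 g.2.2.2.2) :=
  pushout.desc ((YY C).map (g.1.inLeft _ _ g.2.2.2.1 g.2.2.2.2))
    ((YY C).map (g.1.inRight _ _ g.2.2.2.1 g.2.2.2.2))
    ((C.respectsSums _ _ _ g.2.2.2.1 g.2.2.2.2).toCommSq.map yoneda).w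

/-- the class of maps defining `Good` -/
def W : MorphismProperty (PSh C) :=
  MorphismProperty.ofHoms (cmp C) ⊔
    MorphismProperty.ofHoms (fun k : {k : ℕ // N ≤ k + 1} => (ofF (YY C)).ι (k.1 + 1))

instance : MorphismProperty.IsSmall.{u} (W C N) := by
  have h : W C N = ⨆ b : Bool, bif b then MorphismProperty.ofHoms (cmp C) else
      MorphismProperty.ofHoms (fun k : {k : ℕ // N ≤ k + 1} => (ofF (YY C)).ι (k.1 + 1)) := by
    rw [iSup_bool_eq]
    rfl
  have : ∀ b : Bool, MorphismProperty.IsSmall.{u} (bif b then MorphismProperty.ofHoms (cmp C) else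
      MorphismProperty.ofHoms (fun k : {k : ℕ // N ≤ k + 1} => (ofF (YY C)).ι (k.1 + 1))) := by
    rintro (_ | _)
    · exact MorphismProperty.isSmall_ofHoms _
    · exact MorphismProperty.isSmall_ofHoms _
  rw [h]
  infer_instance

theorem W_fp ⦃X Y : PSh C⦄ (f : X ⟶ Y) (hf : W C N f) :
    IsCardinalPresentable X Cardinal.aleph0.{u} ∧ IsCardinalPresentable Y Cardinal.aleph0.{u} := by
  rcases hf with (⟨⟨g⟩⟩ | ⟨⟨k⟩⟩)
  · exact ⟨fp_pushout (IsPushout.of_hasPushout _ _) (fp_yoneda C _) (fp_yoneda C _) (fp_yoneda C _),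
      fp_yoneda C _⟩
  · exact ⟨fp_bd _ (fun _ => fp_yoneda C _) _, fp_yoneda C _⟩

variable {C}

theorem ye_map {S S' : C.Ob} {Z : PSh C} (g : S' ⟶ S) (x : yoneda.obj S ⟶ Z) :
    yonedaEquiv (yoneda.map g ≫ x) = Z.map g.op (yonedaEquiv x) :=
  (yonedaEquiv_naturality x g).symm

theorem par_iff {Z : PSh C} : ∀ {k : ℕ} (a b : (ofF (YY C)).ob k ⟶ Z),
    (ofF (YY C)).Par k a b ↔ (cellsOf C Z).AreParallel k (yonedaEquiv a) (yonedaEquiv b)
  | 0, _, _ => Iff.rfl
  | k + 1, a, b => by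
    refine and_congr ?_ ?_
    · exact yonedaEquiv.apply_eq_iff_eq.symm.trans
        (Eq.congr (ye_map (C.incl.map (Shape.σ k)) a) (ye_map (C.incl.map (Shape.σ k)) b))
    · exact yonedaEquiv.apply_eq_iff_eq.symm.trans
        (Eq.congr (ye_map (C.incl.map (Shape.τ k)) a) (ye_map (C.incl.map (Shape.τ k)) b))

theorem bij_pushout {S S₀ S₁ S₂ : C.Ob} {f : S₀ ⟶ S₁} {g : S₀ ⟶ S₂} {i : S₁ ⟶ S} {j : S₂ ⟶ S}
    (w : f ≫ i = g ≫ j) (w' : yoneda.map f ≫ yoneda.map i = yoneda.map g ≫ yoneda.map j)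
    (Z : PSh C) :
    Function.Bijective (fun x : yoneda.obj S ⟶ Z => pushout.desc _ _ w' ≫ x) ↔
      IsPullback (Z.map i.op) (Z.map j.op) (Z.map f.op) (Z.map g.op) := by
  rw [Types.isPullback_iff]
  constructor
  · rintro ⟨h1, h2⟩
    refine ⟨by rw [← Z.map_comp, ← Z.map_comp, ← op_comp, ← op_comp, w], fun x y h => ?_,
      fun x y h => ?_⟩
    · obtain ⟨x, rfl⟩ := yonedaEquiv.surjective x
      obtain ⟨y, rfl⟩ := yonedaEquiv.surjective y
      rw [← ye_map, ← ye_map, ← ye_map, ← ye_map, yonedaEquiv.apply_eq_iff_eq,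
        yonedaEquiv.apply_eq_iff_eq] at h
      exact congrArg _ (h1 (pushout.hom_ext (by simpa [pushout.inl_desc_assoc] using h.1)
        (by simpa [pushout.inr_desc_assoc] using h.2)))
    · obtain ⟨x, rfl⟩ := yonedaEquiv.surjective x
      obtain ⟨y, rfl⟩ := yonedaEquiv.surjective y
      rw [← ye_map, ← ye_map, yonedaEquiv.apply_eq_iff_eq] at h
      obtain ⟨z, hz⟩ := h2 (pushout.desc x y h)
      refine ⟨yonedaEquiv z, ?_, ?_⟩
      · rw [← ye_map]
        simpa [pushout.inl_desc_assoc, pushout.inl_desc] using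
          congrArg (fun t => yonedaEquiv (pushout.inl _ _ ≫ t)) hz
      · rw [← ye_map]
        simpa [pushout.inr_desc_assoc, pushout.inr_desc] using
          congrArg (fun t => yonedaEquiv (pushout.inr _ _ ≫ t)) hz
  · rintro ⟨-, h1, h2⟩
    refine ⟨fun x y h => yonedaEquiv.injective (h1 _ _ ⟨?_, ?_⟩), fun t => ?_⟩
    · rw [← ye_map, ← ye_map]
      simpa [pushout.inl_desc_assoc, pushout.inl_desc] using
          congrArg (fun t => yonedaEquiv (pushout.inl _ _ ≫ t)) h
    · rw [← ye_map, ← ye_map]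
      simpa [pushout.inr_desc_assoc, pushout.inr_desc] using
          congrArg (fun t => yonedaEquiv (pushout.inr _ _ ≫ t)) h
    · obtain ⟨z, hz1, hz2⟩ := h2 (yonedaEquiv (pushout.inl _ _ ≫ t))
        (yonedaEquiv (pushout.inr _ _ ≫ t)) (by
          rw [← ye_map, ← ye_map, pushout.condition_assoc])
      obtain ⟨z, rfl⟩ := yonedaEquiv.surjective z
      rw [← ye_map, yonedaEquiv.apply_eq_iff_eq] at hz1 hz2
      exact ⟨z, pushout.hom_ext (by simpa [pushout.inl_desc_assoc] using hz1)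
        (by simpa [pushout.inr_desc_assoc] using hz2)⟩

theorem bij_ι (Z : PSh C) (k : ℕ) :
    Function.Bijective (fun x : (ofF (YY C)).ob (k + 1) ⟶ Z => (ofF (YY C)).ι (k + 1) ≫ x) ↔
      ∀ a b : (cellsOf C Z).cell k, (cellsOf C Z).AreParallel k a b →
        ∃! z : (cellsOf C Z).cell (k + 1),
          (cellsOf C Z).src k z = a ∧ (cellsOf C Z).tgt k z = b := by
  have hs : ∀ x : (ofF (YY C)).ob (k + 1) ⟶ Z,
      (cellsOf C Z).src k (yonedaEquiv x) = yonedaEquiv ((ofF (YY C)).σ k ≫ x) := fun x =>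
    (ye_map (C.incl.map (Shape.σ k)) x).symm
  have ht : ∀ x : (ofF (YY C)).ob (k + 1) ⟶ Z,
      (cellsOf C Z).tgt k (yonedaEquiv x) = yonedaEquiv ((ofF (YY C)).τ k ≫ x) := fun x =>
    (ye_map (C.incl.map (Shape.τ k)) x).symm
  rw [Function.bijective_iff_existsUnique]
  constructor
  · intro h a b hab
    obtain ⟨a, rfl⟩ := (yonedaEquiv (X := C.incl.obj (Shape.globe k)) (F := Z)).surjective a
    obtain ⟨b, rfl⟩ := (yonedaEquiv (X := C.incl.obj (Shape.globe k)) (F := Z)).surjective b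
    obtain ⟨z, h1, h2⟩ := h (Seq.bdDesc a b ((par_iff a b).2 hab))
    refine ⟨yonedaEquiv z, ⟨?_, ?_⟩, fun y hy => ?_⟩
    · rw [hs, ← Seq.bs_ι, Category.assoc, h1, Seq.bs_bdDesc]
    · rw [ht, ← Seq.bt_ι, Category.assoc, h1, Seq.bt_bdDesc]
    · obtain ⟨y, rfl⟩ := (yonedaEquiv (X := C.incl.obj (Shape.globe (k + 1))) (F := Z)).surjective y
      have a1 := yonedaEquiv.injective ((hs y).symm.trans hy.1)
      have a2 := yonedaEquiv.injective ((ht y).symm.trans hy.2)
      exact congrArg _ (h2 y (Seq.bd_ext (by simpa using a1) (by simpa using a2)))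
  · intro h s
    obtain ⟨z, h1, h2⟩ := h _ _ ((par_iff _ _).1 (Seq.par_bs_bt s))
    obtain ⟨z, rfl⟩ := (yonedaEquiv (X := C.incl.obj (Shape.globe (k + 1))) (F := Z)).surjective z
    have a1 := yonedaEquiv.injective ((hs z).symm.trans h1.1)
    have a2 := yonedaEquiv.injective ((ht z).symm.trans h1.2)
    refine ⟨z, Seq.bd_ext (by simpa using a1) (by simpa using a2), fun y hy => ?_⟩
    refine yonedaEquiv.injective (h2 _ ⟨?_, ?_⟩)
    · exact (hs y).trans (by rw [← hy, Seq.bs_ι_assoc]; rfl)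
    · exact (ht y).trans (by rw [← hy, Seq.bt_ι_assoc]; rfl)

variable (C)

theorem good_eq : Good C N = (W C N).isLocal := by
  ext Z
  constructor
  · rintro ⟨h1, h2⟩ _ _ _ (⟨⟨S, b, h, hb, hh⟩⟩ | ⟨⟨k, hk⟩⟩)
    · exact (bij_pushout (C.respectsSums S b h hb hh).w _ Z).2 (h1 S b h hb hh)
    · exact (bij_ι Z k).2 (h2 k hk)
  · intro hZ
    exact ⟨fun S b h hb hh => (bij_pushout (C.respectsSums S b h hb hh).w _ Z).1
      (hZ _ (.inl ⟨(⟨S, b, h, hb, hh⟩ : Glu)⟩)),
      fun k hk => (bij_ι Z k).1 (hZ _ (.inr ⟨(⟨k, hk⟩ : {k : ℕ // N ≤ k + 1})⟩))⟩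

theorem isRightAdjoint : (Good C N).ι.IsRightAdjoint := by
  rw [good_eq]
  exact MorphismProperty.isRightAdjoint_ι_isLocal _ Cardinal.aleph0.{u} (W_fp C N)

theorem accessible : (Good C N).ι.IsCardinalAccessible Cardinal.aleph0.{u} := by
  rw [good_eq]
  exact MorphismProperty.isCardinalAccessible_ι_isLocal _ Cardinal.aleph0.{u} (W_fp C N)

/-- the reflective structure -/
@[reducible] noncomputable def reflective : Reflective (Good C N).ι :=
  have := isRightAdjoint C N
  { L := _, adj := Adjunction.ofIsRightAdjoint (Good C N).ι }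

end Ref

variable {C : GlobTheory.{u}} {N : ℕ}

theorem refStmt : ∃ L : PSh C ⥤ DD C N, Nonempty (L ⊣ (Good C N).ι) :=
  (Ref.isRightAdjoint C N).exists_leftAdjoint

theorem hasFiniteColimits_DD : HasFiniteColimits (DD C N) :=
  let _ := Ref.reflective C N
  ⟨fun _ _ _ => hasColimitsOfShape_of_reflective (Good C N).ι⟩

theorem hasFiniteProducts_DD : HasFiniteProducts (DD C N) :=
  let _ := Ref.reflective C N
  ⟨fun _ => hasLimitsOfShape_of_reflective (Good C N).ι⟩

theorem factStmt [HasFiniteColimits (DD C N)] {L : PSh C ⥤ DD C N} (adj : L ⊣ (Good C N).ι)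
    (m : ℕ) : ((ofF (FF L)).Cof m).HasFactorization ((ofF (FF L)).TF m) ∧
      ((ofF (FF L)).TC m).HasFactorization ((ofF (FF L)).Fib m) := by
  let _ := Ref.reflective C N
  have : HasColimitsOfSize.{u, u} (DD C N) := hasColimits_of_reflective (Good C N).ι
  have := Ref.accessible C N
  have h : ∀ k, IsFinitelyPresentable.{u} ((ofF (FF L)).ob k) := fun k => by
    have := Ref.fp_yoneda C (C.incl.obj (Shape.globe k))
    exact adj.isCardinalPresentable_leftAdjoint_obj _ (yoneda.obj (C.incl.obj (Shape.globe k)))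
  exact ⟨Ref.fact_of _ fun k => Ref.fp_bd _ h _, Ref.fact_of _ fun k => h _⟩

end Crest.Agent.R248
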